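import Vale.Agent.P207.N3.Spec

/-!
# P207, line N3: jets at the origin of the plane

`D1 f`, `D2 f` are the partial derivatives, `jet f i j = ∂₁^i ∂₂^j f (0)`,
`taylor K f q = ∑_{i+j≤K} q₁^i q₂^j / (i! j!) • jet f i j`.
-/

open Set Filter Topology Metric MeasureTheory Asymptotics
open scoped ContDiff

noncomputable section

namespace Vale.Agent.P207.N3

namespace Jet

variable {V : Type*} [NormedAddCommGroup V] [NormedSpace ℝ V]

/-- the first basis vector of the plane -/
def e1 : E2 := EuclideanSpace.single 0 1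
/-- the second basis vector of the plane -/
def e2 : E2 := EuclideanSpace.single 1 1

lemma e1_zero : e1 0 = 1 := by simp [e1]
lemma e1_one : e1 1 = 0 := by simp [e1]
lemma e2_zero : e2 0 = 0 := by simp [e2]
lemma e2_one : e2 1 = 1 := by simp [e2]

lemma eq_sum (v : E2) : v = v 0 • e1 + v 1 • e2 := by
  ext i
  fin_cases i <;> simp [e1, e2]

/-- the first partial derivative -/
def D1 (f : E2 → V) : E2 → V := fun q => fderiv ℝ f q e1
/-- the second partial derivative -/
def D2 (f : E2 → V) : E2 → V := fun q => fderiv ℝ f q e2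

lemma fderiv_eq (f : E2 → V) (q v : E2) : fderiv ℝ f q v = v 0 • D1 f q + v 1 • D2 f q := by
  conv_lhs => rw [eq_sum v]
  simp [D1, D2]

lemma D1_congr {f g : E2 → V} {q : E2} (h : f =ᶠ[𝓝 q] g) : D1 f =ᶠ[𝓝 q] D1 g := by
  filter_upwards [h.fderiv (𝕜 := ℝ)] with x hx
  simp only [D1, hx]

lemma D2_congr {f g : E2 → V} {q : E2} (h : f =ᶠ[𝓝 q] g) : D2 f =ᶠ[𝓝 q] D2 g := by
  filter_upwards [h.fderiv (𝕜 := ℝ)] with x hx
  simp only [D2, hx]

lemma smooth_D1 {f : E2 → V} {q : E2} (h : ContDiffAt ℝ ∞ f q) : ContDiffAt ℝ ∞ (D1 f) q :=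
  (h.fderiv_right (m := ∞) (by norm_cast)).clm_apply contDiffAt_const

lemma smooth_D2 {f : E2 → V} {q : E2} (h : ContDiffAt ℝ ∞ f q) : ContDiffAt ℝ ∞ (D2 f) q :=
  (h.fderiv_right (m := ∞) (by norm_cast)).clm_apply contDiffAt_const

lemma smooth_D1i {f : E2 → V} {q : E2} (h : ContDiffAt ℝ ∞ f q) (i : ℕ) :
    ContDiffAt ℝ ∞ (D1^[i] f) q := by
  induction i with
  | zero => simpa using h
  | succ i ih =>
    rw [Function.iterate_succ_apply']
    exact smooth_D1 ih

lemma smooth_D2i {f : E2 → V} {q : E2} (h : ContDiffAt ℝ ∞ f q) (i : ℕ) :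
    ContDiffAt ℝ ∞ (D2^[i] f) q := by
  induction i with
  | zero => simpa using h
  | succ i ih =>
    rw [Function.iterate_succ_apply']
    exact smooth_D2 ih

lemma D1i_congr {f g : E2 → V} {q : E2} (h : f =ᶠ[𝓝 q] g) (i : ℕ) :
    D1^[i] f =ᶠ[𝓝 q] D1^[i] g := by
  induction i with
  | zero => simpa using h
  | succ i ih =>
    rw [Function.iterate_succ_apply', Function.iterate_succ_apply']
    exact D1_congr ih

lemma D2i_congr {f g : E2 → V} {q : E2} (h : f =ᶠ[𝓝 q] g) (i : ℕ) :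
    D2^[i] f =ᶠ[𝓝 q] D2^[i] g := by
  induction i with
  | zero => simpa using h
  | succ i ih =>
    rw [Function.iterate_succ_apply', Function.iterate_succ_apply']
    exact D2_congr ih

/-- the partial derivatives commute -/
lemma D1_D2 {f : E2 → V} {q : E2} (h : ContDiffAt ℝ ∞ f q) : D1 (D2 f) q = D2 (D1 f) q := by
  have h2 : ContDiffAt ℝ 2 f q := h.of_le (by norm_cast)
  have hs : IsSymmSndFDerivAt ℝ f q := h2.isSymmSndFDerivAt (by simp)
  have hd : DifferentiableAt ℝ (fderiv ℝ f) q :=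
    (h.fderiv_right (m := ∞) (by norm_cast)).differentiableAt (by simp)
  have e : ∀ v w : E2, fderiv ℝ (fun y => fderiv ℝ f y w) q v = fderiv ℝ (fderiv ℝ f) q v w := by
    intro v w
    rw [fderiv_clm_apply hd (differentiableAt_const _)]
    simp
  unfold D1 D2
  rw [e, e]
  exact hs.eq _ _

lemma D1_D2_ev {f : E2 → V} {q : E2} (h : ContDiffAt ℝ ∞ f q) : D1 (D2 f) =ᶠ[𝓝 q] D2 (D1 f) := by
  have h2 : ContDiffAt ℝ 2 f q := h.of_le (by norm_cast)
  filter_upwards [h2.eventually (by simp)] with x hx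
  have hs : IsSymmSndFDerivAt ℝ f x := hx.isSymmSndFDerivAt (by simp)
  have hd : DifferentiableAt ℝ (fderiv ℝ f) x :=
    (hx.fderiv_right (m := 1) (by norm_cast)).differentiableAt (by simp)
  have e : ∀ v w : E2, fderiv ℝ (fun y => fderiv ℝ f y w) x v = fderiv ℝ (fderiv ℝ f) x v w := by
    intro v w
    rw [fderiv_clm_apply hd (differentiableAt_const _)]
    simp
  unfold D1 D2
  rw [e, e]
  exact hs.eq _ _

lemma D1_D2i_ev {f : E2 → V} {q : E2} (h : ContDiffAt ℝ ∞ f q) (j : ℕ) :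
    D1 (D2^[j] f) =ᶠ[𝓝 q] D2^[j] (D1 f) := by
  induction j with
  | zero => exact Filter.EventuallyEq.rfl
  | succ j ih =>
    rw [Function.iterate_succ_apply', Function.iterate_succ_apply']
    exact (D1_D2_ev (smooth_D2i h j)).trans (D2_congr ih)

/-- the jet coordinates at a point -/
def jetAt (q : E2) (f : E2 → V) (i j : ℕ) : V := (D1^[i] (D2^[j] f)) q

/-- the jet coordinates at the origin -/
def jet (f : E2 → V) (i j : ℕ) : V := (D1^[i] (D2^[j] f)) 0

lemma jet_congr {f g : E2 → V} (h : f =ᶠ[𝓝 0] g) (i j : ℕ) : jet f i j = jet g i j :=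
  (D1i_congr (D2i_congr h j) i).self_of_nhds

lemma jet_zero (f : E2 → V) : jet f 0 0 = f 0 := rfl

lemma jet_D1 {f : E2 → V} (h : ContDiffAt ℝ ∞ f 0) (i j : ℕ) :
    jet (D1 f) i j = jet f (i + 1) j := by
  unfold jet
  rw [Function.iterate_succ_apply]
  exact (D1i_congr (D1_D2i_ev h j) i).self_of_nhds.symm

lemma jet_D2 (f : E2 → V) (i j : ℕ) : jet (D2 f) i j = jet f i (j + 1) := rfl

/-- the monomials -/
def mono (i j : ℕ) (q : E2) : ℝ := q 0 ^ i * q 1 ^ j / (i.factorial * j.factorial)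

/-- the Taylor polynomial of degree `< K` -/
def tay (K : ℕ) (c : ℕ → ℕ → V) (q : E2) : V :=
  ∑ i ∈ Finset.range K, ∑ j ∈ Finset.range (K - i), mono i j q • c i j

lemma coord_smooth (i : Fin 2) : ContDiff ℝ ∞ (fun q : E2 => q i) :=
  (EuclideanSpace.proj i : E2 →L[ℝ] ℝ).contDiff

lemma mono_smooth (i j : ℕ) : ContDiff ℝ ∞ (mono i j) := by
  unfold mono
  exact ((((coord_smooth 0).pow i).mul ((coord_smooth 1).pow j))).div_const _

lemma tay_smooth (K : ℕ) (c : ℕ → ℕ → V) : ContDiff ℝ ∞ (tay K c) := by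
  unfold tay
  exact ContDiff.sum fun i _ => ContDiff.sum fun j _ => (mono_smooth i j).smul contDiff_const

lemma hasFDerivAt_coord (i : Fin 2) (q : E2) :
    HasFDerivAt (fun q : E2 => q i) (EuclideanSpace.proj i : E2 →L[ℝ] ℝ) q :=
  (EuclideanSpace.proj i : E2 →L[ℝ] ℝ).hasFDerivAt

lemma D1_mono_zero (j : ℕ) : D1 (mono 0 j) = 0 := by
  ext q
  have h1 := ((hasFDerivAt_coord 1 q).pow j).mul_const (1 / ((0 : ℕ).factorial * j.factorial : ℝ))
  have e : mono 0 j = fun q : E2 => q 1 ^ j * (1 / ((0 : ℕ).factorial * j.factorial : ℝ)) := by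
    ext q
    simp [mono, div_eq_mul_inv]
  unfold D1
  rw [e]
  have h2 : HasFDerivAt (fun q : E2 => q 1 ^ j * (1 / ((0 : ℕ).factorial * j.factorial : ℝ))) _ q :=
    h1
  rw [h2.fderiv]
  simp [e1]

lemma D1_mono_succ (i j : ℕ) : D1 (mono (i + 1) j) = mono i j := by
  ext q
  have h1 := (((hasFDerivAt_coord 0 q).pow (i + 1)).mul ((hasFDerivAt_coord 1 q).pow j)).mul_const
    (1 / ((i + 1).factorial * j.factorial : ℝ))
  have e : mono (i + 1) j = fun q : E2 => q 0 ^ (i + 1) * q 1 ^ j *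
      (1 / ((i + 1).factorial * j.factorial : ℝ)) := by
    ext q
    simp [mono, div_eq_mul_inv]
  unfold D1
  rw [e]
  have h2 : HasFDerivAt (fun q : E2 => q 0 ^ (i + 1) * q 1 ^ j *
      (1 / ((i + 1).factorial * j.factorial : ℝ))) _ q := h1
  rw [h2.fderiv]
  have h3 : ((i + 1).factorial : ℝ) = (i + 1) * i.factorial := by
    rw [Nat.factorial_succ]; push_cast; ring
  have h4 : (i.factorial : ℝ) ≠ 0 := by positivity
  have h5 : (j.factorial : ℝ) ≠ 0 := by positivity
  have h6 : (i : ℝ) + 1 ≠ 0 := by positivity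
  simp [e1, mono, h3]
  field_simp

lemma D2_mono_zero (i : ℕ) : D2 (mono i 0) = 0 := by
  ext q
  have h1 := ((hasFDerivAt_coord 0 q).pow i).mul_const (1 / (i.factorial * (0 : ℕ).factorial : ℝ))
  have e : mono i 0 = fun q : E2 => q 0 ^ i * (1 / (i.factorial * (0 : ℕ).factorial : ℝ)) := by
    ext q
    simp [mono, div_eq_mul_inv]
  unfold D2
  rw [e]
  have h2 : HasFDerivAt (fun q : E2 => q 0 ^ i * (1 / (i.factorial * (0 : ℕ).factorial : ℝ))) _ q :=
    h1
  rw [h2.fderiv]
  simp [e2]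

lemma D2_mono_succ (i j : ℕ) : D2 (mono i (j + 1)) = mono i j := by
  ext q
  have h1 := (((hasFDerivAt_coord 0 q).pow i).mul ((hasFDerivAt_coord 1 q).pow (j + 1))).mul_const
    (1 / (i.factorial * (j + 1).factorial : ℝ))
  have e : mono i (j + 1) = fun q : E2 => q 0 ^ i * q 1 ^ (j + 1) *
      (1 / (i.factorial * (j + 1).factorial : ℝ)) := by
    ext q
    simp [mono, div_eq_mul_inv]
  unfold D2
  rw [e]
  have h2 : HasFDerivAt (fun q : E2 => q 0 ^ i * q 1 ^ (j + 1) *
      (1 / (i.factorial * (j + 1).factorial : ℝ))) _ q := h1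
  rw [h2.fderiv]
  have h3 : ((j + 1).factorial : ℝ) = (j + 1) * j.factorial := by
    rw [Nat.factorial_succ]; push_cast; ring
  have h4 : (i.factorial : ℝ) ≠ 0 := by positivity
  have h5 : (j.factorial : ℝ) ≠ 0 := by positivity
  have h6 : (j : ℝ) + 1 ≠ 0 := by positivity
  simp [e2, mono, h3]
  field_simp

lemma mono_diff (i j : ℕ) (q : E2) : DifferentiableAt ℝ (mono i j) q :=
  (mono_smooth i j).differentiable (by simp) q

lemma D1_smul_const (f : E2 → ℝ) (c : V) {q : E2} (hf : DifferentiableAt ℝ f q) :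
    D1 (fun q => f q • c) q = D1 f q • c := by
  unfold D1
  rw [fderiv_smul_const hf]
  simp

lemma D2_smul_const (f : E2 → ℝ) (c : V) {q : E2} (hf : DifferentiableAt ℝ f q) :
    D2 (fun q => f q • c) q = D2 f q • c := by
  unfold D2
  rw [fderiv_smul_const hf]
  simp

lemma D1_sum {ι : Type*} (s : Finset ι) (f : ι → E2 → V) {q : E2}
    (h : ∀ i ∈ s, DifferentiableAt ℝ (f i) q) :
    D1 (fun q => ∑ i ∈ s, f i q) q = ∑ i ∈ s, D1 (f i) q := by
  unfold D1
  rw [fderiv_fun_sum h]
  simp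

lemma D2_sum {ι : Type*} (s : Finset ι) (f : ι → E2 → V) {q : E2}
    (h : ∀ i ∈ s, DifferentiableAt ℝ (f i) q) :
    D2 (fun q => ∑ i ∈ s, f i q) q = ∑ i ∈ s, D2 (f i) q := by
  unfold D2
  rw [fderiv_fun_sum h]
  simp

lemma D1_tay (K : ℕ) (c : ℕ → ℕ → V) :
    D1 (tay (K + 1) c) = tay K (fun i j => c (i + 1) j) := by
  ext q
  have e : tay (K + 1) c = fun q => ∑ i ∈ Finset.range (K + 1),
      (fun q => ∑ j ∈ Finset.range (K + 1 - i), (fun q => mono i j q • c i j) q) q := rfl
  rw [e, D1_sum]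
  · rw [Finset.sum_range_succ']
    have h0 : D1 (fun q => ∑ j ∈ Finset.range (K + 1 - 0), (fun q => mono 0 j q • c 0 j) q) q = 0 := by
      rw [D1_sum]
      · refine Finset.sum_eq_zero fun j _ => ?_
        rw [D1_smul_const _ _ (mono_diff 0 j q), D1_mono_zero]
        simp
      · exact fun j _ => (mono_diff 0 j q).smul_const _
    rw [h0, add_zero]
    unfold tay
    refine Finset.sum_congr rfl fun i _ => ?_
    rw [D1_sum]
    · rw [show K + 1 - (i + 1) = K - i by omega]
      refine Finset.sum_congr rfl fun j _ => ?_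
      rw [D1_smul_const _ _ (mono_diff _ j q), D1_mono_succ]
    · exact fun j _ => (mono_diff _ j q).smul_const _
  · intro i _
    exact DifferentiableAt.fun_sum fun j _ => (mono_diff _ j q).smul_const _

lemma D2_tay (K : ℕ) (c : ℕ → ℕ → V) :
    D2 (tay (K + 1) c) = tay K (fun i j => c i (j + 1)) := by
  ext q
  have e : tay (K + 1) c = fun q => ∑ i ∈ Finset.range (K + 1),
      (fun q => ∑ j ∈ Finset.range (K + 1 - i), (fun q => mono i j q • c i j) q) q := rfl
  rw [e, D2_sum]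
  · rw [Finset.sum_range_succ]
    have hK : D2 (fun q => ∑ j ∈ Finset.range (K + 1 - K), (fun q => mono K j q • c K j) q) q = 0 := by
      rw [D2_sum]
      · rw [show K + 1 - K = 1 by omega, Finset.sum_range_one,
          D2_smul_const _ _ (mono_diff K 0 q), D2_mono_zero]
        simp
      · exact fun j _ => (mono_diff K j q).smul_const _
    rw [hK, add_zero]
    unfold tay
    refine Finset.sum_congr rfl fun i hi => ?_
    have hi' : i < K := Finset.mem_range.1 hi
    rw [D2_sum]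
    · rw [show K + 1 - i = (K - i) + 1 by omega, Finset.sum_range_succ',
        D2_smul_const _ _ (mono_diff i 0 q), D2_mono_zero]
      simp only [Pi.zero_apply, zero_smul, add_zero]
      refine Finset.sum_congr rfl fun j _ => ?_
      rw [D2_smul_const _ _ (mono_diff i _ q), D2_mono_succ]
    · exact fun j _ => (mono_diff _ j q).smul_const _
  · intro i _
    exact DifferentiableAt.fun_sum fun j _ => (mono_diff _ j q).smul_const _

lemma mono_at_zero (i j : ℕ) : mono i j 0 = if i = 0 ∧ j = 0 then 1 else 0 := by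
  unfold mono
  rcases Nat.eq_zero_or_pos i with rfl | hi
  · rcases Nat.eq_zero_or_pos j with rfl | hj
    · simp
    · simp [hj.ne']
  · simp [hi.ne']

lemma tay_at_zero (K : ℕ) (c : ℕ → ℕ → V) : tay (K + 1) c 0 = c 0 0 := by
  unfold tay
  rw [Finset.sum_eq_single 0]
  · rw [Finset.sum_eq_single 0]
    · simp [mono_at_zero]
    · intro j _ hj
      simp [mono_at_zero, hj]
    · intro h
      exact absurd (Finset.mem_range.2 (by omega)) h
  · intro i _ hi
    exact Finset.sum_eq_zero fun j _ => by simp [mono_at_zero, hi]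
  · intro h
    exact absurd (Finset.mem_range.2 (by omega)) h

lemma tay_congr {K : ℕ} {c d : ℕ → ℕ → V} (h : ∀ i j, i + j < K → c i j = d i j) :
    tay K c = tay K d := by
  ext q
  unfold tay
  refine Finset.sum_congr rfl fun i hi => Finset.sum_congr rfl fun j hj => ?_
  rw [Finset.mem_range] at hi hj
  rw [h i j (by omega)]

lemma tay_add (K : ℕ) (c d : ℕ → ℕ → V) (q : E2) :
    tay K (fun i j => c i j + d i j) q = tay K c q + tay K d q := by
  unfold tay
  simp [smul_add, Finset.sum_add_distrib]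

lemma tay_smul (K : ℕ) (s : ℝ) (c : ℕ → ℕ → V) (q : E2) :
    tay K (fun i j => s • c i j) q = s • tay K c q := by
  unfold tay
  simp only [Finset.smul_sum, smul_smul, mul_comm]

lemma D1_sub {f g : E2 → V} {q : E2} (hf : DifferentiableAt ℝ f q) (hg : DifferentiableAt ℝ g q) :
    D1 (fun q => f q - g q) q = D1 f q - D1 g q := by
  unfold D1
  rw [fderiv_fun_sub hf hg]
  simp

lemma D2_sub {f g : E2 → V} {q : E2} (hf : DifferentiableAt ℝ f q) (hg : DifferentiableAt ℝ g q) :
    D2 (fun q => f q - g q) q = D2 f q - D2 g q := by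
  unfold D2
  rw [fderiv_fun_sub hf hg]
  simp

/-- jets of a Taylor polynomial -/
lemma jet_tay (K : ℕ) : ∀ (c : ℕ → ℕ → V) (i j : ℕ), i + j < K → jet (tay K c) i j = c i j := by
  induction K with
  | zero => intro c i j h; omega
  | succ K ih =>
    intro c i j h
    rcases Nat.eq_zero_or_pos j with rfl | hj
    · rcases Nat.eq_zero_or_pos i with rfl | hi
      · rw [jet_zero, tay_at_zero]
      · obtain ⟨i, rfl⟩ : ∃ i', i = i' + 1 := ⟨i - 1, by omega⟩
        rw [← jet_D1 (tay_smooth _ _).contDiffAt, D1_tay, ih _ _ _ (by omega)]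
    · obtain ⟨j, rfl⟩ : ∃ j', j = j' + 1 := ⟨j - 1, by omega⟩
      rw [← jet_D2, D2_tay, ih _ _ _ (by omega)]

/-- Taylor's formula with a uniform constant -/
theorem taylor_bound {ρ : ℝ} (K : ℕ) : ∀ {f : E2 → V} {C : ℝ},
    (∀ q ∈ ball (0 : E2) ρ, ContDiffAt ℝ ∞ f q) →
    (∀ i j, i + j = K → ∀ q ∈ ball (0 : E2) ρ, ‖(D1^[i] (D2^[j] f)) q‖ ≤ C) →
    ∀ q ∈ ball (0 : E2) ρ, ‖f q - tay K (jet f) q‖ ≤ 2 ^ K * C * ‖q‖ ^ K := by
  induction K with
  | zero =>
    intro f C _ hC q hq
    simpa [tay] using hC 0 0 rfl q hq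
  | succ K ih =>
    intro f C hf hC q hq
    have hρ : 0 < ρ := by
      rw [mem_ball_zero_iff] at hq
      exact (norm_nonneg q).trans_lt hq
    have h0 : (0 : E2) ∈ ball (0 : E2) ρ := mem_ball_self hρ
    have hC0 : 0 ≤ C := (norm_nonneg _).trans (hC (K + 1) 0 (by omega) 0 h0)
    set g : E2 → V := fun q => f q - tay (K + 1) (jet f) q with hg
    have hgs : ∀ q ∈ ball (0 : E2) ρ, DifferentiableAt ℝ g q := fun q hq =>
      ((hf q hq).differentiableAt (by simp)).sub ((tay_smooth _ _).differentiable (by simp) q)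
    have h1 : ∀ q ∈ ball (0 : E2) ρ, ‖D1 g q‖ ≤ 2 ^ K * C * ‖q‖ ^ K := by
      intro q hq
      rw [hg, D1_sub ((hf q hq).differentiableAt (by simp))
        ((tay_smooth _ _).differentiable (by simp) q), D1_tay]
      have e : tay K (fun i j => jet f (i + 1) j) = tay K (jet (D1 f)) :=
        tay_congr fun i j _ => (jet_D1 (hf 0 h0) i j).symm
      rw [e]
      refine ih (fun q hq => smooth_D1 (hf q hq)) ?_ q hq
      intro i j hij q hq
      have h3 : (D1^[i] (D2^[j] (D1 f))) q = (D1^[i + 1] (D2^[j] f)) q := by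
        rw [Function.iterate_succ_apply]
        exact (D1i_congr (D1_D2i_ev (hf q hq) j) i).self_of_nhds.symm
      rw [h3]
      exact hC _ _ (by omega) q hq
    have h2 : ∀ q ∈ ball (0 : E2) ρ, ‖D2 g q‖ ≤ 2 ^ K * C * ‖q‖ ^ K := by
      intro q hq
      rw [hg, D2_sub ((hf q hq).differentiableAt (by simp))
        ((tay_smooth _ _).differentiable (by simp) q), D2_tay]
      have e : tay K (fun i j => jet f i (j + 1)) = tay K (jet (D2 f)) := rfl
      rw [e]
      refine ih (fun q hq => smooth_D2 (hf q hq)) ?_ q hq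
      intro i j hij q hq
      exact hC i (j + 1) (by omega) q hq
    have hg0 : g 0 = 0 := by
      simp [hg, tay_at_zero, jet_zero]
    have h3 : ∀ x ∈ segment ℝ (0 : E2) q, ‖fderiv ℝ g x‖ ≤ 2 ^ (K + 1) * C * ‖q‖ ^ K := by
      intro x hx
      have hxq : ‖x‖ ≤ ‖q‖ := by
        obtain ⟨a, b, ha, hb, hab, rfl⟩ := hx
        rw [smul_zero, zero_add, norm_smul, Real.norm_of_nonneg hb]
        exact mul_le_of_le_one_left (norm_nonneg _) (by linarith)
      have hxb : x ∈ ball (0 : E2) ρ := by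
        rw [mem_ball_zero_iff] at hq ⊢
        exact hxq.trans_lt hq
      refine ContinuousLinearMap.opNorm_le_bound _ (by positivity) fun v => ?_
      rw [fderiv_eq]
      have hv0 : ‖v 0‖ ≤ ‖v‖ := PiLp.norm_apply_le v 0
      have hv1 : ‖v 1‖ ≤ ‖v‖ := PiLp.norm_apply_le v 1
      have hp : ‖x‖ ^ K ≤ ‖q‖ ^ K := pow_le_pow_left₀ (norm_nonneg _) hxq K
      have hpos : 0 ≤ 2 ^ K * C := by positivity
      calc ‖v 0 • D1 g x + v 1 • D2 g x‖
          ≤ ‖v 0‖ * ‖D1 g x‖ + ‖v 1‖ * ‖D2 g x‖ := by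
            refine (norm_add_le _ _).trans ?_
            rw [norm_smul, norm_smul]
        _ ≤ ‖v‖ * (2 ^ K * C * ‖q‖ ^ K) + ‖v‖ * (2 ^ K * C * ‖q‖ ^ K) := by
            have a1 := (h1 x hxb).trans (mul_le_mul_of_nonneg_left hp hpos)
            have a2 := (h2 x hxb).trans (mul_le_mul_of_nonneg_left hp hpos)
            gcongr
        _ = 2 ^ (K + 1) * C * ‖q‖ ^ K * ‖v‖ := by ring
    have h4 := (convex_segment (𝕜 := ℝ) (0 : E2) q).norm_image_sub_le_of_norm_fderiv_le
      (f := g) (C := 2 ^ (K + 1) * C * ‖q‖ ^ K) (x := 0) (y := q) (fun x hx => by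
        refine hgs x ?_
        obtain ⟨a, b, ha, hb, hab, rfl⟩ := hx
        rw [mem_ball_zero_iff] at hq ⊢
        rw [smul_zero, zero_add, norm_smul, Real.norm_of_nonneg hb]
        exact (mul_le_of_le_one_left (norm_nonneg _) (by linarith)).trans_lt hq) h3
      (left_mem_segment _ _ _) (right_mem_segment _ _ _)
    rw [hg0, sub_zero, sub_zero] at h4
    calc ‖g q‖ ≤ 2 ^ (K + 1) * C * ‖q‖ ^ K * ‖q‖ := h4
      _ = 2 ^ (K + 1) * C * ‖q‖ ^ (K + 1) := by ring

/-- Taylor's formula at the origin -/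
theorem taylor {f : E2 → V} (hf : ContDiffAt ℝ ∞ f 0) (K : ℕ) :
    (fun q => f q - tay K (jet f) q) =O[𝓝 0] fun q => ‖q‖ ^ K := by
  induction K generalizing f with
  | zero =>
    have h : (fun q => f q - tay 0 (jet f) q) = f := by
      ext q
      simp [tay]
    rw [h]
    simpa using hf.continuousAt.isBigO_one ℝ
  | succ K ih =>
    set g : E2 → V := fun q => f q - tay (K + 1) (jet f) q with hg
    have hgs : ContDiffAt ℝ ∞ g 0 := hf.sub (tay_smooth _ _).contDiffAt
    have hgd : ∀ᶠ q in 𝓝 (0 : E2), DifferentiableAt ℝ g q := by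
      have := (hgs.of_le (m := 1) (by norm_cast)).eventually (by simp)
      filter_upwards [this] with q hq
      exact hq.differentiableAt (by simp)
    have hfd : ∀ᶠ q in 𝓝 (0 : E2), DifferentiableAt ℝ f q := by
      have := (hf.of_le (m := 1) (by norm_cast)).eventually (by simp)
      filter_upwards [this] with q hq
      exact hq.differentiableAt (by simp)
    have h1 : D1 g =O[𝓝 0] fun q => ‖q‖ ^ K := by
      refine (ih (smooth_D1 hf)).congr' ?_ EventuallyEq.rfl
      filter_upwards [hfd] with q hq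
      rw [hg, D1_sub hq ((tay_smooth _ _).differentiable (by simp) q), D1_tay,
        tay_congr fun i j _ => jet_D1 hf i j]
    have h2 : D2 g =O[𝓝 0] fun q => ‖q‖ ^ K := by
      refine (ih (smooth_D2 hf)).congr' ?_ EventuallyEq.rfl
      filter_upwards [hfd] with q hq
      rw [hg, D2_sub hq ((tay_smooth _ _).differentiable (by simp) q), D2_tay]
      rfl
    obtain ⟨C1, hC1⟩ := h1.bound
    obtain ⟨C2, hC2⟩ := h2.bound
    obtain ⟨ρ, hρ, hb⟩ := Metric.eventually_nhds_iff_ball.1 ((hC1.and hC2).and hgd)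
    have hg0 : g 0 = 0 := by
      simp [hg, tay_at_zero, jet_zero]
    refine IsBigO.of_bound (|C1| + |C2|) (Metric.eventually_nhds_iff_ball.2 ⟨ρ, hρ, fun q hq => ?_⟩)
    have h3 : ∀ x ∈ segment ℝ (0 : E2) q, ‖fderiv ℝ g x‖ ≤ (|C1| + |C2|) * ‖q‖ ^ K := by
      intro x hx
      have hxq : ‖x‖ ≤ ‖q‖ := by
        obtain ⟨a, b, ha, hb, hab, rfl⟩ := hx
        rw [smul_zero, zero_add, norm_smul, Real.norm_of_nonneg hb]
        exact mul_le_of_le_one_left (norm_nonneg _) (by linarith)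
      have hxb : x ∈ ball (0 : E2) ρ := by
        rw [mem_ball_zero_iff] at hq ⊢
        exact hxq.trans_lt hq
      refine ContinuousLinearMap.opNorm_le_bound _ (by positivity) fun v => ?_
      rw [fderiv_eq]
      have hv0 : ‖v 0‖ ≤ ‖v‖ := PiLp.norm_apply_le v 0
      have hv1 : ‖v 1‖ ≤ ‖v‖ := PiLp.norm_apply_le v 1
      have hp : ‖x‖ ^ K ≤ ‖q‖ ^ K := pow_le_pow_left₀ (norm_nonneg _) hxq K
      have b1 : ‖D1 g x‖ ≤ |C1| * ‖q‖ ^ K := by
        refine ((hb x hxb).1.1.trans ?_)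
        rw [Real.norm_of_nonneg (by positivity : (0 : ℝ) ≤ ‖x‖ ^ K)]
        exact mul_le_mul (le_abs_self _) hp (by positivity) (abs_nonneg _)
      have b2 : ‖D2 g x‖ ≤ |C2| * ‖q‖ ^ K := by
        refine ((hb x hxb).1.2.trans ?_)
        rw [Real.norm_of_nonneg (by positivity : (0 : ℝ) ≤ ‖x‖ ^ K)]
        exact mul_le_mul (le_abs_self _) hp (by positivity) (abs_nonneg _)
      calc ‖v 0 • D1 g x + v 1 • D2 g x‖
          ≤ ‖v 0‖ * ‖D1 g x‖ + ‖v 1‖ * ‖D2 g x‖ := by
            refine (norm_add_le _ _).trans ?_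
            rw [norm_smul, norm_smul]
        _ ≤ ‖v‖ * (|C1| * ‖q‖ ^ K) + ‖v‖ * (|C2| * ‖q‖ ^ K) := by gcongr
        _ = (|C1| + |C2|) * ‖q‖ ^ K * ‖v‖ := by ring
    have h4 := (convex_segment (𝕜 := ℝ) (0 : E2) q).norm_image_sub_le_of_norm_fderiv_le
      (f := g) (C := (|C1| + |C2|) * ‖q‖ ^ K) (x := 0) (y := q) (fun x hx => by
        refine (hb x ?_).2
        obtain ⟨a, b, ha, hb, hab, rfl⟩ := hx
        rw [mem_ball_zero_iff] at hq ⊢
        rw [smul_zero, zero_add, norm_smul, Real.norm_of_nonneg hb]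
        exact (mul_le_of_le_one_left (norm_nonneg _) (by linarith)).trans_lt hq) h3
      (left_mem_segment _ _ _) (right_mem_segment _ _ _)
    rw [hg0, sub_zero, sub_zero] at h4
    rw [Real.norm_of_nonneg (by positivity : (0 : ℝ) ≤ ‖q‖ ^ (K + 1))]
    calc ‖g q‖ ≤ (|C1| + |C2|) * ‖q‖ ^ K * ‖q‖ := h4
      _ = (|C1| + |C2|) * ‖q‖ ^ (K + 1) := by ring

/-- a polynomial of degree `< K` which is `O(s^K)` vanishes -/
lemma poly_zero (K : ℕ) (c : ℕ → V)
    (h : (fun s : ℝ => ∑ k ∈ Finset.range K, s ^ k • c k) =O[𝓝[≠] 0] fun s => s ^ K) :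
    ∀ k < K, c k = 0 := by
  intro k
  induction k using Nat.strong_induction_on with
  | _ k ih =>
    intro hk
    -- the sum starts at `k`
    have h1 : ∀ s : ℝ, ∑ l ∈ Finset.range K, s ^ l • c l
        = s ^ k • ∑ l ∈ Finset.range (K - k), s ^ l • c (k + l) := by
      intro s
      rw [Finset.smul_sum]
      have e1 : Finset.range K = Finset.range (k + (K - k)) := by rw [Nat.add_sub_of_le hk.le]
      rw [e1, Finset.sum_range_add]
      have e2 : ∑ l ∈ Finset.range k, s ^ l • c l = 0 := by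
        refine Finset.sum_eq_zero fun l hl => ?_
        rw [ih l (Finset.mem_range.1 hl) ((Finset.mem_range.1 hl).trans hk), smul_zero]
      rw [e2, zero_add]
      refine Finset.sum_congr rfl fun l _ => ?_
      rw [smul_smul, pow_add]
    have h2 : (fun s : ℝ => ∑ l ∈ Finset.range (K - k), s ^ l • c (k + l)) =O[𝓝[≠] 0]
        fun s => s ^ (K - k) := by
      obtain ⟨C, hC⟩ := h.bound
      refine IsBigO.of_bound C ?_
      filter_upwards [hC, self_mem_nhdsWithin] with s hs hs0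
      rw [h1 s, norm_smul, norm_pow] at hs
      have hpos : 0 < ‖s‖ ^ k := pow_pos (norm_pos_iff.2 hs0) k
      have e3 : ‖s ^ K‖ = ‖s‖ ^ k * ‖s ^ (K - k)‖ := by
        rw [norm_pow, norm_pow, ← pow_add, Nat.add_sub_of_le hk.le]
      rw [e3] at hs
      have : ‖s‖ ^ k * ‖∑ l ∈ Finset.range (K - k), s ^ l • c (k + l)‖
          ≤ ‖s‖ ^ k * (C * ‖s ^ (K - k)‖) := by
        calc _ ≤ _ := hs
          _ = _ := by ring
      exact le_of_mul_le_mul_left this hpos
    have h3 : Tendsto (fun s : ℝ => s ^ (K - k)) (𝓝[≠] 0) (𝓝 0) := by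
      have : Tendsto (fun s : ℝ => s ^ (K - k)) (𝓝 0) (𝓝 (0 ^ (K - k))) :=
        (continuous_pow (K - k)).tendsto 0
      rw [zero_pow (by omega)] at this
      exact this.mono_left nhdsWithin_le_nhds
    have h4 := h2.trans_tendsto h3
    have h5 : Tendsto (fun s : ℝ => ∑ l ∈ Finset.range (K - k), s ^ l • c (k + l)) (𝓝[≠] 0)
        (𝓝 (∑ l ∈ Finset.range (K - k), (0 : ℝ) ^ l • c (k + l))) := by
      refine Tendsto.mono_left ?_ nhdsWithin_le_nhds
      refine tendsto_finsetSum _ fun l _ => ?_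
      exact ((continuous_pow l).tendsto (0 : ℝ)).smul_const _
    have h6 := tendsto_nhds_unique h4 h5
    rw [Finset.sum_eq_single 0] at h6
    · simpa using h6.symm
    · intro l _ hl
      simp [hl]
    · intro h7
      exact absurd (Finset.mem_range.2 (by omega)) h7

/-- a polynomial of degree `< K` in the plane which is `O(|q|^K)` vanishes -/
lemma tay_zero (K : ℕ) (c : ℕ → ℕ → V) (h : tay K c =O[𝓝 0] fun q => ‖q‖ ^ K) :
    ∀ i j, i + j < K → c i j = 0 := by
  -- the homogeneous components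
  set P : ℕ → E2 → V := fun k q => ∑ i ∈ Finset.range (k + 1), mono i (k - i) q • c i (k - i) with hP
  have hdec : ∀ q, tay K c q = ∑ k ∈ Finset.range K, P k q := by
    intro q
    simp only [tay, hP]
    rw [Finset.sum_sigma', Finset.sum_sigma']
    refine Finset.sum_bij' (fun x _ => ⟨x.1 + x.2, x.1⟩) (fun x _ => ⟨x.2, x.1 - x.2⟩) ?_ ?_ ?_ ?_ ?_
    · rintro ⟨i, j⟩ hx
      simp only [Finset.mem_sigma, Finset.mem_range] at hx ⊢
      omega
    · rintro ⟨k, i⟩ hx
      simp only [Finset.mem_sigma, Finset.mem_range] at hx ⊢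
      omega
    · rintro ⟨i, j⟩ hx
      simp
    · rintro ⟨k, i⟩ hx
      simp only [Finset.mem_sigma, Finset.mem_range] at hx
      simp only [Sigma.mk.injEq, heq_eq_eq, and_true]
      omega
    · rintro ⟨i, j⟩ hx
      simp
  have hhom : ∀ k (s : ℝ) q, P k (s • q) = s ^ k • P k q := by
    intro k s q
    simp only [hP]
    rw [Finset.smul_sum]
    refine Finset.sum_congr rfl fun i hi => ?_
    rw [Finset.mem_range] at hi
    rw [smul_smul]
    congr 1
    unfold mono
    simp only [PiLp.smul_apply, smul_eq_mul, mul_pow]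
    rw [show s ^ k = s ^ i * s ^ (k - i) by rw [← pow_add]; congr 1; omega]
    ring
  have hPz : ∀ k < K, ∀ q, P k q = 0 := by
    intro k hk q
    refine poly_zero K (fun k => P k q) ?_ k hk
    have h1 : Tendsto (fun s : ℝ => s • q) (𝓝[≠] 0) (𝓝 0) := by
      have : Tendsto (fun s : ℝ => s • q) (𝓝 0) (𝓝 ((0 : ℝ) • q)) :=
        (continuous_id.smul continuous_const).tendsto 0
      rw [zero_smul] at this
      exact this.mono_left nhdsWithin_le_nhds
    have h2 := h.comp_tendsto h1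
    have h3 : (tay K c ∘ fun s : ℝ => s • q) = fun s : ℝ => ∑ k ∈ Finset.range K, s ^ k • P k q := by
      ext s
      simp only [Function.comp_apply, hdec, hhom]
    rw [h3] at h2
    refine h2.trans (IsBigO.of_bound (‖q‖ ^ K) (Eventually.of_forall fun s => ?_))
    simp [norm_smul, mul_pow, mul_comm]
  intro i j hij
  -- evaluate the component of degree `i + j` at `(s, 1)`
  have h1 : ∀ s : ℝ, ∑ l ∈ Finset.range (i + j + 1), s ^ l •
      ((1 / (l.factorial * (i + j - l).factorial : ℝ)) • c l (i + j - l)) = 0 := by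
    intro s
    have := hPz (i + j) hij (s • e1 + e2)
    rw [← this]
    simp only [hP]
    refine Finset.sum_congr rfl fun l _ => ?_
    rw [smul_smul]
    congr 1
    unfold mono
    simp [e1, e2, div_eq_mul_inv]
  have h2 := poly_zero (i + j + 1)
    (fun l => (1 / (l.factorial * (i + j - l).factorial : ℝ)) • c l (i + j - l)) (by
      simp only [h1]
      exact isBigO_zero _ _) i (by omega)
  have h3 : (1 / (i.factorial * (i + j - i).factorial : ℝ)) ≠ 0 := by positivity
  have h4 := (smul_eq_zero.1 h2).resolve_left h3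
  rwa [show i + j - i = j by omega] at h4

/-- uniqueness of the Taylor polynomial -/
theorem jet_eq_zero {f : E2 → V} (hf : ContDiffAt ℝ ∞ f 0) {K : ℕ}
    (h : f =O[𝓝 0] fun q => ‖q‖ ^ K) : ∀ i j, i + j < K → jet f i j = 0 := by
  refine tay_zero K (jet f) ?_
  have h1 := h.sub (taylor hf K)
  refine h1.congr_left fun q => ?_
  abel

theorem jet_eq {f g : E2 → V} (hf : ContDiffAt ℝ ∞ f 0) (hg : ContDiffAt ℝ ∞ g 0) {K : ℕ}
    (h : (fun q => f q - g q) =O[𝓝 0] fun q => ‖q‖ ^ K) :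
    ∀ i j, i + j < K → jet f i j = jet g i j := by
  intro i j hij
  have h1 : (fun q => f q - tay K (jet g) q) =O[𝓝 0] fun q => ‖q‖ ^ K := by
    refine (h.add (taylor hg K)).congr_left fun q => ?_
    abel
  have h2 : (tay K fun i j => jet f i j - jet g i j) =O[𝓝 0] fun q => ‖q‖ ^ K := by
    refine (h1.sub (taylor hf K)).congr_left fun q => ?_
    have e : tay K (fun i j => jet f i j - jet g i j) q = tay K (jet f) q - tay K (jet g) q := by
      unfold tay
      simp [smul_sub, Finset.sum_sub_distrib]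
    rw [e]
    abel
  exact sub_eq_zero.1 (tay_zero K _ h2 i j hij)

/-- if all jets of order `< K` vanish then `f = O(|q|^K)` -/
theorem isBigO_of_jet {f : E2 → V} (hf : ContDiffAt ℝ ∞ f 0) {K : ℕ}
    (h : ∀ i j, i + j < K → jet f i j = 0) : f =O[𝓝 0] fun q => ‖q‖ ^ K := by
  refine (taylor hf K).congr_left fun q => ?_
  have e : tay K (jet f) = tay K (fun _ _ => (0 : V)) := tay_congr h
  rw [e]
  simp [tay]

end Jet

end Vale.Agent.P207.N3
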