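import Vale.Agent.P207.N3.Spec

/-!
# P207, line N3: the structures `Half` and `PF` (product formula at a closed orbit)

`Half` is one side of the chart: a straight symplectic chart `(q, p)` near the closed orbit, the
leaves `p = ∇ S_y (q)` and the densities `X_y (q)`, `dp dq = e^{X_y (q)} dq dy`. The two sides of
a closed orbit are two halves (the second one for `φ⁻¹`, with `q` and `p` exchanged); `PF` is the
product formula which connects them.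
-/

open Set Filter Topology Metric MeasureTheory InnerProductSpace
open scoped ContDiff RealInnerProductSpace Gradient

noncomputable section

namespace Vale.Agent.P207.N3

/-- One side of the product formula. `φ (q, p) = (a (q, p), b (q, p))`; the axis `{p = 0}` is
mapped to itself by `N`, the axis `{q = 0}` by the contraction `M`; `p = ∇ S_y (q)` is the leaf
which meets `{q = 0}` at `p = y`. -/
structure Half where
  r : ℝ
  r_pos : 0 < r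
  a : E2 × E2 → E2
  b : E2 × E2 → E2
  a_smooth : ContDiffOn ℝ ∞ a (ball 0 r ×ˢ ball 0 r)
  b_smooth : ContDiffOn ℝ ∞ b (ball 0 r ×ˢ ball 0 r)
  N : E2 → E2
  M : E2 → E2
  a_zero : ∀ p ∈ ball (0 : E2) r, a (0, p) = 0
  b_zero : ∀ q ∈ ball (0 : E2) r, b (q, 0) = 0
  a_axis : ∀ q ∈ ball (0 : E2) r, a (q, 0) = N q
  b_axis : ∀ p ∈ ball (0 : E2) r, b (0, p) = M p
  /-- `φ` is symplectic -/
  symp : ∀ z ∈ ball (0 : E2) r ×ˢ ball (0 : E2) r, ∀ u v : E2 × E2,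
    ⟪fderiv ℝ a z u, fderiv ℝ b z v⟫ - ⟪fderiv ℝ b z u, fderiv ℝ a z v⟫ = ⟪u.1, v.2⟫ - ⟪u.2, v.1⟫
  /-- the leaves -/
  S : E2 → E2 → ℝ
  S_smooth : ∀ y ∈ ball (0 : E2) r, ContDiffOn ℝ ∞ (S y) (ball 0 r)
  S_cont : ∀ k : ℕ, ContinuousOn (fun z : E2 × E2 => iteratedFDeriv ℝ k (S z.1) z.2)
    (ball 0 r ×ˢ ball 0 r)
  S_val : ∀ y ∈ ball (0 : E2) r, S y 0 = 0
  S_grad : ∀ y ∈ ball (0 : E2) r, ∇ (S y) 0 = y
  S_zero : ∀ q ∈ ball (0 : E2) r, S 0 q = 0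
  /-- the logarithmic densities -/
  X : E2 → E2 → ℝ
  X_smooth : ∀ y ∈ ball (0 : E2) r, ContDiffOn ℝ ∞ (X y) (ball 0 r)
  X_cont : ∀ k : ℕ, ContinuousOn (fun z : E2 × E2 => iteratedFDeriv ℝ k (X z.1) z.2)
    (ball 0 r ×ˢ ball 0 r)
  X_val : ∀ y ∈ ball (0 : E2) r, X y 0 = 0
  X_zero : ∀ q ∈ ball (0 : E2) r, X 0 q = 0
  /-- invariance under `φ`, on a smaller ball -/
  ρ : ℝ
  ρ_pos : 0 < ρ
  ρ_le : ρ ≤ r
  M_maps : ∀ y ∈ ball (0 : E2) ρ, M y ∈ ball (0 : E2) r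
  S_maps : ∀ y ∈ ball (0 : E2) ρ, ∀ q ∈ ball (0 : E2) ρ, ∇ (S y) q ∈ ball (0 : E2) r ∧
    a (q, ∇ (S y) q) ∈ ball (0 : E2) r
  S_inv : ∀ y ∈ ball (0 : E2) ρ, ∀ q ∈ ball (0 : E2) ρ,
    ∇ (S (M y)) (a (q, ∇ (S y) q)) = b (q, ∇ (S y) q)
  X_inv : ∀ y ∈ ball (0 : E2) ρ, ∀ q ∈ ball (0 : E2) ρ,
    X (M y) (a (q, ∇ (S y) q)) = X y q
      - Real.log |(fderiv ℝ (fun q => a (q, ∇ (S y) q)) q).det * (fderiv ℝ M y).det|
  /-- the divergence of the second derivatives of the leaves is the first derivative of the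
  density, in the sense of distributions -/
  div : ∀ χ : E2 → ℝ, ContDiff ℝ ∞ χ → HasCompactSupport χ → tsupport χ ⊆ ball 0 r → ∀ v : E2,
    ∫ y, ⟪fderiv ℝ (∇ (S y)) 0 v, ∇ χ y⟫ + fderiv ℝ (X y) 0 v * χ y = 0

/-- The product formula. -/
structure PF where
  /-- the side of the leaves `p = ∇ S_y (q)` -/
  Y : Half
  /-- the side of the leaves `q = ∇ S'_x (p)` -/
  X : Half
  h : ℝ
  h_pos : 0 < h
  δ : ℝ
  δ_pos : 0 < δ
  δ_le_Y : δ ≤ Y.ρ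
  δ_le_X : δ ≤ X.ρ
  prod : ∀ y ∈ ball (0 : E2) δ, ∀ x ∈ ball (0 : E2) δ, ∀ q ∈ ball (0 : E2) δ,
    ∀ p ∈ ball (0 : E2) δ, p = ∇ (Y.S y) q → q = ∇ (X.S x) p →
    Y.X y q + X.X x p - h * (Y.S y q + X.S x p - ⟪q, p⟫)
      = Real.log ((1 : E2 →L[ℝ] E2) -
          fderiv ℝ (∇ (Y.S y)) q ∘L fderiv ℝ (∇ (X.S x)) p).det

/-- the other orientation of the closed orbit -/
def PF.symm (D : PF) : PF where
  Y := D.X
  X := D.Y
  h := D.h
  h_pos := D.h_pos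
  δ := D.δ
  δ_pos := D.δ_pos
  δ_le_Y := D.δ_le_X
  δ_le_X := D.δ_le_Y
  prod := by
    intro x hx y hy p hp q hq h1 h2
    have h3 := D.prod y hy x hx q hq p hp h2 h1
    have h4 : ((1 : E2 →L[ℝ] E2) - fderiv ℝ (∇ (D.X.S x)) p ∘L fderiv ℝ (∇ (D.Y.S y)) q).det
        = ((1 : E2 →L[ℝ] E2) - fderiv ℝ (∇ (D.Y.S y)) q ∘L fderiv ℝ (∇ (D.X.S x)) p).det := by
      set A : E2 →L[ℝ] E2 := fderiv ℝ (∇ (D.X.S x)) p
      set B : E2 →L[ℝ] E2 := fderiv ℝ (∇ (D.Y.S y)) q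
      have key : ∀ f g : E2 →ₗ[ℝ] E2, LinearMap.det (1 - f * g) = LinearMap.det (1 - g * f) := by
        intro f g
        let bs := (EuclideanSpace.basisFun (Fin 2) ℝ).toBasis
        rw [← LinearMap.det_toMatrix bs, ← LinearMap.det_toMatrix bs]
        simp only [map_sub, LinearMap.toMatrix_mul, LinearMap.toMatrix_one]
        exact Matrix.det_one_sub_mul_comm _ _
      exact key A.toLinearMap B.toLinearMap
    rw [h4, ← h3, real_inner_comm p q]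
    ring

end Vale.Agent.P207.N3
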