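import Vale.Agent.P207.N3.H391.XPart
import Vale.Agent.P207.N3.H387.Feed

/-!
# P207, line N3: the feed of a half: no hypothesis on the densities is left
-/

open Set Filter Topology Metric Asymptotics InnerProductSpace
open scoped ContDiff Gradient RealInnerProductSpace

noncomputable section

namespace Vale.Agent.P207.N3

open Jet

/-- the action on the jets of the densities, in the form of helper387 -/
theorem H387.exists_xpart (H : Half) (K : ℕ) {m₁ m₂ c : ℝ} {k : ℕ} (n1 : m₁ ≠ 0) (n2 : m₂ ≠ 0)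
    (hM : H387.MForm H m₁ m₂ c k) : Nonempty (H387.XPart H K m₁ m₂ c k) := by
  obtain ⟨X⟩ := Vale.Agent.P207.N3.xpart H K n1 n2 hM
  refine ⟨⟨X.r, X.r_pos, X.g, X.smooth, X.zero, X.dep, ?_⟩⟩
  have hk : (k : ℝ) * ((k - 1 : ℕ) : ℝ) = k * (k - 1) := by
    rcases Nat.eq_zero_or_pos k with h | h
    · rw [h]; simp
    · rw [Nat.cast_sub h, Nat.cast_one]
  filter_upwards [X.act] with y hy a
  have e : (Sum.elim (H.T (K + 1) y) (H.XJ K y) : H387.JJ K → ℝ) = H387.raw H K y := by
    ext j
    rcases j with b | b <;> rfl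
  rw [hy a, e]
  congr 2
  refine Finset.sum_congr rfl fun b _ => ?_
  split_ifs with hb
  · have hk' : c * k * ((k - 1 : ℕ) : ℝ) = c * k * (k - 1) := by
      rw [mul_assoc, hk, ← mul_assoc]
    unfold H387.xc
    rw [hk']
  · rfl

end Vale.Agent.P207.N3
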