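import Vale.Agent.P207.N3.H391.Fam

/-!
# P207, line N3: the action of `φ` on the jets of the leaves
-/

open Set Filter Topology Metric MeasureTheory Asymptotics InnerProductSpace
open scoped ContDiff Gradient RealInnerProductSpace

noncomputable section

set_option linter.unusedSectionVars false

namespace Vale.Agent.P207.N3

namespace Jet

/-! ### gradients -/

lemma grad_zero (f : E2 → ℝ) (q : E2) : (∇ f q) 0 = D1 f q := by
  have h : ⟪∇ f q, e1⟫ = fderiv ℝ f q e1 := inner_gradient_left (𝕜 := ℝ) (f := f) (x := q) (y := e1)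
  have h2 : ∀ v : E2, ⟪v, e1⟫ = v 0 := by
    intro v
    simp [e1, PiLp.inner_apply]
  rw [h2] at h
  exact h

lemma grad_one (f : E2 → ℝ) (q : E2) : (∇ f q) 1 = D2 f q := by
  have h : ⟪∇ f q, e2⟫ = fderiv ℝ f q e2 := inner_gradient_left (𝕜 := ℝ) (f := f) (x := q) (y := e2)
  have h2 : ∀ v : E2, ⟪v, e2⟫ = v 1 := by
    intro v
    simp [e2, PiLp.inner_apply]
  rw [h2] at h
  exact h

lemma grad_eq (f : E2 → ℝ) (q : E2) : ∇ f q = !₂[D1 f q, D2 f q] := by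
  ext i
  fin_cases i
  · simpa using grad_zero f q
  · simpa using grad_one f q

/-- `C^∞` for maps into the plane -/
lemma smooth_iff {E : Type*} [NormedAddCommGroup E] [NormedSpace ℝ E] {F : E → E2} {x : E} :
    ContDiffAt ℝ ∞ F x ↔ ContDiffAt ℝ ∞ (fun z => F z 0) x ∧ ContDiffAt ℝ ∞ (fun z => F z 1) x := by
  rw [contDiffAt_euclidean]
  constructor
  · exact fun h => ⟨h 0, h 1⟩
  · intro h i
    fin_cases i
    · exact h.1
    · exact h.2

lemma smooth_grad {f : E2 → ℝ} {q : E2} (hf : ContDiffAt ℝ ∞ f q) : ContDiffAt ℝ ∞ (∇ f) q := by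
  rw [smooth_iff]
  simp only [grad_zero, grad_one]
  exact ⟨smooth_D1 hf, smooth_D2 hf⟩

lemma norm_le_coord (v : E2) : ‖v‖ ≤ ‖v 0‖ + ‖v 1‖ := by
  conv_lhs => rw [eq_sum v]
  refine (norm_add_le _ _).trans ?_
  rw [norm_smul, norm_smul]
  simp [e1, e2]

lemma OB_coord {m : ℕ} {F : E2 → E2} (h0 : OB m fun q => F q 0) (h1 : OB m fun q => F q 1) :
    OB m F := by
  have h2 : F =O[𝓝 0] fun q => ‖F q 0‖ + ‖F q 1‖ := by
    refine IsBigO.of_bound 1 (Eventually.of_forall fun q => ?_)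
    rw [one_mul, Real.norm_of_nonneg (by positivity)]
    exact norm_le_coord _
  exact h2.trans (IsBigO.add h0.norm_left h1.norm_left)

lemma OB_coord' {m : ℕ} {F : E2 → E2} (h : OB m F) (i : Fin 2) : OB m fun q => F q i :=
  OB.clm_const h (EuclideanSpace.proj i : E2 →L[ℝ] ℝ)

/-- gradient of a difference -/
lemma OB_grad {m : ℕ} {f g : E2 → ℝ} (hf : ContDiffAt ℝ ∞ f 0) (hg : ContDiffAt ℝ ∞ g 0)
    (h : OB (m + 1) fun q => f q - g q) : OB m fun q => ∇ f q - ∇ g q := by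
  have h1 := OB.fderiv (hf.sub hg) h
  have hd : ∀ᶠ q in 𝓝 (0 : E2), DifferentiableAt ℝ f q ∧ DifferentiableAt ℝ g q := by
    filter_upwards [(hf.of_le (m := 1) (by norm_cast)).eventually (by simp),
      (hg.of_le (m := 1) (by norm_cast)).eventually (by simp)] with q h2 h3
    exact ⟨h2.differentiableAt one_ne_zero, h3.differentiableAt one_ne_zero⟩
  have key : ∀ v : E2, OB m fun q => fderiv ℝ f q v - fderiv ℝ g q v := by
    intro v
    have h4 := OB.clm_const h1 (ContinuousLinearMap.apply ℝ ℝ v)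
    refine h4.congr ?_
    filter_upwards [hd] with q hq
    have e : fderiv ℝ (fun q => f q - g q) q = fderiv ℝ f q - fderiv ℝ g q :=
      fderiv_fun_sub hq.1 hq.2
    change (fderiv ℝ (fun q => f q - g q) q) v = _
    rw [e]
    rfl
  refine OB_coord ?_ ?_
  · refine (key e1).congr (Eventually.of_forall fun q => ?_)
    simp only [PiLp.sub_apply, grad_zero]
    rfl
  · refine (key e2).congr (Eventually.of_forall fun q => ?_)
    simp only [PiLp.sub_apply, grad_one]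
    rfl

/-- the jets of a function from the jets of its gradient -/
def gj (P : E2 → E2) (a : ℕ × ℕ) : ℝ :=
  if 1 ≤ a.1 then jet (fun q => P q 0) (a.1 - 1) a.2 else jet (fun q => P q 1) a.1 (a.2 - 1)

lemma gj_grad {f : E2 → ℝ} (hf : ContDiffAt ℝ ∞ f 0) {a : ℕ × ℕ} (ha : 1 ≤ a.1 + a.2) :
    gj (∇ f) a = jet f a.1 a.2 := by
  unfold gj
  split_ifs with h
  · simp only [grad_zero]
    have := jet_D1 hf (a.1 - 1) a.2
    rw [Nat.sub_add_cancel h] at this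
    exact this
  · simp only [grad_one]
    have h2 : a.2 - 1 + 1 = a.2 := by omega
    have := jet_D2 f a.1 (a.2 - 1)
    rw [h2] at this
    exact this

lemma gj_congr_OB {P P' : E2 → E2} (hP : ContDiffAt ℝ ∞ P 0) (hP' : ContDiffAt ℝ ∞ P' 0) {m : ℕ}
    (h : OB m fun q => P q - P' q) {a : ℕ × ℕ} (h1 : 1 ≤ a.1 + a.2) (ha : a.1 + a.2 ≤ m) :
    gj P a = gj P' a := by
  rw [smooth_iff] at hP hP'
  unfold gj
  split_ifs with h3
  · exact jet_eq hP.1 hP'.1 (OB_coord' h 0) _ _ (by omega)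
  · exact jet_eq hP.2 hP'.2 (OB_coord' h 1) _ _ (by omega)

lemma gj_congr_ev {P P' : E2 → E2} (h : P =ᶠ[𝓝 0] P') (a : ℕ × ℕ) : gj P a = gj P' a := by
  unfold gj
  split_ifs with h3
  · exact jet_congr (by filter_upwards [h] with q hq; rw [hq]) _ _
  · exact jet_congr (by filter_upwards [h] with q hq; rw [hq]) _ _

/-! ### the finite dimensional space of jets -/

/-- multi-indices of order `1, …, K` -/
def idx (K : ℕ) : Finset (ℕ × ℕ) :=
  (Finset.range (K + 1) ×ˢ Finset.range (K + 1)).filter fun b => 1 ≤ b.1 + b.2 ∧ b.1 + b.2 ≤ K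

lemma mem_idx {K : ℕ} {b : ℕ × ℕ} : b ∈ idx K ↔ 1 ≤ b.1 + b.2 ∧ b.1 + b.2 ≤ K := by
  unfold idx
  simp only [Finset.mem_filter, Finset.mem_product, Finset.mem_range]
  omega

/-- the index type -/
abbrev Ix (K : ℕ) : Type := {b : ℕ × ℕ // b ∈ idx K}

/-- the coefficients of a jet -/
def cf {K : ℕ} (u : Ix K → ℝ) (i j : ℕ) : ℝ := if h : (i, j) ∈ idx K then u ⟨(i, j), h⟩ else 0

lemma cf_of_mem {K : ℕ} (u : Ix K → ℝ) (a : Ix K) : cf u a.1.1 a.1.2 = u a := by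
  unfold cf
  rw [dif_pos a.2]

lemma cf_zero {K : ℕ} (u : Ix K → ℝ) : cf u 0 0 = 0 := by
  unfold cf
  rw [dif_neg]
  rw [mem_idx]
  simp

lemma cf_smooth {K : ℕ} (i j : ℕ) : ContDiff ℝ ∞ fun u : Ix K → ℝ => cf u i j := by
  unfold cf
  by_cases h : (i, j) ∈ idx K
  · simp only [h, dif_pos]
    exact contDiff_apply ℝ ℝ _
  · simp only [h, dif_neg, not_false_iff]
    exact contDiff_const

lemma cf_add {K : ℕ} (u v : Ix K → ℝ) (i j : ℕ) : cf (u + v) i j = cf u i j + cf v i j := by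
  unfold cf
  split_ifs <;> simp

lemma cf_smul {K : ℕ} (s : ℝ) (v : Ix K → ℝ) (i j : ℕ) : cf (s • v) i j = s * cf v i j := by
  unfold cf
  split_ifs <;> simp

/-- the polynomial with given jet -/
def Sf {K : ℕ} (u : Ix K → ℝ) (q : E2) : ℝ := tay (K + 1) (cf u) q

/-- its gradient, as a function of the jet and of the point -/
def Pf {K : ℕ} (w : (Ix K → ℝ) × E2) : E2 :=
  !₂[tay K (fun i j => cf w.1 (i + 1) j) w.2, tay K (fun i j => cf w.1 i (j + 1)) w.2]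

lemma grad_Sf {K : ℕ} (u : Ix K → ℝ) (q : E2) : ∇ (Sf u) q = Pf (u, q) := by
  rw [grad_eq]
  unfold Pf Sf
  rw [D1_tay, D2_tay]

lemma Sf_smooth {K : ℕ} (u : Ix K → ℝ) : ContDiff ℝ ∞ (Sf u) := tay_smooth _ _

lemma tay_smooth₂ {Z : Type*} [NormedAddCommGroup Z] [NormedSpace ℝ Z] (K : ℕ)
    {c : ℕ → ℕ → Z → ℝ} (hc : ∀ i j, ContDiff ℝ ∞ (c i j)) :
    ContDiff ℝ ∞ fun w : Z × E2 => tay K (fun i j => c i j w.1) w.2 := by
  unfold tay
  refine ContDiff.sum fun i _ => ContDiff.sum fun j _ => ?_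
  exact ((mono_smooth i j).comp contDiff_snd).smul ((hc i j).comp contDiff_fst)

lemma Pf_smooth (K : ℕ) : ContDiff ℝ ∞ (Pf (K := K)) := by
  rw [contDiff_euclidean]
  intro i
  fin_cases i
  · exact tay_smooth₂ K (c := fun i j u => cf u (i + 1) j) fun i j => cf_smooth _ _
  · exact tay_smooth₂ K (c := fun i j u => cf u i (j + 1)) fun i j => cf_smooth _ _

lemma Pf_zero_left {K : ℕ} (q : E2) : Pf (K := K) (0, q) = 0 := by
  have h : ∀ i j, cf (0 : Ix K → ℝ) i j = 0 := by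
    intro i j
    unfold cf
    split_ifs <;> simp
  unfold Pf tay
  ext i
  fin_cases i <;> simp [h]

/-- the label of a jet -/
def lab {K : ℕ} (u : Ix K → ℝ) : E2 := !₂[cf u 1 0, cf u 0 1]

lemma Pf_zero_right {K : ℕ} (u : Ix K → ℝ) (hK : 1 ≤ K) : Pf (u, 0) = lab u := by
  obtain ⟨K, rfl⟩ : ∃ K', K = K' + 1 := ⟨K - 1, by omega⟩
  unfold Pf lab
  rw [tay_at_zero, tay_at_zero]

lemma lab_smooth (K : ℕ) : ContDiff ℝ ∞ (lab (K := K)) := by
  rw [contDiff_euclidean]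
  intro i
  fin_cases i
  · exact cf_smooth 1 0
  · exact cf_smooth 0 1

lemma lab_zero (K : ℕ) : lab (0 : Ix K → ℝ) = 0 := by
  have h : ∀ i j, cf (0 : Ix K → ℝ) i j = 0 := by
    intro i j
    unfold cf
    split_ifs <;> simp
  unfold lab
  ext i
  fin_cases i <;> simp [h]

/-- the jet of a function -/
def jv (K : ℕ) (f : E2 → ℝ) : Ix K → ℝ := fun a => jet f a.1.1 a.1.2

lemma cf_jv {K : ℕ} {f : E2 → ℝ} (h0 : f 0 = 0) {i j : ℕ} (h : i + j < K + 1) :
    cf (jv K f) i j = jet f i j := by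
  by_cases h1 : (i, j) ∈ idx K
  · rw [cf_of_mem (jv K f) ⟨(i, j), h1⟩]
    rfl
  · have h2 : i = 0 ∧ j = 0 := by
      rw [mem_idx] at h1
      simp only at h1
      omega
    rw [h2.1, h2.2, cf_zero, jet_zero, h0]

lemma OB_sub_Sf {K : ℕ} {f : E2 → ℝ} (hf : ContDiffAt ℝ ∞ f 0) (h0 : f 0 = 0) :
    OB (K + 1) fun q => f q - Sf (jv K f) q := by
  have h := taylor hf (K + 1)
  refine OB.congr h (Eventually.of_forall fun q => ?_)
  simp only [Sf]
  rw [tay_congr fun i j hij => (cf_jv h0 hij).symm]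

end Jet

open Jet

namespace Half

variable (H : Half)

lemma M_zero : H.M 0 = 0 := by
  rw [← H.b_axis 0 (mem_ball_self H.r_pos), H.b_zero 0 (mem_ball_self H.r_pos)]

lemma a_at {p : E2 × E2} (hp : p ∈ ball (0 : E2) H.r ×ˢ ball (0 : E2) H.r) :
    ContDiffAt ℝ ∞ H.a p :=
  H.a_smooth.contDiffAt ((isOpen_ball.prod isOpen_ball).mem_nhds hp)

lemma b_at {p : E2 × E2} (hp : p ∈ ball (0 : E2) H.r ×ˢ ball (0 : E2) H.r) :
    ContDiffAt ℝ ∞ H.b p :=
  H.b_smooth.contDiffAt ((isOpen_ball.prod isOpen_ball).mem_nhds hp)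

lemma mem0 {y : E2} (hy : y ∈ ball (0 : E2) H.r) :
    ((0 : E2), y) ∈ ball (0 : E2) H.r ×ˢ ball (0 : E2) H.r := ⟨mem_ball_self H.r_pos, hy⟩

lemma a_p {y : E2} (hy : y ∈ ball (0 : E2) H.r) (v : E2) : fderiv ℝ H.a (0, y) (0, v) = 0 := by
  have hadiff : DifferentiableAt ℝ H.a (0, y) := (H.a_at (H.mem0 hy)).differentiableAt (by simp)
  have h1 : HasFDerivAt (fun p : E2 => H.a (0, p))
      ((fderiv ℝ H.a (0, y)).comp (ContinuousLinearMap.inr ℝ E2 E2)) y :=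
    HasFDerivAt.comp (g := H.a) y hadiff.hasFDerivAt (hasFDerivAt_prodMk_right 0 y)
  have h3 : (fun p : E2 => H.a (0, p)) =ᶠ[𝓝 y] fun _ => (0 : E2) := by
    filter_upwards [isOpen_ball.mem_nhds hy] with p hp
    exact H.a_zero p hp
  have h4 : HasFDerivAt (fun p : E2 => H.a (0, p)) (0 : E2 →L[ℝ] E2) y :=
    (hasFDerivAt_const (0 : E2) y).congr_of_eventuallyEq h3
  have h6 := congrArg (fun L : E2 →L[ℝ] E2 => L v) (h1.unique h4)
  simpa using h6

lemma M_smooth {y : E2} (hy : y ∈ ball (0 : E2) H.r) : ContDiffAt ℝ ∞ H.M y := by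
  have h1 : ContDiffAt ℝ ∞ (fun p : E2 => H.b (0, p)) y :=
    ContDiffAt.comp (g := H.b) y (H.b_at (H.mem0 hy)) (contDiffAt_const.prodMk contDiffAt_id)
  refine h1.congr_of_eventuallyEq ?_
  filter_upwards [isOpen_ball.mem_nhds hy] with p hp
  exact (H.b_axis p hp).symm

lemma b_p {y : E2} (hy : y ∈ ball (0 : E2) H.r) (v : E2) :
    fderiv ℝ H.b (0, y) (0, v) = fderiv ℝ H.M y v := by
  have hadiff : DifferentiableAt ℝ H.b (0, y) := (H.b_at (H.mem0 hy)).differentiableAt (by simp)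
  have h1 : HasFDerivAt (fun p : E2 => H.b (0, p))
      ((fderiv ℝ H.b (0, y)).comp (ContinuousLinearMap.inr ℝ E2 E2)) y :=
    HasFDerivAt.comp (g := H.b) y hadiff.hasFDerivAt (hasFDerivAt_prodMk_right 0 y)
  have h3 : (fun p : E2 => H.b (0, p)) =ᶠ[𝓝 y] H.M := by
    filter_upwards [isOpen_ball.mem_nhds hy] with p hp
    exact H.b_axis p hp
  have h4 : HasFDerivAt H.M ((fderiv ℝ H.b (0, y)).comp (ContinuousLinearMap.inr ℝ E2 E2)) y :=
    h1.congr_of_eventuallyEq h3.symm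
  rw [h4.fderiv]
  rfl

/-- the transpose of `D M (y)` -/
def Mt (y : E2) : E2 →L[ℝ] E2 := ContinuousLinearMap.adjoint (fderiv ℝ H.M y)

/-- `∂a/∂q (0, y)` is the inverse of the transpose of `DM (y)` -/
lemma exists_A {y : E2} (hy : y ∈ ball (0 : E2) H.r) : ∃ A : E2 ≃L[ℝ] E2,
    (∀ v, fderiv ℝ H.a (0, y) (v, 0) = A v) ∧ ∀ q, A.symm q = H.Mt y q := by
  set A0 : E2 →L[ℝ] E2 := (fderiv ℝ H.a (0, y)).comp (ContinuousLinearMap.inl ℝ E2 E2) with hA0
  have h1 : ∀ v w : E2, ⟪H.Mt y (A0 v), w⟫ = ⟪v, w⟫ := by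
    intro v w
    have h2 := H.symp (0, y) (H.mem0 hy) (v, 0) (0, w)
    rw [H.a_p hy w, H.b_p hy w] at h2
    simp only [inner_zero_right, sub_zero] at h2
    unfold Mt
    rw [ContinuousLinearMap.adjoint_inner_left]
    exact h2
  have h3 : ∀ v, H.Mt y (A0 v) = v := fun v => ext_inner_right ℝ fun w => h1 v w
  have h4 : (H.Mt y : E2 →ₗ[ℝ] E2) * (A0 : E2 →ₗ[ℝ] E2) = 1 := by
    ext1 v
    exact h3 v
  have h5 : (A0 : E2 →ₗ[ℝ] E2) * (H.Mt y : E2 →ₗ[ℝ] E2) = 1 := (mul_eq_one_comm).1 h4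
  have h6 : ∀ v, A0 (H.Mt y v) = v := fun v => congrArg (fun L : E2 →ₗ[ℝ] E2 => L v) h5
  refine ⟨ContinuousLinearEquiv.equivOfInverse A0 (H.Mt y) h3 h6, fun v => rfl, fun q => rfl⟩

lemma S_at {y : E2} (hy : y ∈ ball (0 : E2) H.r) : ContDiffAt ℝ ∞ (H.S y) 0 :=
  (H.S_smooth y hy).contDiffAt (ball_mem_nhds 0 H.r_pos)

/-- the jet of the leaf -/
def T (K : ℕ) (y : E2) : Ix K → ℝ := jv K (H.S y)

lemma continuousOn_jetS (i j : ℕ) :
    ContinuousOn (fun y => jet (H.S y) i j) (ball 0 H.r) := by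
  have h := continuousOn_jet (S := H.S) (s := ball (0 : E2) H.r) (r := H.r) H.S_smooth i j
    (H.S_cont (i + j))
  have h2 : ContinuousOn (fun y : E2 => (y, (0 : E2))) (ball 0 H.r) := by fun_prop
  exact h.comp h2 fun y hy => ⟨hy, mem_ball_self H.r_pos⟩

lemma jetS_zero (i j : ℕ) : jet (H.S 0) i j = 0 := by
  have h : H.S 0 =ᶠ[𝓝 0] fun _ => (0 : ℝ) := by
    filter_upwards [ball_mem_nhds (0 : E2) H.r_pos] with q hq
    exact H.S_zero q hq
  rw [jet_congr h i j]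
  have h1 : jet (fun _ : E2 => (0 : ℝ)) i j = 0 := by
    refine jet_eq_zero contDiffAt_const (K := i + j + 1) ?_ i j (by omega)
    exact isBigO_zero _ _
  exact h1

lemma T_cont (K : ℕ) : ContinuousOn (H.T K) (ball 0 H.r) :=
  continuousOn_pi.2 fun a => H.continuousOn_jetS _ _

lemma T_zero (K : ℕ) : H.T K 0 = 0 := by
  ext a
  exact H.jetS_zero _ _

lemma T_tendsto (K : ℕ) : Tendsto (H.T K) (𝓝 0) (𝓝 0) := by
  have h := ((H.T_cont K).continuousAt (ball_mem_nhds 0 H.r_pos)).tendsto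
  rwa [H.T_zero] at h

lemma lab_T {K : ℕ} (hK : 1 ≤ K) {y : E2} (hy : y ∈ ball (0 : E2) H.r) : lab (H.T K y) = y := by
  have h1 : cf (H.T K y) 1 0 = jet (H.S y) 1 0 := cf_jv (H.S_val y hy) (by omega)
  have h2 : cf (H.T K y) 0 1 = jet (H.S y) 0 1 := cf_jv (H.S_val y hy) (by omega)
  unfold lab
  rw [h1, h2]
  have h3 : jet (H.S y) 1 0 = y 0 := by
    have h4 := grad_zero (H.S y) 0
    rw [H.S_grad y hy] at h4
    exact h4.symm
  have h5 : jet (H.S y) 0 1 = y 1 := by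
    have h4 := grad_one (H.S y) 0
    rw [H.S_grad y hy] at h4
    exact h4.symm
  rw [h3, h5]
  ext i
  fin_cases i <;> rfl

end Half

end Vale.Agent.P207.N3
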