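import Vale.Agent.P207.N3.H391.GT

/-!
# P207, line N3: graph transform of a smooth family
-/

open Set Filter Topology Metric MeasureTheory Asymptotics InnerProductSpace
open scoped ContDiff Gradient

noncomputable section

set_option linter.unusedSectionVars false

namespace Vale.Agent.P207.N3

namespace Jet

variable {Z : Type*} [NormedAddCommGroup Z] [NormedSpace ℝ Z] [CompleteSpace Z]

/-- The graph transform of a smooth family of graphs `p = P (z, q)` near the zero graph. -/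
theorem fam_exists {a b : E2 × E2 → E2} {r : ℝ} (hr : 0 < r)
    (ha : ContDiffOn ℝ ∞ a (ball 0 r ×ˢ ball 0 r)) (hb : ContDiffOn ℝ ∞ b (ball 0 r ×ˢ ball 0 r))
    (ha0 : ∀ p ∈ ball (0 : E2) r, a (0, p) = 0) {A : E2 ≃L[ℝ] E2}
    (hA : ∀ v, fderiv ℝ a (0, 0) (v, 0) = A v) {P : Z × E2 → E2} (hP : ContDiff ℝ ∞ P)
    (hP0 : P 0 = 0) :
    ∃ P' : Z × E2 → E2, (∀ᶠ w in 𝓝 (0 : Z × E2), ContDiffAt ℝ ∞ P' w) ∧
      (∀ᶠ w in 𝓝 (0 : Z × E2), P' (w.1, a (w.2, P w)) = b (w.2, P w)) := by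
  have hU : IsOpen (ball (0 : E2) r ×ˢ ball (0 : E2) r) := isOpen_ball.prod isOpen_ball
  set κ : Z × E2 → E2 × E2 := fun w => (w.2, P w) with hκ
  have hκs : ContDiff ℝ ∞ κ := contDiff_snd.prodMk hP
  have hκ0 : κ 0 = (0, 0) := by simp [hκ, hP0]
  have hκU : ∀ᶠ w in 𝓝 (0 : Z × E2), κ w ∈ ball (0 : E2) r ×ˢ ball (0 : E2) r := by
    refine hκs.continuous.continuousAt.eventually_mem (hU.mem_nhds ?_)
    rw [hκ0]
    exact ⟨mem_ball_self hr, mem_ball_self hr⟩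
  have has : ∀ w, κ w ∈ ball (0 : E2) r ×ˢ ball (0 : E2) r → ContDiffAt ℝ ∞ (fun w => a (κ w)) w :=
    fun w hw => ContDiffAt.comp w (ha.contDiffAt (hU.mem_nhds hw)) hκs.contDiffAt
  have hbs : ∀ w, κ w ∈ ball (0 : E2) r ×ˢ ball (0 : E2) r → ContDiffAt ℝ ∞ (fun w => b (κ w)) w :=
    fun w hw => ContDiffAt.comp w (hb.contDiffAt (hU.mem_nhds hw)) hκs.contDiffAt
  set Ψ : Z × E2 → Z × E2 := fun w => (w.1, a (κ w)) with hΨ
  have hΨs : ∀ w, κ w ∈ ball (0 : E2) r ×ˢ ball (0 : E2) r → ContDiffAt ℝ ∞ Ψ w :=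
    fun w hw => contDiffAt_fst.prodMk (has w hw)
  have h0U : κ 0 ∈ ball (0 : E2) r ×ˢ ball (0 : E2) r := by
    rw [hκ0]
    exact ⟨mem_ball_self hr, mem_ball_self hr⟩
  have hΨ0 : Ψ 0 = 0 := by
    simp only [hΨ, hκ0, ha0 0 (mem_ball_self hr)]
    rfl
  -- the derivative at the origin
  have hadiff : DifferentiableAt ℝ a (0, 0) :=
    (ha.contDiffAt (hU.mem_nhds (by rw [hκ0] at h0U; exact h0U))).differentiableAt (by simp)
  have hap : ∀ v, fderiv ℝ a (0, 0) (0, v) = 0 := by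
    intro v
    have h1 : HasFDerivAt (fun p : E2 => a (0, p))
        ((fderiv ℝ a (0, 0)).comp (ContinuousLinearMap.inr ℝ E2 E2)) 0 := by
      have h2 : HasFDerivAt (fun p : E2 => ((0 : E2), p)) (ContinuousLinearMap.inr ℝ E2 E2) 0 :=
        hasFDerivAt_prodMk_right 0 0
      exact HasFDerivAt.comp (g := a) 0 hadiff.hasFDerivAt h2
    have h3 : (fun p : E2 => a (0, p)) =ᶠ[𝓝 0] fun _ => (0 : E2) := by
      filter_upwards [ball_mem_nhds (0 : E2) hr] with p hp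
      exact ha0 p hp
    have h4 : HasFDerivAt (fun p : E2 => a (0, p)) (0 : E2 →L[ℝ] E2) 0 :=
      (hasFDerivAt_const (0 : E2) (0 : E2)).congr_of_eventuallyEq h3
    have h5 := h1.unique h4
    have h6 := congrArg (fun L : E2 →L[ℝ] E2 => L v) h5
    simpa using h6
  have hder : fderiv ℝ Ψ 0 = ((ContinuousLinearEquiv.refl ℝ Z).prodCongr A : Z × E2 →L[ℝ] Z × E2) := by
    have h1 : HasFDerivAt (fun w => a (κ w)) ((fderiv ℝ a (0, 0)).comp (fderiv ℝ κ 0)) 0 := by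
      have h2 : HasFDerivAt a (fderiv ℝ a (0, 0)) (κ 0) := by
        rw [hκ0]; exact hadiff.hasFDerivAt
      exact h2.comp 0 (hκs.differentiable (by simp) 0).hasFDerivAt
    have h3 : HasFDerivAt Ψ ((ContinuousLinearMap.fst ℝ Z E2).prod
        ((fderiv ℝ a (0, 0)).comp (fderiv ℝ κ 0))) 0 := hasFDerivAt_fst.prodMk h1
    rw [h3.fderiv]
    have h4 : HasFDerivAt κ ((ContinuousLinearMap.snd ℝ Z E2).prod (fderiv ℝ P 0)) 0 :=
      hasFDerivAt_snd.prodMk (hP.differentiable (by simp) 0).hasFDerivAt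
    rw [h4.fderiv]
    refine ContinuousLinearMap.ext fun w => ?_
    have h5 : fderiv ℝ a (0, 0) (w.2, fderiv ℝ P 0 w) = A w.2 := by
      have h7 : (w.2, fderiv ℝ P 0 w) = (w.2, (0 : E2)) + ((0 : E2), fderiv ℝ P 0 w) := by simp
      rw [h7, map_add, hA, hap, add_zero]
    change (w.1, fderiv ℝ a (0, 0) (w.2, fderiv ℝ P 0 w)) = (w.1, A w.2)
    rw [h5]
  have hst : HasStrictFDerivAt Ψ
      ((ContinuousLinearEquiv.refl ℝ Z).prodCongr A : Z × E2 →L[ℝ] Z × E2) 0 := by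
    rw [← hder]
    exact (hΨs 0 h0U).hasStrictFDerivAt (by simp)
  set e := hst.toOpenPartialHomeomorph Ψ with he
  have hes : (0 : Z × E2) ∈ e.source := hst.mem_toOpenPartialHomeomorph_source
  have het : (0 : Z × E2) ∈ e.target := by
    have := e.map_source hes
    rwa [show e 0 = 0 from hΨ0] at this
  have hsymm0 : e.symm 0 = 0 := by
    have := e.left_inv hes
    rwa [show e 0 = 0 from hΨ0] at this
  have hsc : ContinuousAt e.symm 0 := e.continuousAt_symm het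
  -- near the origin the derivative is invertible
  have hinv : ∀ᶠ w in 𝓝 (0 : Z × E2), fderiv ℝ Ψ w ∈
      range ((↑) : ((Z × E2) ≃L[ℝ] (Z × E2)) → (Z × E2 →L[ℝ] Z × E2)) := by
    have h1 : ContinuousAt (fderiv ℝ Ψ) 0 := (hΨs 0 h0U).continuousAt_fderiv (by simp)
    refine h1.eventually_mem ?_
    rw [hder]
    exact ContinuousLinearEquiv.nhds _
  refine ⟨fun w => b (κ (e.symm w)), ?_, ?_⟩
  · have h1 : ∀ᶠ w in 𝓝 (0 : Z × E2), e.symm w ∈ {w | κ w ∈ ball (0 : E2) r ×ˢ ball (0 : E2) r ∧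
        fderiv ℝ Ψ w ∈ range ((↑) : ((Z × E2) ≃L[ℝ] (Z × E2)) → (Z × E2 →L[ℝ] Z × E2))} := by
      refine hsc.eventually_mem ?_
      rw [hsymm0]
      exact hκU.and hinv
    filter_upwards [h1, e.open_target.mem_nhds het] with w hw hwt
    obtain ⟨hw1, f', hf'⟩ := hw
    have h2 : HasFDerivAt e (f' : Z × E2 →L[ℝ] Z × E2) (e.symm w) := by
      rw [hf']
      exact ((hΨs _ hw1).differentiableAt (by simp)).hasFDerivAt
    have h3 : ContDiffAt ℝ ∞ e.symm w := e.contDiffAt_symm hwt h2 (hΨs _ hw1)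
    exact ContDiffAt.comp (g := fun w => b (κ w)) w (hbs _ hw1) h3
  · filter_upwards [e.open_source.mem_nhds hes] with w hw
    have h1 : e.symm (w.1, a (w.2, P w)) = w := e.left_inv hw
    change b (κ (e.symm (w.1, a (w.2, P w)))) = b (κ w)
    rw [h1]

end Jet

end Vale.Agent.P207.N3
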