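import Vale.Agent.P207.N3.H391.Jet2
import Vale.Agent.P207.N3.H391.PF

/-!
# P207, line N3: comparison of two graph transforms at the origin
-/

open Set Filter Topology Metric MeasureTheory Asymptotics InnerProductSpace
open scoped ContDiff Gradient

noncomputable section

set_option linter.unusedSectionVars false

namespace Vale.Agent.P207.N3

namespace Jet

variable {E : Type*} [NormedAddCommGroup E] [NormedSpace ℝ E]
variable {V : Type*} [NormedAddCommGroup V] [NormedSpace ℝ V]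
variable {W : Type*} [NormedAddCommGroup W] [NormedSpace ℝ W]

/-- `f = O(|q|^m)` at the origin -/
def OB (m : ℕ) (f : E → V) : Prop := f =O[𝓝 0] fun q => ‖q‖ ^ m

lemma OB.add {m : ℕ} {f g : E → V} (hf : OB m f) (hg : OB m g) : OB m fun q => f q + g q :=
  IsBigO.add hf hg

lemma OB.sub {m : ℕ} {f g : E → V} (hf : OB m f) (hg : OB m g) : OB m fun q => f q - g q :=
  IsBigO.sub hf hg

lemma OB.congr {m : ℕ} {f g : E → V} (hf : OB m f) (h : f =ᶠ[𝓝 0] g) : OB m g :=
  IsBigO.congr' hf h EventuallyEq.rfl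

lemma OB.of_le {m n : ℕ} {f : E → V} (hf : OB m f) (h : n ≤ m) : OB n f := by
  refine IsBigO.trans hf (IsBigO.of_bound 1 ?_)
  filter_upwards [ball_mem_nhds (0 : E) one_pos] with q hq
  rw [mem_ball_zero_iff] at hq
  rw [one_mul, norm_pow, norm_pow, norm_norm]
  exact pow_le_pow_of_le_one (norm_nonneg _) hq.le h

lemma OB.smul {m n : ℕ} {c : E → ℝ} {f : E → V} (hc : OB m c) (hf : OB n f) :
    OB (m + n) fun q => c q • f q := by
  unfold OB
  simp only [pow_add]
  exact IsBigO.smul hc hf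

lemma OB.clm {m n : ℕ} {L : E → V →L[ℝ] W} {f : E → V} (hL : OB m L) (hf : OB n f) :
    OB (m + n) fun q => L q (f q) := by
  unfold OB at *
  simp only [pow_add]
  refine IsBigO.trans (IsBigO.of_bound 1 (Eventually.of_forall fun q => ?_)) (hL.norm_left.mul hf.norm_left)
  rw [one_mul, norm_mul, norm_norm, norm_norm]
  exact (L q).le_opNorm _

lemma OB.clm_const {m : ℕ} {f : E → V} (hf : OB m f) (L : V →L[ℝ] W) :
    OB m fun q => L (f q) :=
  (L.isBigO_comp f _).trans hf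

/-- Composition with a map which is `O(|q|)`. -/
lemma OB.comp {m : ℕ} {f : V → W} {u : E → V} (hf : OB m f) (hu : OB 1 u) :
    OB m fun q => f (u q) := by
  have h0 : Tendsto u (𝓝 0) (𝓝 0) := by
    refine IsBigO.trans_tendsto hu ?_
    have : Tendsto (fun q : E => ‖q‖ ^ 1) (𝓝 0) (𝓝 (‖(0 : E)‖ ^ 1)) :=
      (continuous_norm.pow 1).tendsto 0
    simpa using this
  have h1 : (fun q => f (u q)) =O[𝓝 0] fun q => ‖u q‖ ^ m := IsBigO.comp_tendsto hf h0
  refine h1.trans ?_
  have h2 : (fun q => ‖u q‖) =O[𝓝 0] fun q : E => ‖q‖ ^ 1 := hu.norm_left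
  simpa using h2.pow m

lemma OB.of_differentiableAt {f : E → V} (hf : DifferentiableAt ℝ f 0) (h0 : f 0 = 0) :
    OB 1 f := by
  have h := hf.hasFDerivAt.isBigO_sub
  unfold OB
  simp only [h0, sub_zero] at h
  simpa using h.norm_right

lemma OB.of_continuousAt {f : E → V} (hf : ContinuousAt f 0) : OB 0 f := by
  unfold OB
  simpa using hf.isBigO_one ℝ

/-- Lipschitz estimate for a `C¹` function -/
lemma OB.lip {m : ℕ} {g : V → W} {u v : E → V} {z : V} (hg : ContDiffAt ℝ 1 g z)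
    (hu : Tendsto u (𝓝 0) (𝓝 z)) (hv : Tendsto v (𝓝 0) (𝓝 z)) (h : OB m fun q => u q - v q) :
    OB m fun q => g (u q) - g (v q) := by
  have h1 := (hg.hasStrictFDerivAt one_ne_zero).isBigO_sub
  have h2 := h1.comp_tendsto (hu.prodMk_nhds hv)
  exact IsBigO.trans h2 h

/-- second order estimate for a `C²` function -/
lemma C2_est {g : V → W} {z : V} (hg : ContDiffAt ℝ 2 g z) :
    ∃ C ≥ (0 : ℝ), ∃ r > (0 : ℝ), ∀ x ∈ ball z r, ∀ y ∈ ball z r,
      ‖g x - g y - fderiv ℝ g z (x - y)‖ ≤ C * (‖x - z‖ + ‖y - z‖) * ‖x - y‖ := by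
  have h1 : ContDiffAt ℝ 1 (fderiv ℝ g) z := hg.fderiv_right (m := 1) (by norm_cast)
  have h2 := (h1.differentiableAt one_ne_zero).hasFDerivAt.isBigO_sub
  obtain ⟨C, hC⟩ := h2.bound
  have h3 := (hg.of_le (m := 1) (by norm_cast)).eventually (by simp)
  obtain ⟨r, hr, hb⟩ := Metric.eventually_nhds_iff_ball.1 (hC.and h3)
  refine ⟨|C|, abs_nonneg _, r, hr, fun x hx y hy => ?_⟩
  have h4 : ∀ w ∈ segment ℝ y x, ‖fderiv ℝ (fun v => g v - fderiv ℝ g z v) w‖
      ≤ |C| * (‖x - z‖ + ‖y - z‖) := by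
    intro w hw
    have hwb : w ∈ ball z r := (convex_ball z r).segment_subset hy hx hw
    have hwz : ‖w - z‖ ≤ ‖x - z‖ + ‖y - z‖ := by
      obtain ⟨s, t, hs, ht, hst, rfl⟩ := hw
      have e : s • y + t • x - z = s • (y - z) + t • (x - z) := by
        rw [smul_sub, smul_sub]
        have : z = s • z + t • z := by rw [← add_smul, hst, one_smul]
        nth_rewrite 1 [this]
        abel
      rw [e]
      refine (norm_add_le _ _).trans ?_
      rw [norm_smul, norm_smul, Real.norm_of_nonneg hs, Real.norm_of_nonneg ht]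
      have h5 : s * ‖y - z‖ ≤ ‖y - z‖ := mul_le_of_le_one_left (norm_nonneg _) (by linarith)
      have h6 : t * ‖x - z‖ ≤ ‖x - z‖ := mul_le_of_le_one_left (norm_nonneg _) (by linarith)
      linarith
    have hd : DifferentiableAt ℝ g w := (hb w hwb).2.differentiableAt one_ne_zero
    have e2 : fderiv ℝ (fun v => g v - fderiv ℝ g z v) w = fderiv ℝ g w - fderiv ℝ g z := by
      rw [fderiv_fun_sub hd (fderiv ℝ g z).differentiableAt]
      congr 1
      exact (fderiv ℝ g z).fderiv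
    rw [e2]
    refine ((hb w hwb).1).trans ?_
    exact mul_le_mul (le_abs_self _) hwz (norm_nonneg _) (abs_nonneg _)
  have h7 := (convex_segment (𝕜 := ℝ) y x).norm_image_sub_le_of_norm_fderiv_le
    (f := fun v => g v - fderiv ℝ g z v) (fun w hw => by
      have hwb : w ∈ ball z r := (convex_ball z r).segment_subset hy hx hw
      exact ((hb w hwb).2.differentiableAt one_ne_zero).sub (fderiv ℝ g z).differentiableAt) h4
    (left_mem_segment _ _ _) (right_mem_segment _ _ _)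
  have e3 : g x - g y - fderiv ℝ g z (x - y) = g x - fderiv ℝ g z x - (g y - fderiv ℝ g z y) := by
    rw [map_sub]; abel
  rw [e3]
  exact h7

lemma OB.C2 {m : ℕ} {g : V → W} {u v : E → V} {z : V} (hg : ContDiffAt ℝ 2 g z)
    (hu : OB 1 fun q => u q - z) (hv : OB 1 fun q => v q - z) (h : OB m fun q => u q - v q) :
    OB (m + 1) fun q => g (u q) - g (v q) - fderiv ℝ g z (u q - v q) := by
  obtain ⟨C, hC0, r, hr, hC⟩ := C2_est hg
  have t : ∀ {w : E → V}, (OB 1 fun q => w q - z) → ∀ᶠ q in 𝓝 0, w q ∈ ball z r := by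
    intro w hw
    have h0 : Tendsto (fun q => w q - z) (𝓝 0) (𝓝 0) := by
      refine IsBigO.trans_tendsto hw ?_
      have : Tendsto (fun q : E => ‖q‖ ^ 1) (𝓝 0) (𝓝 (‖(0 : E)‖ ^ 1)) :=
        (continuous_norm.pow 1).tendsto 0
      simpa using this
    filter_upwards [h0 (ball_mem_nhds 0 hr)] with q hq
    simpa [dist_eq_norm] using hq
  have h1 : (fun q => g (u q) - g (v q) - fderiv ℝ g z (u q - v q)) =O[𝓝 0]
      fun q => (‖u q - z‖ + ‖v q - z‖) * ‖u q - v q‖ := by
    refine IsBigO.of_bound C ?_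
    filter_upwards [t hu, t hv] with q h1 h2
    refine (hC _ h1 _ h2).trans (le_of_eq ?_)
    rw [Real.norm_of_nonneg (by positivity)]
    ring
  refine h1.trans ?_
  have h2 : (fun q => ‖u q - z‖ + ‖v q - z‖) =O[𝓝 0] fun q : E => ‖q‖ ^ 1 :=
    hu.norm_left.add hv.norm_left
  refine ((h2.mul h.norm_left)).congr_right fun q => ?_
  ring

/-- change of variables -/
lemma OB.of_comp {m : ℕ} {f : E2 → V} {F : E2 → E2} {A : E2 ≃L[ℝ] E2}
    (hF : HasStrictFDerivAt F (A : E2 →L[ℝ] E2) 0) (h0 : F 0 = 0)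
    (h : OB m fun q => f (F q)) : OB m f := by
  have h1 : map F (𝓝 0) = 𝓝 0 := by
    have := hF.map_nhds_eq_of_equiv
    rwa [h0] at this
  -- `|q| ≤ C |F q|`
  have h2 : (fun q : E2 => q) =O[𝓝 0] F := by
    have h3 := (hF.hasFDerivAt.isTheta_sub A.toHomeomorph.isInducing).2
    simpa [h0] using h3
  obtain ⟨C, hC⟩ := h2.bound
  obtain ⟨C', hC'⟩ := IsBigO.bound h
  have h4 : ∀ᶠ q in 𝓝 (0 : E2), ‖f (F q)‖ ≤ (|C'| * |C| ^ m) * ‖‖F q‖ ^ m‖ := by
    filter_upwards [hC, hC'] with q h5 h6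
    refine h6.trans ?_
    rw [norm_pow, norm_norm, norm_pow, norm_norm, mul_assoc, ← mul_pow]
    have h7 : ‖q‖ ≤ |C| * ‖F q‖ := h5.trans (mul_le_mul_of_nonneg_right (le_abs_self _) (norm_nonneg _))
    exact mul_le_mul (le_abs_self _) (pow_le_pow_left₀ (norm_nonneg _) h7 m) (by positivity)
      (abs_nonneg _)
  refine IsBigO.of_bound (|C'| * |C| ^ m) ?_
  rw [← h1]
  exact h4

/-- the derivative of a smooth function which is `O(|q|^(m+1))` is `O(|q|^m)` -/
lemma OB.fderiv {m : ℕ} {f : E2 → V} (hf : ContDiffAt ℝ ∞ f 0) (h : OB (m + 1) f) :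
    OB m (fderiv ℝ f) := by
  have hj := jet_eq_zero hf h
  have h1 : OB m (D1 f) := isBigO_of_jet (smooth_D1 hf) fun i j hij => by
    rw [jet_D1 hf]
    exact hj _ _ (by omega)
  have h2 : OB m (D2 f) := isBigO_of_jet (smooth_D2 hf) fun i j hij => by
    rw [jet_D2]
    exact hj _ _ (by omega)
  have h3 : (fun q => _root_.fderiv ℝ f q) =O[𝓝 0] fun q => ‖D1 f q‖ + ‖D2 f q‖ := by
    refine IsBigO.of_bound 1 (Eventually.of_forall fun q => ?_)
    rw [one_mul, Real.norm_of_nonneg (by positivity)]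
    refine ContinuousLinearMap.opNorm_le_bound _ (by positivity) fun v => ?_
    rw [fderiv_eq]
    have hv0 : ‖v 0‖ ≤ ‖v‖ := PiLp.norm_apply_le v 0
    have hv1 : ‖v 1‖ ≤ ‖v‖ := PiLp.norm_apply_le v 1
    calc ‖v 0 • D1 f q + v 1 • D2 f q‖ ≤ ‖v 0‖ * ‖D1 f q‖ + ‖v 1‖ * ‖D2 f q‖ := by
          refine (norm_add_le _ _).trans ?_
          rw [norm_smul, norm_smul]
      _ ≤ ‖v‖ * ‖D1 f q‖ + ‖v‖ * ‖D2 f q‖ := by gcongr
      _ = _ := by ring
  exact h3.trans (IsBigO.add h1.norm_left h2.norm_left)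

/-- `Q (u) - Q (v)` for a smooth `Q = O(|q|^m)` -/
lemma OB.diff {m : ℕ} {Q : E2 → V} {u v : E2 → E2} (hQ : ContDiffAt ℝ ∞ Q 0) (h : OB m Q)
    (hm : 1 ≤ m) (hu : OB 1 u) (hv : OB 1 v) (huv : OB 2 fun q => u q - v q) :
    OB (m + 1) fun q => Q (u q) - Q (v q) := by
  obtain ⟨m, rfl⟩ : ∃ m', m = m' + 1 := ⟨m - 1, by omega⟩
  obtain ⟨C, hC⟩ := IsBigO.bound (OB.fderiv hQ h)
  have hd := (hQ.of_le (m := 1) (by norm_cast)).eventually (by simp)
  obtain ⟨r, hr, hb⟩ := Metric.eventually_nhds_iff_ball.1 (hC.and hd)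
  have t : ∀ {w : E2 → E2}, OB 1 w → ∀ᶠ q in 𝓝 0, w q ∈ ball (0 : E2) r := by
    intro w hw
    have h0 : Tendsto w (𝓝 0) (𝓝 0) := by
      refine IsBigO.trans_tendsto hw ?_
      have : Tendsto (fun q : E2 => ‖q‖ ^ 1) (𝓝 0) (𝓝 (‖(0 : E2)‖ ^ 1)) :=
        (continuous_norm.pow 1).tendsto 0
      simpa using this
    exact h0 (ball_mem_nhds 0 hr)
  have h1 : (fun q => Q (u q) - Q (v q)) =O[𝓝 0]
      fun q => (‖u q‖ + ‖v q‖) ^ m * ‖u q - v q‖ := by
    refine IsBigO.of_bound |C| ?_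
    filter_upwards [t hu, t hv] with q h1 h2
    have h4 : ∀ w ∈ segment ℝ (v q) (u q), ‖_root_.fderiv ℝ Q w‖ ≤ |C| * (‖u q‖ + ‖v q‖) ^ m := by
      intro w hw
      have hwb : w ∈ ball (0 : E2) r := (convex_ball 0 r).segment_subset h2 h1 hw
      have hwz : ‖w‖ ≤ ‖u q‖ + ‖v q‖ := by
        obtain ⟨s, t, hs, ht, hst, rfl⟩ := hw
        refine (norm_add_le _ _).trans ?_
        rw [norm_smul, norm_smul, Real.norm_of_nonneg hs, Real.norm_of_nonneg ht]
        have h5 : s * ‖v q‖ ≤ ‖v q‖ := mul_le_of_le_one_left (norm_nonneg _) (by linarith)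
        have h6 : t * ‖u q‖ ≤ ‖u q‖ := mul_le_of_le_one_left (norm_nonneg _) (by linarith)
        linarith
      refine ((hb w hwb).1).trans ?_
      rw [norm_pow, norm_norm]
      exact mul_le_mul (le_abs_self _) (pow_le_pow_left₀ (norm_nonneg _) hwz m) (by positivity)
        (abs_nonneg _)
    have h7 := (convex_segment (𝕜 := ℝ) (v q) (u q)).norm_image_sub_le_of_norm_fderiv_le
      (f := Q) (fun w hw => by
        have hwb : w ∈ ball (0 : E2) r := (convex_ball 0 r).segment_subset h2 h1 hw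
        exact ((hb w hwb).2.differentiableAt one_ne_zero)) h4
      (left_mem_segment _ _ _) (right_mem_segment _ _ _)
    refine h7.trans (le_of_eq ?_)
    rw [Real.norm_of_nonneg (by positivity)]
    ring
  refine h1.trans ?_
  have h2 : (fun q => ‖u q‖ + ‖v q‖) =O[𝓝 0] fun q : E2 => ‖q‖ ^ 1 :=
    IsBigO.add (IsBigO.norm_left hu) (IsBigO.norm_left hv)
  refine ((h2.pow m).mul (IsBigO.norm_left huv)).congr_right fun q => ?_
  rw [← pow_mul, ← pow_add]
  congr 1
  omega

/-- **Comparison of two graph transforms**: `P' (a (q, P q)) = b (q, P q)`, the same for `P̂`, and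
`Q = P̂ - P = O(|q|^m)`. -/
theorem gt_compare {a b : E2 × E2 → E2} {P P' Ph Ph' : E2 → E2} {y : E2} {m : ℕ} (hm : 1 ≤ m)
    {A B : E2 →L[ℝ] E2} {A' : E2 ≃L[ℝ] E2} (hA' : (A' : E2 →L[ℝ] E2) = A)
    (ha : ContDiffAt ℝ ∞ a (0, y)) (hb : ContDiffAt ℝ ∞ b (0, y)) (ha0 : a (0, y) = 0)
    (haq : ∀ v, fderiv ℝ a (0, y) (v, 0) = A v) (hap : ∀ v, fderiv ℝ a (0, y) (0, v) = 0)
    (hbp : ∀ v, fderiv ℝ b (0, y) (0, v) = B v)
    (hP : ContDiffAt ℝ ∞ P 0) (hPh : ContDiffAt ℝ ∞ Ph 0) (hP' : ContDiffAt ℝ ∞ P' 0)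
    (hP0 : P 0 = y) (hPh0 : Ph 0 = y)
    (h1 : ∀ᶠ q in 𝓝 0, P' (a (q, P q)) = b (q, P q))
    (h2 : ∀ᶠ q in 𝓝 0, Ph' (a (q, Ph q)) = b (q, Ph q))
    (hQ : OB m fun q => Ph q - P q) :
    OB (m + 1) fun q => Ph' q - P' q - B (Ph (A'.symm q) - P (A'.symm q)) := by
  -- the two curves in the plane times the plane
  set u : E2 → E2 × E2 := fun q => (q, Ph q) with hu
  set v : E2 → E2 × E2 := fun q => (q, P q) with hv
  have hus : ContDiffAt ℝ ∞ u 0 := contDiffAt_id.prodMk hPh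
  have hvs : ContDiffAt ℝ ∞ v 0 := contDiffAt_id.prodMk hP
  have hu0 : u 0 = (0, y) := by simp [hu, hPh0]
  have hv0 : v 0 = (0, y) := by simp [hv, hP0]
  have hu1 : OB 1 fun q => u q - (0, y) := OB.of_differentiableAt
    ((hus.differentiableAt (by simp)).sub_const _) (by rw [hu0, sub_self])
  have hv1 : OB 1 fun q => v q - (0, y) := OB.of_differentiableAt
    ((hvs.differentiableAt (by simp)).sub_const _) (by rw [hv0, sub_self])
  have huv : OB m fun q => u q - v q := by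
    have e : (fun q => u q - v q) = fun q => ((0 : E2), Ph q - P q) := by
      ext q <;> simp [hu, hv]
    rw [e]
    exact OB.clm_const hQ (ContinuousLinearMap.inr ℝ E2 E2)
  -- `F̂ - F`
  set Fh : E2 → E2 := fun q => a (u q) with hFh
  set F : E2 → E2 := fun q => a (v q) with hF
  have hFF : OB (m + 1) fun q => Fh q - F q := by
    have h3 := OB.C2 (ha.of_le (by norm_cast)) hu1 hv1 huv
    refine h3.congr (Eventually.of_forall fun q => ?_)
    have : u q - v q = (0, Ph q - P q) := by simp [hu, hv]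
    simp only [this, hap, sub_zero, hFh, hF]
  have hGG : OB (m + 1) fun q => b (u q) - b (v q) - B (Ph q - P q) := by
    have h3 := OB.C2 (hb.of_le (by norm_cast)) hu1 hv1 huv
    refine h3.congr (Eventually.of_forall fun q => ?_)
    have : u q - v q = (0, Ph q - P q) := by simp [hu, hv]
    simp only [this, hbp]
  have hFhs : ContDiffAt ℝ ∞ Fh 0 := ContDiffAt.comp (g := a) 0 (by rw [hu0]; exact ha) hus
  have hFs : ContDiffAt ℝ ∞ F 0 := ContDiffAt.comp (g := a) 0 (by rw [hv0]; exact ha) hvs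
  have hFh0 : Fh 0 = 0 := by simp only [hFh, hu0, ha0]
  have hF0 : F 0 = 0 := by simp only [hF, hv0, ha0]
  have hFhd : fderiv ℝ Fh 0 = A := by
    have h3 : HasFDerivAt Fh ((fderiv ℝ a (0, y)).comp (fderiv ℝ u 0)) 0 := by
      have h4 : HasFDerivAt a (fderiv ℝ a (0, y)) (u 0) := by
        rw [hu0]; exact (ha.differentiableAt (by simp)).hasFDerivAt
      exact h4.comp 0 (hus.differentiableAt (by simp)).hasFDerivAt
    rw [h3.fderiv]
    ext1 w
    have h5 : fderiv ℝ u 0 w = (w, fderiv ℝ Ph 0 w) := by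
      have h6 : HasFDerivAt u ((ContinuousLinearMap.id ℝ E2).prod (fderiv ℝ Ph 0)) 0 :=
        (hasFDerivAt_id _).prodMk (hPh.differentiableAt (by simp)).hasFDerivAt
      rw [h6.fderiv]
      rfl
    rw [ContinuousLinearMap.comp_apply, h5]
    have h7 : (w, fderiv ℝ Ph 0 w) = (w, (0 : E2)) + ((0 : E2), fderiv ℝ Ph 0 w) := by simp
    rw [h7, map_add, haq, hap, add_zero]
  have hstrict : HasStrictFDerivAt Fh (A' : E2 →L[ℝ] E2) 0 := by
    rw [hA', ← hFhd]
    exact hFhs.hasStrictFDerivAt (by simp)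
  refine OB.of_comp hstrict hFh0 ?_
  -- the three error terms
  have hT : Tendsto Fh (𝓝 0) (𝓝 0) := by
    have := hFhs.continuousAt.tendsto
    rwa [hFh0] at this
  have hT' : Tendsto F (𝓝 0) (𝓝 0) := by
    have := hFs.continuousAt.tendsto
    rwa [hF0] at this
  have e1 : OB (m + 1) fun q => P' (Fh q) - P' (F q) :=
    OB.lip (hP'.of_le (by norm_cast)) hT hT' hFF
  have hQs : ContDiffAt ℝ ∞ (fun q => Ph q - P q) 0 := hPh.sub hP
  have hFh1 : OB 1 Fh := OB.of_differentiableAt (hFhs.differentiableAt (by simp)) hFh0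
  have hAF : OB 1 fun q => A'.symm (Fh q) := hFh1.clm_const (A'.symm : E2 →L[ℝ] E2)
  have hAF2 : OB 2 fun q => A'.symm (Fh q) - q := by
    have h3 : OB 2 fun q => Fh q - A q := by
      have h4 := OB.C2 (E := E2) (m := 1) (g := Fh) (u := fun q => q) (v := fun _ => (0 : E2))
        (z := 0) (hFhs.of_le (by norm_cast))
        (by
          simp only [sub_zero]
          exact OB.of_differentiableAt differentiableAt_id rfl)
        (by
          simp only [sub_zero]
          exact OB.of_differentiableAt (differentiableAt_const _) rfl)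
        (by
          simp only [sub_zero]
          exact OB.of_differentiableAt differentiableAt_id rfl)
      refine h4.congr (Eventually.of_forall fun q => ?_)
      simp [hFh0, hFhd]
    have h5 := h3.clm_const (A'.symm : E2 →L[ℝ] E2)
    refine h5.congr (Eventually.of_forall fun q => ?_)
    have h6 : A q = A' q := by rw [← hA']; rfl
    simp [h6]
  have e2 : OB (m + 1) fun q => (Ph (A'.symm (Fh q)) - P (A'.symm (Fh q))) - (Ph q - P q) :=
    OB.diff hQs hQ hm hAF (OB.of_differentiableAt differentiableAt_id rfl) hAF2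
  have e3 := ((hGG.sub e1).sub (e2.clm_const B))
  refine e3.congr ?_
  filter_upwards [h1, h2] with q hq1 hq2
  have hq1' : P' (F q) = b (v q) := hq1
  have hq2' : Ph' (Fh q) = b (u q) := hq2
  simp only [map_sub, hq1', hq2']
  abel

end Jet

end Vale.Agent.P207.N3
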