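import Vale.Agent.P207.N3.H391.GT

/-!
# P207, line N3: second order comparison, logarithms of determinants
-/

open Set Filter Topology Metric MeasureTheory Asymptotics InnerProductSpace
open scoped ContDiff Gradient

noncomputable section

set_option linter.unusedSectionVars false

namespace Vale.Agent.P207.N3

namespace Jet

variable {V : Type*} [NormedAddCommGroup V] [NormedSpace ℝ V]

lemma OB.sub_tendsto {E V : Type*} [NormedAddCommGroup E] [NormedAddCommGroup V] {w : E → V} {z : V}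
    (hw : OB 1 fun q => w q - z) : Tendsto w (𝓝 0) (𝓝 z) := by
  have h0 : Tendsto (fun q => w q - z) (𝓝 0) (𝓝 0) := by
    refine IsBigO.trans_tendsto hw ?_
    have : Tendsto (fun q : E => ‖q‖ ^ 1) (𝓝 0) (𝓝 (‖(0 : E)‖ ^ 1)) :=
      (continuous_norm.pow 1).tendsto 0
    simpa using this
  have h1 := h0.add_const z
  simpa using h1

/-- second order comparison of a function which vanishes on `{q = 0}` -/
theorem ob_bilin {f : E2 × E2 → V} {y : E2} (hf : ContDiffAt ℝ ∞ f (0, y))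
    (hf0 : ∀ᶠ p in 𝓝 y, f (0, p) = 0) {m : ℕ} {P Ph : E2 → E2}
    (hP : OB 1 fun q => P q - y) (hPh : OB 1 fun q => Ph q - y) (hQ : OB m fun q => Ph q - P q) :
    OB (m + 2) fun q => f (q, Ph q) - f (q, P q)
      - fderiv ℝ (fun p => fderiv ℝ f (0, p) (q, 0)) y (Ph q - P q) := by
  set z0 : E2 × E2 := (0, y) with hz0
  set Λ : (E2 × E2 →L[ℝ] V) →L[ℝ] (E2 →L[ℝ] V) :=
    (ContinuousLinearMap.compL ℝ E2 (E2 × E2) V).flip (ContinuousLinearMap.inr ℝ E2 E2) with hΛ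
  set h : E2 × E2 → (E2 →L[ℝ] V) := fun z => Λ (fderiv ℝ f z) with hh
  have hΛa : ∀ (A : E2 × E2 →L[ℝ] V) w, Λ A w = A (0, w) := fun A w => rfl
  have hfd : ContDiffAt ℝ ∞ (fderiv ℝ f) z0 := hf.fderiv_right (m := ∞) (by norm_cast)
  have hhs : ContDiffAt ℝ ∞ h z0 := Λ.contDiff.contDiffAt.comp z0 hfd
  have hdf : DifferentiableAt ℝ (fderiv ℝ f) z0 := hfd.differentiableAt (by simp)
  have hfh : fderiv ℝ h z0 = Λ.comp (fderiv ℝ (fderiv ℝ f) z0) :=
    (Λ.hasFDerivAt.comp z0 hdf.hasFDerivAt).fderiv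
  -- `h (0, p) = 0`
  have h0 : ∀ᶠ p in 𝓝 y, h (0, p) = 0 := by
    have t : Tendsto (fun p : E2 => ((0 : E2), p)) (𝓝 y) (𝓝 z0) := by
      have : Continuous fun p : E2 => ((0 : E2), p) := by fun_prop
      exact this.tendsto y
    filter_upwards [hf0.eventually_nhds,
      t.eventually ((hf.of_le (m := 1) (by norm_cast)).eventually (by simp))] with p hp hpd
    ext w
    rw [hh, hΛa]
    have h1 : HasFDerivAt (fun p : E2 => f (0, p))
        ((fderiv ℝ f (0, p)).comp (ContinuousLinearMap.inr ℝ E2 E2)) p :=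
      HasFDerivAt.comp (g := f) p (hpd.differentiableAt (by simp)).hasFDerivAt
        (hasFDerivAt_prodMk_right 0 p)
    have h4 : HasFDerivAt (fun p : E2 => f (0, p)) (0 : E2 →L[ℝ] V) p :=
      (hasFDerivAt_const (0 : V) p).congr_of_eventuallyEq hp
    have h6 := congrArg (fun L : E2 →L[ℝ] V => L w) (h1.unique h4)
    simpa using h6
  have hz : h z0 = 0 := h0.self_of_nhds
  -- `Dh (0, w) = 0`
  have hD0 : ∀ w, fderiv ℝ h z0 (0, w) = 0 := by
    intro w
    have h1 : HasFDerivAt (fun p : E2 => h (0, p))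
        ((fderiv ℝ h z0).comp (ContinuousLinearMap.inr ℝ E2 E2)) y :=
      HasFDerivAt.comp (g := h) y (hhs.differentiableAt (by simp)).hasFDerivAt
        (hasFDerivAt_prodMk_right 0 y)
    have h4 : HasFDerivAt (fun p : E2 => h (0, p)) (0 : E2 →L[ℝ] (E2 →L[ℝ] V)) y :=
      (hasFDerivAt_const (0 : E2 →L[ℝ] V) y).congr_of_eventuallyEq h0
    have h6 := congrArg (fun L : E2 →L[ℝ] (E2 →L[ℝ] V) => L w) (h1.unique h4)
    simpa using h6
  -- symmetry
  have hsym : ∀ q w : E2, fderiv ℝ (fun p => fderiv ℝ f (0, p) (q, 0)) y w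
      = fderiv ℝ h z0 (q, 0) w := by
    intro q w
    rw [hfh]
    have e1 : (Λ.comp (fderiv ℝ (fderiv ℝ f) z0)) (q, 0) w
        = fderiv ℝ (fderiv ℝ f) z0 (q, 0) (0, w) := rfl
    rw [e1]
    have hs : IsSymmSndFDerivAt ℝ f z0 :=
      (hf.of_le (m := 2) (by norm_cast)).isSymmSndFDerivAt (by simp)
    rw [hs.eq (q, 0) (0, w)]
    have h1 : HasFDerivAt (fun p : E2 => fderiv ℝ f (0, p))
        ((fderiv ℝ (fderiv ℝ f) z0).comp (ContinuousLinearMap.inr ℝ E2 E2)) y :=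
      HasFDerivAt.comp (g := fderiv ℝ f) y hdf.hasFDerivAt (hasFDerivAt_prodMk_right 0 y)
    have h2 : HasFDerivAt (fun p : E2 => fderiv ℝ f (0, p) (q, 0))
        ((ContinuousLinearMap.apply ℝ V ((q, 0) : E2 × E2)).comp
          ((fderiv ℝ (fderiv ℝ f) z0).comp (ContinuousLinearMap.inr ℝ E2 E2))) y :=
      (ContinuousLinearMap.apply ℝ V ((q, 0) : E2 × E2)).hasFDerivAt.comp y h1
    rw [h2.fderiv]
    rfl
  simp only [hsym]
  -- the estimate
  obtain ⟨C, hC0, r, hr, hC⟩ := C2_est (hhs.of_le (m := 2) (by norm_cast))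
  have hfd' := (hf.of_le (m := 1) (by norm_cast)).eventually (by simp)
  obtain ⟨r', hr', hb⟩ := Metric.eventually_nhds_iff_ball.1 hfd'
  have hPt : Tendsto (fun q => (q, P q)) (𝓝 0) (𝓝 z0) := tendsto_id.prodMk_nhds hP.sub_tendsto
  have hPht : Tendsto (fun q => (q, Ph q)) (𝓝 0) (𝓝 z0) := tendsto_id.prodMk_nhds hPh.sub_tendsto
  set R := min r r' with hR
  have hRpos : 0 < R := lt_min hr hr'
  have h1 : (fun q => f (q, Ph q) - f (q, P q) - fderiv ℝ h z0 (q, 0) (Ph q - P q)) =O[𝓝 0]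
      fun q => (‖q‖ + ‖Ph q - y‖ + ‖P q - y‖) ^ 2 * ‖Ph q - P q‖ := by
    refine IsBigO.of_bound C ?_
    filter_upwards [hPt (ball_mem_nhds z0 hRpos), hPht (ball_mem_nhds z0 hRpos)] with q hq1 hq2
    have hq1' : (q, P q) ∈ ball z0 R := hq1
    have hq2' : (q, Ph q) ∈ ball z0 R := hq2
    set g : E2 → V := fun p => f (q, p) - fderiv ℝ h z0 (q, 0) p with hg
    have hseg : ∀ p ∈ segment ℝ (P q) (Ph q), (q, p) ∈ ball z0 R ∧
        ‖p - y‖ ≤ ‖Ph q - y‖ + ‖P q - y‖ := by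
      rintro p ⟨s, t, hs, ht, hst, rfl⟩
      constructor
      · have h3 : (q, s • P q + t • Ph q) ∈ segment ℝ (q, P q) (q, Ph q) := by
          refine ⟨s, t, hs, ht, hst, ?_⟩
          ext1
          · simp only [Prod.smul_mk, Prod.mk_add_mk]
            rw [← add_smul, hst, one_smul]
          · simp
        exact (convex_ball z0 R).segment_subset hq1' hq2' h3
      · have e : s • P q + t • Ph q - y = s • (P q - y) + t • (Ph q - y) := by
          rw [smul_sub, smul_sub]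
          have : y = s • y + t • y := by rw [← add_smul, hst, one_smul]
          nth_rewrite 1 [this]
          abel
        rw [e]
        refine (norm_add_le _ _).trans ?_
        rw [norm_smul, norm_smul, Real.norm_of_nonneg hs, Real.norm_of_nonneg ht]
        have h5 : s * ‖P q - y‖ ≤ ‖P q - y‖ := mul_le_of_le_one_left (norm_nonneg _) (by linarith)
        have h6 : t * ‖Ph q - y‖ ≤ ‖Ph q - y‖ := mul_le_of_le_one_left (norm_nonneg _) (by linarith)
        linarith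
    have hdg : ∀ p, (q, p) ∈ ball z0 R → HasFDerivAt g (h (q, p) - fderiv ℝ h z0 (q, 0)) p := by
      intro p hp
      have hp' : ContDiffAt ℝ 1 f (q, p) := hb _ (ball_subset_ball (min_le_right _ _) hp)
      have h3 : HasFDerivAt (fun p : E2 => f (q, p))
          ((fderiv ℝ f (q, p)).comp (ContinuousLinearMap.inr ℝ E2 E2)) p :=
        HasFDerivAt.comp (g := f) p (hp'.differentiableAt (by simp)).hasFDerivAt
          (hasFDerivAt_prodMk_right q p)
      exact h3.sub (fderiv ℝ h z0 (q, 0)).hasFDerivAt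
    have hbd : ∀ p ∈ segment ℝ (P q) (Ph q), ‖h (q, p) - fderiv ℝ h z0 (q, 0)‖
        ≤ C * (‖q‖ + ‖Ph q - y‖ + ‖P q - y‖) ^ 2 := by
      intro p hp
      obtain ⟨hp1, hp2⟩ := hseg p hp
      have h3 := hC (q, p) (ball_subset_ball (min_le_left _ _) hp1) z0 (mem_ball_self hr)
      rw [hz, sub_zero, sub_self, norm_zero, add_zero] at h3
      have e1 : (q, p) - z0 = (q, (0 : E2)) + ((0 : E2), p - y) := by
        simp [hz0]
      have e2 : fderiv ℝ h z0 ((q, p) - z0) = fderiv ℝ h z0 (q, 0) := by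
        rw [e1, map_add, hD0, add_zero]
      rw [e2] at h3
      have h4 : ‖(q, p) - z0‖ ≤ ‖q‖ + ‖Ph q - y‖ + ‖P q - y‖ := by
        rw [e1]
        refine (norm_add_le _ _).trans ?_
        have t1 : ‖(q, (0 : E2))‖ = ‖q‖ := by simp [Prod.norm_def]
        have t2 : ‖((0 : E2), p - y)‖ = ‖p - y‖ := by simp [Prod.norm_def]
        rw [t1, t2]
        linarith
      refine h3.trans ?_
      rw [mul_assoc, sq]
      gcongr
    have h7 := (convex_segment (𝕜 := ℝ) (P q) (Ph q)).norm_image_sub_le_of_norm_hasFDerivWithin_le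
      (f := g) (fun w hw => (hdg w (hseg w hw).1).hasFDerivWithinAt) hbd
      (left_mem_segment _ _ _) (right_mem_segment _ _ _)
    have e3 : f (q, Ph q) - f (q, P q) - fderiv ℝ h z0 (q, 0) (Ph q - P q) = g (Ph q) - g (P q) := by
      simp only [hg, map_sub]; abel
    rw [e3]
    refine h7.trans (le_of_eq ?_)
    rw [Real.norm_of_nonneg (by positivity)]
    ring
  refine h1.trans ?_
  have h2 : (fun q => ‖q‖ + ‖Ph q - y‖ + ‖P q - y‖) =O[𝓝 0] fun q : E2 => ‖q‖ ^ 1 := by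
    refine (IsBigO.add ?_ hPh.norm_left).add hP.norm_left
    simpa using isBigO_refl (fun q : E2 => ‖q‖) (𝓝 0)
  refine ((h2.pow 2).mul hQ.norm_left).congr_right fun q => ?_
  rw [← pow_mul, ← pow_add]
  congr 1
  omega

/-! ### determinants -/

theorem det_E2 (A : E2 →L[ℝ] E2) : A.det = (A e1) 0 * (A e2) 1 - (A e2) 0 * (A e1) 1 := by
  have h1 : A.det = LinearMap.det (A : E2 →ₗ[ℝ] E2) := rfl
  rw [h1, ← LinearMap.det_toMatrix (EuclideanSpace.basisFun (Fin 2) ℝ).toBasis,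
    Matrix.det_fin_two]
  simp [LinearMap.toMatrix_apply, e1, e2]

theorem hasFDerivAt_ev (v : E2) (i : Fin 2) (A : E2 →L[ℝ] E2) :
    HasFDerivAt (fun A : E2 →L[ℝ] E2 => (A v) i)
      ((EuclideanSpace.proj i : E2 →L[ℝ] ℝ).comp (ContinuousLinearMap.apply ℝ E2 v)) A :=
  ((EuclideanSpace.proj i : E2 →L[ℝ] ℝ).comp (ContinuousLinearMap.apply ℝ E2 v)).hasFDerivAt

theorem det_smooth : ContDiff ℝ ∞ (fun A : E2 →L[ℝ] E2 => A.det) := by
  have h1 : (fun A : E2 →L[ℝ] E2 => A.det) = fun A => (A e1) 0 * (A e2) 1 - (A e2) 0 * (A e1) 1 :=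
    funext det_E2
  rw [h1]
  have h2 : ∀ (v : E2) (j : Fin 2), ContDiff ℝ ∞ (fun A : E2 →L[ℝ] E2 => (A v) j) := fun v j =>
    ((EuclideanSpace.proj j : E2 →L[ℝ] ℝ).comp (ContinuousLinearMap.apply ℝ E2 v)).contDiff
  exact ((h2 e1 0).mul (h2 e2 1)).sub ((h2 e2 0).mul (h2 e1 1))

theorem fderiv_det (A W : E2 →L[ℝ] E2) : fderiv ℝ (fun A : E2 →L[ℝ] E2 => A.det) A W
    = (A e1) 0 * (W e2) 1 + (A e2) 1 * (W e1) 0 - ((A e2) 0 * (W e1) 1 + (A e1) 1 * (W e2) 0) := by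
  have h1 : (fun A : E2 →L[ℝ] E2 => A.det) = fun A => (A e1) 0 * (A e2) 1 - (A e2) 0 * (A e1) 1 :=
    funext det_E2
  rw [h1]
  have h := ((hasFDerivAt_ev e1 0 A).mul (hasFDerivAt_ev e2 1 A)).sub
    ((hasFDerivAt_ev e2 0 A).mul (hasFDerivAt_ev e1 1 A))
  have h' : fderiv ℝ (fun A : E2 →L[ℝ] E2 => (A e1) 0 * (A e2) 1 - (A e2) 0 * (A e1) 1) A = _ :=
    h.fderiv
  rw [h']
  rfl

/-- `log |det · d|` -/
def lgd (d : ℝ) (W : E2 →L[ℝ] E2) : ℝ := Real.log |W.det * d|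

theorem lgd_eq (d : ℝ) : lgd d = fun W : E2 →L[ℝ] E2 => Real.log (W.det * d) := by
  ext W
  unfold lgd
  rw [Real.log_abs]

theorem lgd_smooth {d : ℝ} {A : E2 →L[ℝ] E2} (h : A.det * d ≠ 0) :
    ContDiffAt ℝ ∞ (lgd d) A := by
  rw [lgd_eq]
  exact ContDiffAt.log (det_smooth.contDiffAt.mul contDiffAt_const) h

theorem fderiv_lgd {d : ℝ} {A : E2 →L[ℝ] E2} (h : A.det * d ≠ 0) (W : E2 →L[ℝ] E2) :
    fderiv ℝ (lgd d) A W = ((A e1) 0 * (W e2) 1 + (A e2) 1 * (W e1) 0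
      - ((A e2) 0 * (W e1) 1 + (A e1) 1 * (W e2) 0)) / A.det := by
  have hd : d ≠ 0 := right_ne_zero_of_mul h
  have hA : A.det ≠ 0 := left_ne_zero_of_mul h
  rw [lgd_eq, ← fderiv_det]
  have h1 : HasFDerivAt (fun A : E2 →L[ℝ] E2 => A.det)
      (fderiv ℝ (fun A : E2 →L[ℝ] E2 => A.det) A) A :=
    (det_smooth.differentiable (by simp) A).hasFDerivAt
  have h2 := (h1.mul_const d).log h
  have h3 : fderiv ℝ (fun W : E2 →L[ℝ] E2 => Real.log (W.det * d)) A = _ := h2.fderiv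
  rw [h3]
  change (A.det * d)⁻¹ * (d * fderiv ℝ (fun A : E2 →L[ℝ] E2 => A.det) A W) = _
  field_simp

end Jet

end Vale.Agent.P207.N3
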