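import Vale.Agent.P207.N3.H391.JAct

/-!
# P207, line N3: the action of `φ` on the jets of the leaves, part 2: sums, truncation, parameters
-/

open Set Filter Topology Metric MeasureTheory Asymptotics InnerProductSpace
open scoped ContDiff Gradient RealInnerProductSpace

noncomputable section

set_option linter.unusedSectionVars false

namespace Vale.Agent.P207.N3

namespace Jet

/-! ### sums -/

lemma OB.sum {ι E V : Type*} [NormedAddCommGroup E] [NormedAddCommGroup V] {m : ℕ} {s : Finset ι}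
    {f : ι → E → V} (h : ∀ b ∈ s, OB m (f b)) : OB m fun q => ∑ b ∈ s, f b q := by
  have h1 : (∑ i ∈ s, f i) =O[𝓝 0] fun q => ‖q‖ ^ m := IsBigO.sum h
  have e : (fun q => ∑ b ∈ s, f b q) = ∑ i ∈ s, f i := by
    ext q
    simp
  unfold OB
  rw [e]
  exact h1

lemma OB.const_mul {E : Type*} [NormedAddCommGroup E] {m : ℕ} {f : E → ℝ} (h : OB m f) (c : ℝ) :
    OB m fun q => c * f q :=
  IsBigO.const_mul_left h c

lemma tay_sum {ι : Type*} (s : Finset ι) (K : ℕ) (c : ι → ℝ) (d : ι → ℕ → ℕ → ℝ) (q : E2) :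
    tay K (fun i j => ∑ b ∈ s, c b * d b i j) q = ∑ b ∈ s, c b * tay K (d b) q := by
  classical
  induction s using Finset.induction_on with
  | empty => simp [tay]
  | insert b s hb ih =>
    simp only [Finset.sum_insert hb]
    have h1 := tay_add K (fun i j => c b * d b i j) (fun i j => ∑ b ∈ s, c b * d b i j) q
    rw [h1, ih]
    have h2 := tay_smul K (c b) (d b) q
    simp only [smul_eq_mul] at h2
    rw [h2]

lemma jet_sum {ι : Type*} (s : Finset ι) (c : ι → ℝ) (f : ι → E2 → ℝ)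
    (hf : ∀ b ∈ s, ContDiffAt ℝ ∞ (f b) 0) (i j : ℕ) :
    jet (fun q => ∑ b ∈ s, c b * f b q) i j = ∑ b ∈ s, c b * jet (f b) i j := by
  have h1 : ContDiffAt ℝ ∞ (fun q => ∑ b ∈ s, c b * f b q) 0 :=
    ContDiffAt.sum fun b hb => contDiffAt_const.mul (hf b hb)
  have h2 := jet_eq (K := i + j + 1) h1
    (tay_smooth (i + j + 1) (fun i j => ∑ b ∈ s, c b * jet (f b) i j)).contDiffAt (by
      have h3 : OB (i + j + 1) fun q => ∑ b ∈ s, c b * (f b q - tay (i + j + 1) (jet (f b)) q) := by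
        refine OB.sum fun b hb => ?_
        exact OB.const_mul (taylor (hf b hb) (i + j + 1)) _
      refine h3.congr (Eventually.of_forall fun q => ?_)
      simp only [mul_sub, Finset.sum_sub_distrib]
      rw [tay_sum]) i j (by omega)
  rw [h2, jet_tay _ _ _ _ (by omega)]

lemma jet_add {f g : E2 → ℝ} (hf : ContDiffAt ℝ ∞ f 0) (hg : ContDiffAt ℝ ∞ g 0) (i j : ℕ) :
    jet (fun q => f q + g q) i j = jet f i j + jet g i j := by
  have h := jet_sum (Finset.univ : Finset (Fin 2)) (fun _ => (1 : ℝ)) ![f, g] (by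
    intro b _
    fin_cases b
    · exact hf
    · exact hg) i j
  simpa using h

lemma jet_sub {f g : E2 → ℝ} (hf : ContDiffAt ℝ ∞ f 0) (hg : ContDiffAt ℝ ∞ g 0) (i j : ℕ) :
    jet (fun q => f q - g q) i j = jet f i j - jet g i j := by
  have h := jet_sum (Finset.univ : Finset (Fin 2)) ![(1 : ℝ), -1] ![f, g] (by
    intro b _
    fin_cases b
    · exact hf
    · exact hg) i j
  simpa [sub_eq_add_neg] using h

lemma jet_const_mul {f : E2 → ℝ} (hf : ContDiffAt ℝ ∞ f 0) (c : ℝ) (i j : ℕ) :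
    jet (fun q => c * f q) i j = c * jet f i j := by
  have h := jet_sum (Finset.univ : Finset (Fin 1)) (fun _ => c) (fun _ => f) (by
    intro b _
    exact hf) i j
  simpa using h

lemma gj_add {P Q : E2 → E2} (hP : ContDiffAt ℝ ∞ P 0) (hQ : ContDiffAt ℝ ∞ Q 0) (a : ℕ × ℕ) :
    gj (fun q => P q + Q q) a = gj P a + gj Q a := by
  rw [smooth_iff] at hP hQ
  unfold gj
  split_ifs
  · exact jet_add hP.1 hQ.1 _ _
  · exact jet_add hP.2 hQ.2 _ _

lemma tay_eq_sum (K : ℕ) (c : ℕ → ℕ → ℝ) (q : E2) :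
    tay K c q = ∑ b ∈ (Finset.range K ×ˢ Finset.range K).filter (fun b => b.1 + b.2 < K),
      mono b.1 b.2 q * c b.1 b.2 := by
  unfold tay
  rw [Finset.sum_filter, Finset.sum_product]
  refine Finset.sum_congr rfl fun i hi => ?_
  rw [Finset.mem_range] at hi
  rw [← Finset.sum_filter]
  have h : (Finset.range K).filter (fun j => i + j < K) = Finset.range (K - i) := by
    ext j
    simp only [Finset.mem_filter, Finset.mem_range]
    omega
  rw [h]
  rfl

lemma Sf_eq_sum {K : ℕ} (u : Ix K → ℝ) (q : E2) :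
    Sf u q = ∑ b : Ix K, u b * mono b.1.1 b.1.2 q := by
  unfold Sf
  rw [tay_eq_sum]
  have h1 : ∑ b : Ix K, u b * mono b.1.1 b.1.2 q
      = ∑ b : Ix K, (fun b : ℕ × ℕ => mono b.1 b.2 q * cf u b.1 b.2) b.1 := by
    refine Finset.sum_congr rfl fun b _ => ?_
    simp only [cf_of_mem, mul_comm]
  rw [h1, Finset.sum_coe_sort (idx K) (fun b : ℕ × ℕ => mono b.1 b.2 q * cf u b.1 b.2)]
  symm
  refine Finset.sum_subset ?_ ?_
  · intro b hb
    rw [mem_idx] at hb
    simp only [Finset.mem_filter, Finset.mem_product, Finset.mem_range]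
    omega
  · intro b hb hb'
    simp only [Finset.mem_filter, Finset.mem_product, Finset.mem_range] at hb
    rw [mem_idx] at hb'
    have : b = (0, 0) := by
      ext <;> simp only <;> omega
    rw [this]
    simp only [cf_zero, mul_zero]

lemma mono_comp_smooth (i j : ℕ) {L : E2 → E2} (hL : ContDiffAt ℝ ∞ L 0) :
    ContDiffAt ℝ ∞ (fun q => mono i j (L q)) 0 :=
  ContDiffAt.comp (g := mono i j) 0 (mono_smooth i j).contDiffAt hL

lemma jet_Sf_comp {K : ℕ} (u : Ix K → ℝ) {L : E2 → E2} (hL : ContDiffAt ℝ ∞ L 0) (i j : ℕ) :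
    jet (fun q => Sf u (L q)) i j = ∑ b : Ix K, u b * jet (fun q => mono b.1.1 b.1.2 (L q)) i j := by
  simp only [Sf_eq_sum]
  exact jet_sum _ _ _ (fun b _ => mono_comp_smooth _ _ hL) i j

lemma OB_mono (i j : ℕ) : OB (i + j) (mono i j) := by
  refine IsBigO.of_bound 1 (Eventually.of_forall fun q => ?_)
  unfold mono
  have h0 : ∀ k : Fin 2, |q k| ≤ ‖q‖ := fun k => by
    have := EuclideanSpace.norm_eq q
    have h1 : (q k) ^ 2 ≤ ‖q‖ ^ 2 := by
      rw [EuclideanSpace.norm_sq_eq]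
      have := Finset.single_le_sum (f := fun i => ‖q i‖ ^ 2) (fun i _ => sq_nonneg _)
        (Finset.mem_univ k)
      simpa using this
    exact abs_le_of_sq_le_sq h1 (norm_nonneg _)
  rw [norm_div, one_mul, norm_mul, norm_pow, norm_pow, norm_pow, norm_norm, pow_add]
  have h1 : (1 : ℝ) ≤ ‖((i.factorial : ℝ) * j.factorial)‖ := by
    rw [Real.norm_of_nonneg (by positivity)]
    have h2 : (1 : ℝ) ≤ i.factorial := by exact_mod_cast Nat.one_le_iff_ne_zero.2 (Nat.factorial_ne_zero i)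
    have h3 : (1 : ℝ) ≤ j.factorial := by exact_mod_cast Nat.one_le_iff_ne_zero.2 (Nat.factorial_ne_zero j)
    nlinarith
  refine (div_le_self (by positivity) h1).trans ?_
  exact mul_le_mul (pow_le_pow_left₀ (norm_nonneg _) (h0 0) _)
    (pow_le_pow_left₀ (norm_nonneg _) (h0 1) _) (by positivity) (by positivity)

lemma jet_mono_comp_zero {b : ℕ × ℕ} {L : E2 → E2} (hL : ContDiffAt ℝ ∞ L 0) (hL0 : L 0 = 0)
    {i j : ℕ} (h : i + j < b.1 + b.2) : jet (fun q => mono b.1 b.2 (L q)) i j = 0 := by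
  have h1 : OB (b.1 + b.2) fun q => mono b.1 b.2 (L q) :=
    OB.comp (OB_mono b.1 b.2) (OB.of_differentiableAt (hL.differentiableAt (by simp)) hL0)
  exact jet_eq_zero (mono_comp_smooth _ _ hL) h1 i j h

/-! ### truncation -/

/-- the order of a multi-index -/
def Ix.ord {K : ℕ} (a : Ix K) : ℕ := a.1.1 + a.1.2

lemma Ix.one_le {K : ℕ} (a : Ix K) : 1 ≤ a.ord := (mem_idx.1 a.2).1
lemma Ix.le {K : ℕ} (a : Ix K) : a.ord ≤ K := (mem_idx.1 a.2).2

/-- the jets of order `< m` -/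
def low {K : ℕ} (m : ℕ) (u : Ix K → ℝ) : Ix K → ℝ := fun b => if b.ord < m then u b else 0

lemma low_zero {K : ℕ} (m : ℕ) : low m (0 : Ix K → ℝ) = 0 := by
  ext b
  simp [low]

lemma low_smooth {K : ℕ} (m : ℕ) : ContDiff ℝ ∞ (low (K := K) m) := by
  rw [contDiff_pi]
  intro b
  unfold low
  by_cases h : b.ord < m
  · simp only [h, if_true]
    exact contDiff_apply ℝ ℝ b
  · simp only [h, if_false]
    exact contDiff_const

lemma low_tendsto {K : ℕ} (m : ℕ) : Tendsto (low (K := K) m) (𝓝 0) (𝓝 0) := by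
  have := (low_smooth (K := K) m).continuous.tendsto 0
  rwa [low_zero] at this

lemma lab_low {K : ℕ} {m : ℕ} (hm : 2 ≤ m) (u : Ix K → ℝ) : lab (low m u) = lab u := by
  have h : ∀ i j, i + j = 1 → cf (low m u) i j = cf u i j := by
    intro i j hij
    unfold cf low Ix.ord
    split_ifs with h1 h2
    · rfl
    · exact absurd (by simp only; omega) h2
    · rfl
  unfold lab
  rw [h 1 0 rfl, h 0 1 rfl]

lemma Sf_sub {K : ℕ} (u v : Ix K → ℝ) (q : E2) : Sf u q - Sf v q = Sf (u - v) q := by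
  simp only [Sf_eq_sum, ← Finset.sum_sub_distrib, ← sub_mul]
  rfl

lemma OB_Sf_low {K : ℕ} (m : ℕ) (u : Ix K → ℝ) : OB m fun q => Sf u q - Sf (low m u) q := by
  have e : (fun q => Sf u q - Sf (low m u) q)
      = fun q => ∑ b : Ix K, (u - low m u) b * mono b.1.1 b.1.2 q := by
    ext q
    rw [Sf_sub, Sf_eq_sum]
  rw [e]
  refine OB.sum fun b _ => ?_
  by_cases h : b.ord < m
  · have h1 : (u - low m u) b = 0 := by simp [low, h]
    simp only [h1, zero_mul]
    exact isBigO_zero _ _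
  · exact OB.const_mul ((OB_mono b.1.1 b.1.2).of_le (not_lt.1 h)) _

/-! ### derivative in the direction of the parameter -/

variable {V : Type*} [NormedAddCommGroup V] [NormedSpace ℝ V]
variable {Z : Type*} [NormedAddCommGroup Z] [NormedSpace ℝ Z]

/-- directional derivative -/
def Pd {E : Type*} [NormedAddCommGroup E] [NormedSpace ℝ E] (d : E) (F : E → V) : E → V :=
  fun w => fderiv ℝ F w d

lemma Pd_smooth {E : Type*} [NormedAddCommGroup E] [NormedSpace ℝ E] {d : E} {F : E → V} {w : E}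
    (h : ContDiffAt ℝ ∞ F w) : ContDiffAt ℝ ∞ (Pd d F) w :=
  (h.fderiv_right (m := ∞) (by norm_cast)).clm_apply contDiffAt_const

lemma Pd_congr {E : Type*} [NormedAddCommGroup E] [NormedSpace ℝ E] {d : E} {F G : E → V} {w : E}
    (h : F =ᶠ[𝓝 w] G) : Pd d F =ᶠ[𝓝 w] Pd d G := by
  filter_upwards [h.fderiv (𝕜 := ℝ)] with x hx
  simp only [Pd, hx]

lemma Pd_comm {E : Type*} [NormedAddCommGroup E] [NormedSpace ℝ E] {d d' : E} {F : E → V} {w : E}
    (h : ContDiffAt ℝ ∞ F w) : Pd d (Pd d' F) =ᶠ[𝓝 w] Pd d' (Pd d F) := by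
  have h2 : ContDiffAt ℝ 2 F w := h.of_le (by norm_cast)
  filter_upwards [h2.eventually (by simp)] with x hx
  have hs : IsSymmSndFDerivAt ℝ F x := hx.isSymmSndFDerivAt (by simp)
  have hd : DifferentiableAt ℝ (fderiv ℝ F) x :=
    (hx.fderiv_right (m := 1) (by norm_cast)).differentiableAt (by simp)
  have e : ∀ v w : E, fderiv ℝ (fun y => fderiv ℝ F y w) x v = fderiv ℝ (fderiv ℝ F) x v w := by
    intro v w
    rw [fderiv_clm_apply hd (differentiableAt_const _)]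
    simp
  change fderiv ℝ (fun y => fderiv ℝ F y d') x d = fderiv ℝ (fun y => fderiv ℝ F y d) x d'
  rw [e, e]
  exact hs _ _

lemma P1_eq {F : Z × E2 → V} {w : Z × E2} (h : DifferentiableAt ℝ F w) :
    P1 F w = Pd ((0 : Z), e1) F w := by
  unfold P1 D1 Pd
  have h1 : HasFDerivAt (fun q => F (w.1, q))
      ((fderiv ℝ F w).comp (ContinuousLinearMap.inr ℝ Z E2)) w.2 :=
    HasFDerivAt.comp (g := F) w.2 h.hasFDerivAt (hasFDerivAt_prodMk_right w.1 w.2)
  rw [h1.fderiv]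
  rfl

lemma P2_eq {F : Z × E2 → V} {w : Z × E2} (h : DifferentiableAt ℝ F w) :
    P2 F w = Pd ((0 : Z), e2) F w := by
  unfold P2 D2 Pd
  have h1 : HasFDerivAt (fun q => F (w.1, q))
      ((fderiv ℝ F w).comp (ContinuousLinearMap.inr ℝ Z E2)) w.2 :=
    HasFDerivAt.comp (g := F) w.2 h.hasFDerivAt (hasFDerivAt_prodMk_right w.1 w.2)
  rw [h1.fderiv]
  rfl

lemma P1_ev {F : Z × E2 → V} {w : Z × E2} (h : ContDiffAt ℝ ∞ F w) :
    P1 F =ᶠ[𝓝 w] Pd ((0 : Z), e1) F := by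
  filter_upwards [(h.of_le (m := 1) (by norm_cast)).eventually (by simp)] with x hx
  exact P1_eq (hx.differentiableAt (by simp))

lemma P2_ev {F : Z × E2 → V} {w : Z × E2} (h : ContDiffAt ℝ ∞ F w) :
    P2 F =ᶠ[𝓝 w] Pd ((0 : Z), e2) F := by
  filter_upwards [(h.of_le (m := 1) (by norm_cast)).eventually (by simp)] with x hx
  exact P2_eq (hx.differentiableAt (by simp))

lemma P1_Pd {F : Z × E2 → V} {w : Z × E2} (d : Z × E2) (h : ContDiffAt ℝ ∞ F w) :
    P1 (Pd d F) =ᶠ[𝓝 w] Pd d (P1 F) :=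
  (P1_ev (Pd_smooth h)).trans ((Pd_comm h).trans (Pd_congr (P1_ev h).symm))

lemma P2_Pd {F : Z × E2 → V} {w : Z × E2} (d : Z × E2) (h : ContDiffAt ℝ ∞ F w) :
    P2 (Pd d F) =ᶠ[𝓝 w] Pd d (P2 F) :=
  (P2_ev (Pd_smooth h)).trans ((Pd_comm h).trans (Pd_congr (P2_ev h).symm))

lemma P1_congr {F G : Z × E2 → V} {w : Z × E2} (hF : ContDiffAt ℝ ∞ F w)
    (h : F =ᶠ[𝓝 w] G) : P1 F =ᶠ[𝓝 w] P1 G :=
  (P1_ev hF).trans ((Pd_congr h).trans (P1_ev (hF.congr_of_eventuallyEq h.symm)).symm)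

lemma P2_congr {F G : Z × E2 → V} {w : Z × E2} (hF : ContDiffAt ℝ ∞ F w)
    (h : F =ᶠ[𝓝 w] G) : P2 F =ᶠ[𝓝 w] P2 G :=
  (P2_ev hF).trans ((Pd_congr h).trans (P2_ev (hF.congr_of_eventuallyEq h.symm)).symm)

lemma P1i_Pd {F : Z × E2 → V} {w : Z × E2} (d : Z × E2) (h : ContDiffAt ℝ ∞ F w) (i : ℕ) :
    P1^[i] (Pd d F) =ᶠ[𝓝 w] Pd d (P1^[i] F) := by
  induction i with
  | zero => exact EventuallyEq.rfl
  | succ i ih =>
    rw [Function.iterate_succ_apply', Function.iterate_succ_apply']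
    exact (P1_congr (smooth_P1i (Pd_smooth h) i) ih).trans (P1_Pd d (smooth_P1i h i))

lemma P2i_Pd {F : Z × E2 → V} {w : Z × E2} (d : Z × E2) (h : ContDiffAt ℝ ∞ F w) (i : ℕ) :
    P2^[i] (Pd d F) =ᶠ[𝓝 w] Pd d (P2^[i] F) := by
  induction i with
  | zero => exact EventuallyEq.rfl
  | succ i ih =>
    rw [Function.iterate_succ_apply', Function.iterate_succ_apply']
    exact (P2_congr (smooth_P2i (Pd_smooth h) i) ih).trans (P2_Pd d (smooth_P2i h i))

lemma P1i_congr {F G : Z × E2 → V} {w : Z × E2} (hF : ContDiffAt ℝ ∞ F w)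
    (h : F =ᶠ[𝓝 w] G) (i : ℕ) : P1^[i] F =ᶠ[𝓝 w] P1^[i] G := by
  induction i with
  | zero => exact h
  | succ i ih =>
    rw [Function.iterate_succ_apply', Function.iterate_succ_apply']
    exact P1_congr (smooth_P1i hF i) ih

/-- the jets commute with the derivative in the direction of the parameter -/
theorem fderiv_jet {F : Z × E2 → V} {z : Z} (h : ContDiffAt ℝ ∞ F (z, 0)) (v : Z) (i j : ℕ) :
    fderiv ℝ (fun z => jet (fun q => F (z, q)) i j) z v
      = jet (fun q => fderiv ℝ F (z, q) (v, 0)) i j := by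
  have h1 : (fun z => jet (fun q => F (z, q)) i j) = fun z => (P1^[i] (P2^[j] F)) (z, (0 : E2)) := by
    ext z
    rw [P_apply]
    rfl
  have h2 : ContDiffAt ℝ ∞ (P1^[i] (P2^[j] F)) (z, (0 : E2)) := smooth_P1i (smooth_P2i h j) i
  have h3 : HasFDerivAt (fun z => (P1^[i] (P2^[j] F)) (z, (0 : E2)))
      ((fderiv ℝ (P1^[i] (P2^[j] F)) (z, 0)).comp (ContinuousLinearMap.inl ℝ Z E2)) z :=
    HasFDerivAt.comp (g := P1^[i] (P2^[j] F)) z (h2.differentiableAt (by simp)).hasFDerivAt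
      (hasFDerivAt_prodMk_left z 0)
  rw [h1, h3.fderiv]
  have h4 : jet (fun q => fderiv ℝ F (z, q) (v, 0)) i j
      = (P1^[i] (P2^[j] (Pd (v, (0 : E2)) F))) (z, (0 : E2)) := by
    rw [P_apply]
    rfl
  rw [h4]
  have h5 : P1^[i] (P2^[j] (Pd (v, (0 : E2)) F)) =ᶠ[𝓝 (z, (0 : E2))]
      Pd (v, (0 : E2)) (P1^[i] (P2^[j] F)) :=
    (P1i_congr (smooth_P2i (Pd_smooth h) j) (P2i_Pd _ h j) i).trans (P1i_Pd _ (smooth_P2i h j) i)
  rw [h5.self_of_nhds]
  rfl

end Jet

end Vale.Agent.P207.N3
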