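import Vale.Agent.P207.N3.H391.JAct2

/-!
# P207, line N3: the action of `φ` on the jets of the leaves, part 3: the theorem
-/

open Set Filter Topology Metric MeasureTheory Asymptotics InnerProductSpace
open scoped ContDiff Gradient RealInnerProductSpace

noncomputable section

set_option linter.unusedSectionVars false

namespace Vale.Agent.P207.N3

open Jet

namespace Half

variable (H : Half)

/-- comparison of two graph transforms over the point `y` -/
lemma compare {y : E2} (hy : y ∈ ball (0 : E2) H.r) {m : ℕ} (hm : 1 ≤ m) {P P' Ph Ph' : E2 → E2}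
    (hP : ContDiffAt ℝ ∞ P 0) (hPh : ContDiffAt ℝ ∞ Ph 0) (hP' : ContDiffAt ℝ ∞ P' 0)
    (hP0 : P 0 = y) (hPh0 : Ph 0 = y)
    (h1 : ∀ᶠ q in 𝓝 0, P' (H.a (q, P q)) = H.b (q, P q))
    (h2 : ∀ᶠ q in 𝓝 0, Ph' (H.a (q, Ph q)) = H.b (q, Ph q))
    (hQ : OB m fun q => Ph q - P q) :
    OB (m + 1) fun q => Ph' q - P' q - fderiv ℝ H.M y (Ph (H.Mt y q) - P (H.Mt y q)) := by
  obtain ⟨A, hA, hA'⟩ := H.exists_A hy
  have h := gt_compare hm (A' := A) rfl (H.a_at (H.mem0 hy)) (H.b_at (H.mem0 hy))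
    (H.a_zero y hy) hA (H.a_p hy) (H.b_p hy) hP hPh hP' hP0 hPh0 h1 h2 hQ
  simpa only [hA'] using h

lemma memq {q : E2} (hq : q ∈ ball (0 : E2) H.r) :
    (q, (0 : E2)) ∈ ball (0 : E2) H.r ×ˢ ball (0 : E2) H.r := ⟨hq, mem_ball_self H.r_pos⟩

lemma N_smooth {q : E2} (hq : q ∈ ball (0 : E2) H.r) : ContDiffAt ℝ ∞ H.N q := by
  have h1 : ContDiffAt ℝ ∞ (fun q : E2 => H.a (q, 0)) q :=
    ContDiffAt.comp (g := H.a) q (H.a_at (H.memq hq))
      (contDiffAt_id.prodMk contDiffAt_const)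
  refine h1.congr_of_eventuallyEq ?_
  filter_upwards [isOpen_ball.mem_nhds hq] with p hp
  exact (H.a_axis p hp).symm

lemma N_zero : H.N 0 = 0 := by
  rw [← H.a_axis 0 (mem_ball_self H.r_pos), H.a_zero 0 (mem_ball_self H.r_pos)]

lemma a_q {q : E2} (hq : q ∈ ball (0 : E2) H.r) (w : E2) :
    fderiv ℝ H.a (q, 0) (w, 0) = fderiv ℝ H.N q w := by
  have hd : DifferentiableAt ℝ H.a (q, 0) :=
    (H.a_at (H.memq hq)).differentiableAt (by simp)
  have h0 : HasFDerivAt (fun q : E2 => (q, (0 : E2))) (ContinuousLinearMap.inl ℝ E2 E2) q :=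
    hasFDerivAt_prodMk_left q (0 : E2)
  have h1 : HasFDerivAt (fun q : E2 => H.a (q, (0 : E2)))
      ((fderiv ℝ H.a (q, (0 : E2))).comp (ContinuousLinearMap.inl ℝ E2 E2)) q :=
    HasFDerivAt.comp (g := H.a) q hd.hasFDerivAt h0
  have h3 : (fun q : E2 => H.a (q, 0)) =ᶠ[𝓝 q] H.N := by
    filter_upwards [isOpen_ball.mem_nhds hq] with p hp
    exact H.a_axis p hp
  rw [(h1.congr_of_eventuallyEq h3.symm).fderiv]
  rfl

lemma b_q {q : E2} (hq : q ∈ ball (0 : E2) H.r) (w : E2) : fderiv ℝ H.b (q, 0) (w, 0) = 0 := by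
  have hd : DifferentiableAt ℝ H.b (q, 0) :=
    (H.b_at (H.memq hq)).differentiableAt (by simp)
  have h0 : HasFDerivAt (fun q : E2 => (q, (0 : E2))) (ContinuousLinearMap.inl ℝ E2 E2) q :=
    hasFDerivAt_prodMk_left q (0 : E2)
  have h1 : HasFDerivAt (fun q : E2 => H.b (q, (0 : E2)))
      ((fderiv ℝ H.b (q, (0 : E2))).comp (ContinuousLinearMap.inl ℝ E2 E2)) q :=
    HasFDerivAt.comp (g := H.b) q hd.hasFDerivAt h0
  have h3 : (fun q : E2 => H.b (q, 0)) =ᶠ[𝓝 q] fun _ => (0 : E2) := by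
    filter_upwards [isOpen_ball.mem_nhds hq] with p hp
    exact H.b_zero p hp
  have h4 : HasFDerivAt (fun q : E2 => H.b (q, 0)) (0 : E2 →L[ℝ] E2) q :=
    (hasFDerivAt_const (0 : E2) q).congr_of_eventuallyEq h3
  have h6 := congrArg (fun L : E2 →L[ℝ] E2 => L w) (h1.unique h4)
  simpa using h6

/-- `∂b/∂p (q, 0)` is the inverse of the transpose of `DN (q)` -/
lemma symp_axis {q : E2} (hq : q ∈ ball (0 : E2) H.r) (w z : E2) :
    ⟪fderiv ℝ H.b (q, 0) (0, z), fderiv ℝ H.N q w⟫ = ⟪z, w⟫ := by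
  have h2 := H.symp (q, 0) (H.memq hq) (w, 0) (0, z)
  rw [H.a_q hq, H.b_q hq] at h2
  simp only [inner_zero_left, sub_zero] at h2
  rw [real_inner_comm, h2, real_inner_comm]

lemma N_inj {q : E2} (hq : q ∈ ball (0 : E2) H.r) : Function.Surjective (fderiv ℝ H.N q) := by
  have h1 : Function.Injective (fderiv ℝ H.N q : E2 →ₗ[ℝ] E2) := by
    rw [injective_iff_map_eq_zero]
    intro w hw
    have hw' : fderiv ℝ H.N q w = 0 := hw
    have h2 := H.symp_axis hq w w
    rw [hw', inner_zero_right] at h2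
    exact inner_self_eq_zero.1 h2.symm
  exact LinearMap.injective_iff_surjective.1 h1

/-- the neighbourhoods of `0` are preserved by `N` -/
lemma map_N : map H.N (𝓝 0) = 𝓝 0 := by
  have h0 : (0 : E2) ∈ ball (0 : E2) H.r := mem_ball_self H.r_pos
  have hsurj := H.N_inj h0
  have hinj : Function.Injective (fderiv ℝ H.N 0 : E2 →ₗ[ℝ] E2) :=
    LinearMap.injective_iff_surjective.2 hsurj
  let A : E2 ≃L[ℝ] E2 := (LinearEquiv.ofBijective (fderiv ℝ H.N 0 : E2 →ₗ[ℝ] E2)
    ⟨hinj, hsurj⟩).toContinuousLinearEquiv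
  have hA : (A : E2 →L[ℝ] E2) = fderiv ℝ H.N 0 := by
    ext v
    rfl
  have h1 : HasStrictFDerivAt H.N (A : E2 →L[ℝ] E2) 0 := by
    rw [hA]
    exact (H.N_smooth h0).hasStrictFDerivAt (by simp)
  have h2 := h1.map_nhds_eq_of_equiv
  rwa [H.N_zero] at h2

/-- derivative of the graph transform in the direction of the parameter, part 1 -/
lemma lin1 {Z : Type*} [NormedAddCommGroup Z] [NormedSpace ℝ Z] {P P' : Z × E2 → E2} {v : Z}
    {g : E2 → E2} (hP's : ∀ᶠ w in 𝓝 (0 : Z × E2), ContDiffAt ℝ ∞ P' w)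
    (hFE : ∀ᶠ w in 𝓝 (0 : Z × E2), P' (w.1, H.a (w.2, P w)) = H.b (w.2, P w))
    (hg : ∀ (s : ℝ) q, P (s • v, q) = s • g q) :
    ∀ᶠ q in 𝓝 (0 : E2), fderiv ℝ P' (0, H.N q) (v, 0) = fderiv ℝ H.b (q, 0) (0, g q) := by
  have h0r : (0 : E2) ∈ ball (0 : E2) H.r := mem_ball_self H.r_pos
  have hinr : Tendsto (fun q : E2 => ((0 : Z), q)) (𝓝 0) (𝓝 0) := by
    have : Continuous fun q : E2 => ((0 : Z), q) := by fun_prop
    exact this.tendsto 0
  have hPz : ∀ q, P (0, q) = 0 := by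
    intro q
    have := hg 0 q
    rwa [zero_smul, zero_smul] at this
  have hNt : Tendsto H.N (𝓝 0) (𝓝 0) := H.map_N.le
  have hz : ∀ᶠ q in 𝓝 (0 : E2), P' (0, q) = 0 := by
    rw [← H.map_N, eventually_map]
    filter_upwards [hinr.eventually hFE, ball_mem_nhds (0 : E2) H.r_pos] with q hq hqr
    simp only [hPz] at hq
    rw [H.a_axis q hqr, H.b_zero q hqr] at hq
    exact hq
  filter_upwards [hinr.eventually hFE.eventually_nhds, ball_mem_nhds (0 : E2) H.r_pos,
    hNt.eventually (hinr.eventually hP's), hNt.eventually hz.eventually_nhds] with q hq1 hqr hq5 hq6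
  have hd : DifferentiableAt ℝ P' (0, H.N q) := hq5.differentiableAt (by simp)
  have ha0 : H.a (q, 0) = H.N q := H.a_axis q hqr
  -- the curve
  have c1 : HasDerivAt (fun s : ℝ => (q, s • g q)) ((0 : E2), g q) 0 := by
    have h1 : HasDerivAt (fun s : ℝ => s • g q) (g q) 0 := by
      have := (hasDerivAt_id (0 : ℝ)).smul_const (g q)
      rwa [one_smul] at this
    exact (hasDerivAt_const (0 : ℝ) q).prodMk h1
  have c2 : HasDerivAt (fun s : ℝ => H.a (q, s • g q)) (fderiv ℝ H.a (q, 0) (0, g q)) 0 := by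
    have h1 : HasFDerivAt H.a (fderiv ℝ H.a (q, 0)) (q, (0 : ℝ) • g q) := by
      rw [zero_smul]
      exact ((H.a_at (H.memq hqr)).differentiableAt (by simp)).hasFDerivAt
    exact h1.comp_hasDerivAt (0 : ℝ) c1
  have c3 : HasDerivAt (fun s : ℝ => H.b (q, s • g q)) (fderiv ℝ H.b (q, 0) (0, g q)) 0 := by
    have h1 : HasFDerivAt H.b (fderiv ℝ H.b (q, 0)) (q, (0 : ℝ) • g q) := by
      rw [zero_smul]
      exact ((H.b_at (H.memq hqr)).differentiableAt (by simp)).hasFDerivAt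
    exact h1.comp_hasDerivAt (0 : ℝ) c1
  have c4 : HasDerivAt (fun s : ℝ => (s • v, H.a (q, s • g q)))
      (v, fderiv ℝ H.a (q, 0) (0, g q)) 0 := by
    have h1 : HasDerivAt (fun s : ℝ => s • v) v 0 := by
      have := (hasDerivAt_id (0 : ℝ)).smul_const v
      rwa [one_smul] at this
    exact h1.prodMk c2
  have c5 : HasDerivAt (fun s : ℝ => P' (s • v, H.a (q, s • g q)))
      (fderiv ℝ P' (0, H.N q) (v, fderiv ℝ H.a (q, 0) (0, g q))) 0 := by
    have h1 : HasFDerivAt P' (fderiv ℝ P' (0, H.N q))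
        ((0 : ℝ) • v, H.a (q, (0 : ℝ) • g q)) := by
      rw [zero_smul, zero_smul, ha0]
      exact hd.hasFDerivAt
    exact h1.comp_hasDerivAt (0 : ℝ) c4
  have hEq : (fun s : ℝ => P' (s • v, H.a (q, s • g q))) =ᶠ[𝓝 0]
      fun s : ℝ => H.b (q, s • g q) := by
    have h1 : Tendsto (fun s : ℝ => (s • v, q)) (𝓝 0) (𝓝 ((0 : Z), q)) := by
      have : Continuous fun s : ℝ => (s • v, q) := by fun_prop
      have h2 := this.tendsto 0
      rwa [zero_smul] at h2
    filter_upwards [h1.eventually hq1] with s hs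
    simp only [hg] at hs
    exact hs
  have c6 := (c5.congr_of_eventuallyEq hEq.symm).unique c3
  -- `∂P'/∂q (0, N q) = 0`
  have c7 : ∀ w, fderiv ℝ P' (0, H.N q) (0, w) = 0 := by
    intro w
    have h1 : HasFDerivAt (fun q' : E2 => P' (0, q'))
        ((fderiv ℝ P' (0, H.N q)).comp (ContinuousLinearMap.inr ℝ Z E2)) (H.N q) :=
      HasFDerivAt.comp (g := P') (H.N q) hd.hasFDerivAt (hasFDerivAt_prodMk_right 0 (H.N q))
    have h4 : HasFDerivAt (fun q' : E2 => P' (0, q')) (0 : E2 →L[ℝ] E2) (H.N q) :=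
      (hasFDerivAt_const (0 : E2) (H.N q)).congr_of_eventuallyEq hq6
    have h6 := congrArg (fun L : E2 →L[ℝ] E2 => L w) (h1.unique h4)
    simpa using h6
  rw [← c6]
  have : (v, fderiv ℝ H.a (q, 0) (0, g q))
      = (v, (0 : E2)) + ((0 : Z), fderiv ℝ H.a (q, 0) (0, g q)) := by simp
  rw [this, map_add, c7, add_zero]

/-- derivative of the graph transform in the direction of the parameter, part 2 -/
lemma lin2 {f : E2 → ℝ} (hf : ContDiffAt ℝ ∞ f 0) {Ni : E2 → E2} (hNi : ContDiffAt ℝ ∞ Ni 0)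
    (hNiN : ∀ᶠ q in 𝓝 0, Ni (H.N q) = q) :
    ∀ᶠ q in 𝓝 (0 : E2), fderiv ℝ H.b (q, 0) (0, ∇ f q) = ∇ (fun q => f (Ni q)) (H.N q) := by
  have hNt : Tendsto H.N (𝓝 0) (𝓝 0) := H.map_N.le
  have hNi0 : Ni 0 = 0 := by
    have := hNiN.self_of_nhds
    rwa [H.N_zero] at this
  have hgs : ∀ᶠ q in 𝓝 (0 : E2), DifferentiableAt ℝ (fun q => f (Ni q)) (H.N q) := by
    refine hNt.eventually ?_
    have h1 : ContDiffAt ℝ ∞ (fun q => f (Ni q)) 0 :=
      ContDiffAt.comp (g := f) 0 (by rw [hNi0]; exact hf) hNi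
    filter_upwards [(h1.of_le (m := 1) (by norm_cast)).eventually (by simp)] with q hq
    exact hq.differentiableAt (by simp)
  filter_upwards [ball_mem_nhds (0 : E2) H.r_pos, hgs, hNiN.eventually_nhds] with q hqr hq3 hq4
  refine ext_inner_right ℝ fun w => ?_
  obtain ⟨w, rfl⟩ := H.N_inj hqr w
  rw [H.symp_axis hqr]
  have d1 : ⟪∇ (fun q => f (Ni q)) (H.N q), fderiv ℝ H.N q w⟫
      = fderiv ℝ (fun q => f (Ni q)) (H.N q) (fderiv ℝ H.N q w) :=
    inner_gradient_left (𝕜 := ℝ)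
  have d2 : HasFDerivAt (fun q => f (Ni (H.N q)))
      ((fderiv ℝ (fun q => f (Ni q)) (H.N q)).comp (fderiv ℝ H.N q)) q :=
    HasFDerivAt.comp (g := fun q => f (Ni q)) q hq3.hasFDerivAt
      ((H.N_smooth hqr).differentiableAt (by simp)).hasFDerivAt
  have d3 : (fun q => f (Ni (H.N q))) =ᶠ[𝓝 q] f := by
    filter_upwards [hq4] with q' hq'
    rw [hq']
  have d4 := (d2.congr_of_eventuallyEq d3.symm).fderiv
  have d5 : ⟪∇ f q, w⟫ = fderiv ℝ f q w := inner_gradient_left (𝕜 := ℝ)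
  rw [d1, d5, d4]
  rfl

lemma Pf_smul {K : ℕ} (v : Ix K → ℝ) (s : ℝ) (q : E2) : Pf (s • v, q) = s • Pf (v, q) := by
  rw [← grad_Sf, ← grad_Sf]
  have e1 : Sf (s • v) = fun q => s * Sf v q := by
    ext q
    simp only [Sf_eq_sum, Finset.mul_sum, Pi.smul_apply, smul_eq_mul, mul_assoc]
  rw [e1, grad_eq, grad_eq]
  have e2 : ∀ d : E2, fderiv ℝ (fun q => s * Sf v q) q d = s * fderiv ℝ (Sf v) q d := by
    intro d
    rw [fderiv_const_mul ((Sf_smooth v).differentiable (by simp) _)]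
    rfl
  ext i
  fin_cases i
  · exact e2 Jet.e1
  · exact e2 Jet.e2

/-- **The action of `φ` on the jets of the leaves.** -/
theorem jact {K : ℕ} (hK : 1 ≤ K) : ∃ J : Ix K → (Ix K → ℝ) → ℝ,
    (∀ a, ∀ᶠ u in 𝓝 0, ContDiffAt ℝ ∞ (J a) u) ∧
    (∀ᶠ y in 𝓝 0, ∀ a : Ix K, jet (H.S (H.M y)) a.1.1 a.1.2 = J a (H.T K y)) ∧
    (∀ a : Ix K, 2 ≤ a.ord → ∀ᶠ u in 𝓝 0, J a u = J a (low a.ord u) +
      ∑ b : Ix K, if b.ord = a.ord then
        u b * jet (fun q => mono b.1.1 b.1.2 (H.Mt (lab u) q)) a.1.1 a.1.2 else 0) ∧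
    (∀ a : Ix K, a.ord = 1 → ∀ᶠ u in 𝓝 0,
      J a u = if a.1.1 = 1 then (H.M (lab u)) 0 else (H.M (lab u)) 1) ∧
    (∀ Ni : E2 → E2, ContDiffAt ℝ ∞ Ni 0 → (∀ᶠ q in 𝓝 0, Ni (H.N q) = q) → ∀ (a : Ix K) v,
      fderiv ℝ (J a) 0 v = jet (fun q => Sf v (Ni q)) a.1.1 a.1.2) := by
  obtain ⟨A0, hA0, -⟩ := H.exists_A (mem_ball_self H.r_pos)
  have hP00 : Pf (K := K) 0 = 0 := Pf_zero_left 0
  obtain ⟨P', hP's, hFE⟩ := fam_exists H.r_pos H.a_smooth H.b_smooth H.a_zero hA0
    (Pf_smooth K) hP00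
  -- the good jets
  set Good : (Ix K → ℝ) → Prop := fun u => ContDiffAt ℝ ∞ P' (u, 0) ∧
    (∀ᶠ q in 𝓝 (0 : E2), P' (u, H.a (q, Pf (u, q))) = H.b (q, Pf (u, q))) ∧
    lab u ∈ ball (0 : E2) H.r with hGood
  have hin : Tendsto (fun u : Ix K → ℝ => (u, (0 : E2))) (𝓝 0) (𝓝 0) := by
    have : Continuous fun u : Ix K → ℝ => (u, (0 : E2)) := by fun_prop
    exact this.tendsto 0
  have hgood : ∀ᶠ u in 𝓝 (0 : Ix K → ℝ), Good u := by
    have h1 := hin.eventually hP's
    have h2 := hin.eventually hFE.eventually_nhds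
    have h3 : ∀ᶠ u in 𝓝 (0 : Ix K → ℝ), lab u ∈ ball (0 : E2) H.r := by
      refine (lab_smooth K).continuous.continuousAt.eventually_mem ?_
      rw [lab_zero]
      exact ball_mem_nhds 0 H.r_pos
    filter_upwards [h1, h2, h3] with u hu1 hu2 hu3
    refine ⟨hu1, ?_, hu3⟩
    have h4 : Tendsto (fun q : E2 => (u, q)) (𝓝 0) (𝓝 (u, 0)) := by
      have : Continuous fun q : E2 => (u, q) := by fun_prop
      exact this.tendsto 0
    exact h4.eventually hu2
  have hP'u : ∀ {u}, Good u → ContDiffAt ℝ ∞ (fun q => P' (u, q)) 0 := by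
    intro u hu
    have h1 : ContDiffAt ℝ ∞ (fun q : E2 => (u, q)) 0 := by fun_prop
    exact ContDiffAt.comp (g := P') (0 : E2) hu.1 h1
  have hPfu : ∀ u : Ix K → ℝ, ContDiffAt ℝ ∞ (fun q => Pf (u, q)) 0 := by
    intro u
    have h1 : ContDiffAt ℝ ∞ (fun q : E2 => (u, q)) 0 := by fun_prop
    exact ContDiffAt.comp (g := Pf) (0 : E2) (Pf_smooth K).contDiffAt h1
  have hgu : ∀ u : Ix K → ℝ, (fun q => Pf (u, q)) = ∇ (Sf u) := by
    intro u
    ext1 q
    exact (grad_Sf u q).symm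
  refine ⟨fun a u => gj (fun q => P' (u, q)) a.1, ?_, ?_, ?_, ?_, ?_⟩
  · -- smoothness
    intro a
    filter_upwards [hgood] with u hu
    have h1 := smooth_iff.1 hu.1
    unfold gj
    split_ifs
    · exact smooth_jet (F := fun w => P' w 0) h1.1 _ _
    · exact smooth_jet (F := fun w => P' w 1) h1.2 _ _
  · -- the equation
    filter_upwards [(H.T_tendsto K).eventually hgood, ball_mem_nhds (0 : E2) H.ρ_pos] with y hy hyρ a
    have hyr : y ∈ ball (0 : E2) H.r := ball_subset_ball H.ρ_le hyρ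
    have hMy : H.M y ∈ ball (0 : E2) H.r := H.M_maps y hyρ
    have hO : OB K fun q => ∇ (H.S y) q - Pf (H.T K y, q) := by
      have h1 := OB_grad (H.S_at hyr) (Sf_smooth (H.T K y)).contDiffAt
        (OB_sub_Sf (K := K) (H.S_at hyr) (H.S_val y hyr))
      refine h1.congr (Eventually.of_forall fun q => ?_)
      simp only [grad_Sf]
    have hcmp := H.compare hyr hK (P := fun q => Pf (H.T K y, q))
      (P' := fun q => P' (H.T K y, q)) (Ph := ∇ (H.S y)) (Ph' := ∇ (H.S (H.M y)))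
      (hPfu _) (smooth_grad (H.S_at hyr)) (hP'u hy)
      (by rw [Pf_zero_right _ hK, H.lab_T hK hyr]) (H.S_grad y hyr) hy.2.1
      (by
        filter_upwards [ball_mem_nhds (0 : E2) H.ρ_pos] with q hq
        exact H.S_inv y hyρ q hq) hO
    have hlin : OB K fun q => fderiv ℝ H.M y (∇ (H.S y) (H.Mt y q) - Pf (H.T K y, H.Mt y q)) := by
      have h1 : OB 1 fun q => H.Mt y q := OB.of_differentiableAt (H.Mt y).differentiableAt
        (map_zero _)
      exact (OB.comp hO h1).clm_const _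
    have h3 : OB K fun q => ∇ (H.S (H.M y)) q - P' (H.T K y, q) := by
      have h4 := (hcmp.of_le (Nat.le_succ K)).add hlin
      refine h4.congr (Eventually.of_forall fun q => ?_)
      simp only
      abel
    rw [← gj_grad (H.S_at hMy) a.one_le]
    exact gj_congr_OB (smooth_grad (H.S_at hMy)) (hP'u hy) h3 a.one_le a.le
  · -- the top part
    intro a ha
    filter_upwards [hgood, (low_tendsto a.ord).eventually hgood] with u hu hul
    set m := a.ord - 1 with hm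
    have hm1 : 1 ≤ m := by omega
    have hma : m + 1 = a.ord := by omega
    have hlab : lab (low a.ord u) = lab u := lab_low ha u
    set Δ : E2 → ℝ := fun q => Sf u q - Sf (low a.ord u) q with hΔ
    have hΔs : ContDiff ℝ ∞ Δ := (Sf_smooth u).sub (Sf_smooth _)
    have hO : OB m fun q => Pf (u, q) - Pf (low a.ord u, q) := by
      have h1 := OB_grad (Sf_smooth u).contDiffAt (Sf_smooth (low a.ord u)).contDiffAt
        (m := m) (by rw [hma]; exact OB_Sf_low a.ord u)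
      refine h1.congr (Eventually.of_forall fun q => ?_)
      simp only [grad_Sf]
    have hcmp := H.compare hu.2.2 hm1 (P := fun q => Pf (low a.ord u, q))
      (P' := fun q => P' (low a.ord u, q)) (Ph := fun q => Pf (u, q))
      (Ph' := fun q => P' (u, q)) (hPfu _) (hPfu _) (hP'u hul)
      (by rw [Pf_zero_right _ hK, hlab]) (Pf_zero_right _ hK)
      hul.2.1 hu.2.1 hO
    set L : E2 → E2 := fun q => H.Mt (lab u) q with hL
    have hLs : ContDiff ℝ ∞ L := (H.Mt (lab u)).contDiff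
    have hgrad : ∀ q, ∇ (fun q => Δ (L q)) q
        = fderiv ℝ H.M (lab u) (Pf (u, L q) - Pf (low a.ord u, L q)) := by
      intro q
      refine ext_inner_right ℝ fun w => ?_
      have e1 : ⟪∇ (fun q => Δ (L q)) q, w⟫ = fderiv ℝ (fun q => Δ (L q)) q w :=
        inner_gradient_left (𝕜 := ℝ)
      have e2 : HasFDerivAt (fun q => Δ (L q)) ((fderiv ℝ Δ (L q)).comp (H.Mt (lab u))) q :=
        HasFDerivAt.comp q ((hΔs.differentiable (by simp) _).hasFDerivAt)
          (H.Mt (lab u)).hasFDerivAt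
      have e3 : ⟪∇ Δ (L q), H.Mt (lab u) w⟫ = fderiv ℝ Δ (L q) (H.Mt (lab u) w) :=
        inner_gradient_left (𝕜 := ℝ)
      have e4 : ∇ Δ (L q) = Pf (u, L q) - Pf (low a.ord u, L q) := by
        rw [← grad_Sf, ← grad_Sf]
        refine ext_inner_right ℝ fun z => ?_
        rw [inner_sub_left]
        have t1 : ⟪∇ Δ (L q), z⟫ = fderiv ℝ Δ (L q) z := inner_gradient_left (𝕜 := ℝ)
        have t2 : ⟪∇ (Sf u) (L q), z⟫ = fderiv ℝ (Sf u) (L q) z := inner_gradient_left (𝕜 := ℝ)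
        have t3 : ⟪∇ (Sf (low a.ord u)) (L q), z⟫ = fderiv ℝ (Sf (low a.ord u)) (L q) z :=
          inner_gradient_left (𝕜 := ℝ)
        rw [t1, t2, t3, hΔ, fderiv_fun_sub ((Sf_smooth u).differentiable (by simp) _)
          ((Sf_smooth _).differentiable (by simp) _)]
        rfl
      rw [e1, e2.fderiv, ContinuousLinearMap.comp_apply, ← e3, e4]
      unfold Mt
      rw [ContinuousLinearMap.adjoint_inner_right]
    have hgs : ContDiffAt ℝ ∞ (∇ fun q => Δ (L q)) 0 := smooth_grad (hΔs.comp hLs).contDiffAt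
    have h5 : OB a.ord fun q => P' (u, q) - (P' (low a.ord u, q) + ∇ (fun q => Δ (L q)) q) := by
      rw [hma] at hcmp
      refine hcmp.congr (Eventually.of_forall fun q => ?_)
      simp only [hgrad]
      abel
    have h6 : gj (fun q => P' (u, q)) a.1
        = gj (fun q => P' (low a.ord u, q)) a.1 + gj (∇ fun q => Δ (L q)) a.1 := by
      rw [← gj_add (hP'u hul) hgs]
      exact gj_congr_OB (hP'u hu) ((hP'u hul).add hgs) h5 a.one_le le_rfl
    have hΔL : ContDiffAt ℝ ∞ (fun q => Δ (L q)) 0 := (hΔs.comp hLs).contDiffAt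
    rw [h6, gj_grad hΔL a.one_le]
    congr 1
    have h7 : (fun q => Δ (L q)) = fun q => Sf (u - low a.ord u) (L q) := by
      ext q
      simp only [hΔ, Sf_sub]
    rw [h7, jet_Sf_comp _ hLs.contDiffAt]
    refine Finset.sum_congr rfl fun b _ => ?_
    split_ifs with hb
    · have : (u - low a.ord u) b = u b := by simp [low, hb]
      rw [this]
    · rcases lt_or_gt_of_ne hb with hb | hb
      · have : (u - low a.ord u) b = 0 := by simp [low, hb]
        rw [this, zero_mul]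
      · rw [jet_mono_comp_zero hLs.contDiffAt (map_zero (H.Mt (lab u))) hb, mul_zero]
  · -- the label
    intro a ha
    filter_upwards [hgood] with u hu
    have h1 := hu.2.1.self_of_nhds
    rw [Pf_zero_right _ hK, H.a_zero _ hu.2.2, H.b_axis _ hu.2.2] at h1
    have ha' : a.1.1 + a.1.2 = 1 := ha
    unfold gj
    by_cases h : 1 ≤ a.1.1
    · have h2 : a.1.1 = 1 := by omega
      have h3 : a.1.2 = 0 := by omega
      rw [if_pos h, if_pos h2, h2, h3, jet_zero, ← h1]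
    · have h2 : a.1.1 = 0 := by omega
      have h3 : a.1.2 = 1 := by omega
      rw [if_neg h, if_neg (by omega), h2, h3, jet_zero, ← h1]
  · -- the linear part
    intro Ni hNi hNiN a v
    have hNi0 : Ni 0 = 0 := by
      have := hNiN.self_of_nhds
      rwa [H.N_zero] at this
    have hlinPf : ∀ (s : ℝ) q, Pf (s • v, q) = s • Pf (v, q) := Pf_smul v
    have key : ∀ᶠ q in 𝓝 (0 : E2), fderiv ℝ P' (0, q) (v, 0) = ∇ (fun q => Sf v (Ni q)) q := by
      rw [← H.map_N, eventually_map]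
      filter_upwards [H.lin1 (g := fun q => Pf (v, q)) hP's hFE hlinPf,
        H.lin2 (Sf_smooth v).contDiffAt hNi hNiN] with q h1 h2
      rw [h1, ← h2, grad_Sf]
    have hg : ContDiffAt ℝ ∞ (fun q => Sf v (Ni q)) 0 :=
      ContDiffAt.comp (g := Sf v) 0 (Sf_smooth v).contDiffAt hNi
    rw [← gj_grad hg a.one_le, ← gj_congr_ev key a.1]
    have h1 := smooth_iff.1 (hgood.self_of_nhds).1
    have hinr : Tendsto (fun q : E2 => ((0 : Ix K → ℝ), q)) (𝓝 0) (𝓝 0) := by
      have : Continuous fun q : E2 => ((0 : Ix K → ℝ), q) := by fun_prop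
      exact this.tendsto 0
    have hcoord : ∀ (i : Fin 2), (fun q => fderiv ℝ (fun w => P' w i) ((0 : Ix K → ℝ), q) (v, 0))
        =ᶠ[𝓝 0] fun q => (fderiv ℝ P' ((0 : Ix K → ℝ), q) (v, 0)) i := by
      intro i
      filter_upwards [hinr.eventually hP's] with q hq
      have h2 : HasFDerivAt (fun w => P' w i)
          ((EuclideanSpace.proj i : E2 →L[ℝ] ℝ).comp (fderiv ℝ P' ((0 : Ix K → ℝ), q)))
          ((0 : Ix K → ℝ), q) :=
        (EuclideanSpace.proj i : E2 →L[ℝ] ℝ).hasFDerivAt.comp _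
          (hq.differentiableAt (by simp)).hasFDerivAt
      rw [h2.fderiv]
      rfl
    change fderiv ℝ (fun u => gj (fun q => P' (u, q)) a.1) 0 v = _
    unfold gj
    by_cases hcase : 1 ≤ a.1.1
    · simp only [if_pos hcase]
      exact (fderiv_jet (F := fun w => P' w 0) h1.1 v _ _).trans (jet_congr (hcoord 0) _ _)
    · simp only [if_neg hcase]
      exact (fderiv_jet (F := fun w => P' w 1) h1.2 v _ _).trans (jet_congr (hcoord 1) _ _)

end Half

end Vale.Agent.P207.N3
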