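import Vale.Agent.P207.N3.H391.Jet

/-!
# P207, line N3: jets and parameters
-/

open Set Filter Topology Metric MeasureTheory Asymptotics
open scoped ContDiff

noncomputable section

namespace Vale.Agent.P207.N3

namespace Jet

variable {V : Type*} [NormedAddCommGroup V] [NormedSpace ℝ V]
variable {Z : Type*} [NormedAddCommGroup Z] [NormedSpace ℝ Z]

/-- the partial derivatives in the second variable -/
def P1 (F : Z × E2 → V) : Z × E2 → V := fun w => D1 (fun q => F (w.1, q)) w.2
/-- the partial derivatives in the second variable -/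
def P2 (F : Z × E2 → V) : Z × E2 → V := fun w => D2 (fun q => F (w.1, q)) w.2

lemma smooth_P1 {F : Z × E2 → V} {w : Z × E2} (h : ContDiffAt ℝ ∞ F w) :
    ContDiffAt ℝ ∞ (P1 F) w := by
  have h1 : ContDiffAt ℝ ∞ (Function.uncurry fun (w : Z × E2) (q : E2) => F (w.1, q)) (w, w.2) := by
    have h2 : ContDiffAt ℝ ∞ (fun x : (Z × E2) × E2 => (x.1.1, x.2)) (w, w.2) := by fun_prop
    exact ContDiffAt.comp (f := fun x : (Z × E2) × E2 => (x.1.1, x.2)) (w, w.2) (by simpa using h) h2
  exact (ContDiffAt.fderiv (m := ∞) (n := ∞) h1 contDiffAt_snd (by norm_cast)).clm_apply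
    contDiffAt_const

lemma smooth_P2 {F : Z × E2 → V} {w : Z × E2} (h : ContDiffAt ℝ ∞ F w) :
    ContDiffAt ℝ ∞ (P2 F) w := by
  have h1 : ContDiffAt ℝ ∞ (Function.uncurry fun (w : Z × E2) (q : E2) => F (w.1, q)) (w, w.2) := by
    have h2 : ContDiffAt ℝ ∞ (fun x : (Z × E2) × E2 => (x.1.1, x.2)) (w, w.2) := by fun_prop
    exact ContDiffAt.comp (f := fun x : (Z × E2) × E2 => (x.1.1, x.2)) (w, w.2) (by simpa using h) h2
  exact (ContDiffAt.fderiv (m := ∞) (n := ∞) h1 contDiffAt_snd (by norm_cast)).clm_apply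
    contDiffAt_const

omit [NormedAddCommGroup Z] [NormedSpace ℝ Z] in
lemma P1i_apply (F : Z × E2 → V) (i : ℕ) (z : Z) (q : E2) :
    (P1^[i] F) (z, q) = (D1^[i] fun q => F (z, q)) q := by
  induction i generalizing q with
  | zero => rfl
  | succ i ih =>
    rw [Function.iterate_succ_apply', Function.iterate_succ_apply']
    change D1 (fun q => (P1^[i] F) (z, q)) q = _
    simp only [ih]

omit [NormedAddCommGroup Z] [NormedSpace ℝ Z] in
lemma P2i_apply (F : Z × E2 → V) (i : ℕ) (z : Z) (q : E2) :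
    (P2^[i] F) (z, q) = (D2^[i] fun q => F (z, q)) q := by
  induction i generalizing q with
  | zero => rfl
  | succ i ih =>
    rw [Function.iterate_succ_apply', Function.iterate_succ_apply']
    change D2 (fun q => (P2^[i] F) (z, q)) q = _
    simp only [ih]

lemma smooth_P1i {F : Z × E2 → V} {w : Z × E2} (h : ContDiffAt ℝ ∞ F w) (i : ℕ) :
    ContDiffAt ℝ ∞ (P1^[i] F) w := by
  induction i with
  | zero => exact h
  | succ i ih =>
    rw [Function.iterate_succ_apply']
    exact smooth_P1 ih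

lemma smooth_P2i {F : Z × E2 → V} {w : Z × E2} (h : ContDiffAt ℝ ∞ F w) (i : ℕ) :
    ContDiffAt ℝ ∞ (P2^[i] F) w := by
  induction i with
  | zero => exact h
  | succ i ih =>
    rw [Function.iterate_succ_apply']
    exact smooth_P2 ih

omit [NormedAddCommGroup Z] [NormedSpace ℝ Z] in
lemma P_apply (F : Z × E2 → V) (i j : ℕ) (z : Z) (q : E2) :
    (P1^[i] (P2^[j] F)) (z, q) = (D1^[i] (D2^[j] fun q => F (z, q))) q := by
  rw [P1i_apply]
  simp only [P2i_apply]

/-- the jets of a smooth family are smooth functions of the parameter -/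
theorem smooth_jet {F : Z × E2 → V} {z : Z} (h : ContDiffAt ℝ ∞ F (z, 0)) (i j : ℕ) :
    ContDiffAt ℝ ∞ (fun z => jet (fun q => F (z, q)) i j) z := by
  have h1 : (fun z => jet (fun q => F (z, q)) i j) = fun z => (P1^[i] (P2^[j] F)) (z, (0 : E2)) := by
    ext z
    rw [P_apply]
    rfl
  rw [h1]
  exact (smooth_P1i (smooth_P2i h j) i).comp (f := fun z : Z => (z, (0 : E2))) z (by fun_prop)

/-- all mixed derivatives of a smooth family are smooth -/
theorem smooth_jetAt {F : Z × E2 → V} {w : Z × E2} (h : ContDiffAt ℝ ∞ F w) (i j : ℕ) :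
    ContDiffAt ℝ ∞ (fun w : Z × E2 => (D1^[i] (D2^[j] fun q => F (w.1, q))) w.2) w := by
  have h1 : (fun w : Z × E2 => (D1^[i] (D2^[j] fun q => F (w.1, q))) w.2)
      = P1^[i] (P2^[j] F) := by
    ext w
    rw [← P_apply]
  rw [h1]
  exact smooth_P1i (smooth_P2i h j) i

/-- iterated directional derivatives -/
def DL : List E2 → (E2 → V) → E2 → V
  | [], f => f
  | v :: L, f => DL L fun q => fderiv ℝ f q v

lemma DL_append (L L' : List E2) (f : E2 → V) : DL (L ++ L') f = DL L' (DL L f) := by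
  induction L generalizing f with
  | nil => rfl
  | cons v L ih => exact ih _

lemma DL_e1 (i : ℕ) (f : E2 → V) : DL (List.replicate i e1) f = D1^[i] f := by
  induction i generalizing f with
  | zero => rfl
  | succ i ih => exact ih _

lemma DL_e2 (i : ℕ) (f : E2 → V) : DL (List.replicate i e2) f = D2^[i] f := by
  induction i generalizing f with
  | zero => rfl
  | succ i ih => exact ih _

lemma DL_word (L : List E2) : ∃ m : Fin L.length → E2, (∀ l, m l ∈ L) ∧
    ∀ (f : E2 → V) (q : E2), ContDiffAt ℝ ∞ f q →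
      DL L f q = iteratedFDeriv ℝ L.length f q m := by
  induction L with
  | nil => exact ⟨fun l => l.elim0, fun l => l.elim0, fun f q _ => by simp [DL]⟩
  | cons v L ih =>
    obtain ⟨m, hm, h⟩ := ih
    refine ⟨Fin.snoc m v, ?_, ?_⟩
    · intro l
      refine Fin.lastCases ?_ (fun l => ?_) l
      · simp
      · have := hm l
        simp [this]
    · intro f q hf
      have hd : ContDiffAt ℝ ∞ (fderiv ℝ f) q := hf.fderiv_right (m := ∞) (by norm_cast)
      have h1 := h (fun q => fderiv ℝ f q v) q (hd.clm_apply contDiffAt_const)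
      change DL L (fun q => fderiv ℝ f q v) q = _
      rw [h1]
      have h2 := iteratedFDeriv_succ_apply_right (𝕜 := ℝ) (f := f) (n := L.length) (x := q)
        (Fin.snoc m v : Fin (L.length + 1) → E2)
      refine Eq.trans ?_ h2.symm
      simp only [Fin.init_snoc, Fin.snoc_last]
      have h3 := (ContinuousLinearMap.apply ℝ V v).iteratedFDeriv_comp_left (f := fderiv ℝ f)
        (x := q) hd (i := L.length) (by norm_cast; exact le_top)
      have h4 : (fun q => fderiv ℝ f q v) = (ContinuousLinearMap.apply ℝ V v) ∘ fderiv ℝ f := rfl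
      rw [h4, h3]
      rfl

lemma jet_word (i j : ℕ) : ∃ m : Fin (i + j) → E2, (∀ l, ‖m l‖ ≤ 1) ∧
    ∀ (f : E2 → V) (q : E2), ContDiffAt ℝ ∞ f q →
      (D1^[i] (D2^[j] f)) q = iteratedFDeriv ℝ (i + j) f q m := by
  have h := DL_word (V := V) (List.replicate j e2 ++ List.replicate i e1)
  have hl : (List.replicate j e2 ++ List.replicate i e1).length = i + j := by simp [add_comm]
  rw [hl] at h
  obtain ⟨m, hm, h⟩ := h
  refine ⟨m, fun l => ?_, fun f q hf => ?_⟩
  · have := hm l
    rw [List.mem_append, List.mem_replicate, List.mem_replicate] at this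
    rcases this with ⟨-, h1⟩ | ⟨-, h1⟩ <;> rw [h1] <;> simp [e1, e2]
  · rw [← h f q hf, DL_append, DL_e1, DL_e2]

/-- the mixed derivatives are bounded by the iterated Fréchet derivatives -/
lemma norm_jet_le (i j : ℕ) {f : E2 → V} {q : E2} (hf : ContDiffAt ℝ ∞ f q) :
    ‖(D1^[i] (D2^[j] f)) q‖ ≤ ‖iteratedFDeriv ℝ (i + j) f q‖ := by
  obtain ⟨m, hm, h⟩ := jet_word (V := V) i j
  rw [h f q hf]
  refine (ContinuousMultilinearMap.le_opNorm _ _).trans ?_
  refine mul_le_of_le_one_right (norm_nonneg _) ?_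
  exact Finset.prod_le_one (fun _ _ => norm_nonneg _) fun l _ => hm l

/-- continuity of the mixed derivatives of a family -/
lemma continuousOn_jet {Y : Type*} [TopologicalSpace Y] {S : Y → E2 → V} {s : Set Y} {r : ℝ}
    (hs : ∀ y ∈ s, ContDiffOn ℝ ∞ (S y) (ball 0 r)) (i j : ℕ)
    (hc : ContinuousOn (fun z : Y × E2 => iteratedFDeriv ℝ (i + j) (S z.1) z.2)
      (s ×ˢ ball 0 r)) :
    ContinuousOn (fun z : Y × E2 => (D1^[i] (D2^[j] (S z.1))) z.2) (s ×ˢ ball 0 r) := by
  obtain ⟨m, hm, h⟩ := jet_word (V := V) i j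
  have h1 : ContinuousOn (fun z : Y × E2 => iteratedFDeriv ℝ (i + j) (S z.1) z.2 m)
      (s ×ˢ ball 0 r) := by
    intro z hz
    exact ((ContinuousMultilinearMap.apply ℝ (fun _ : Fin (i + j) => E2) V m).continuous.continuousAt
      ).comp_continuousWithinAt (hc z hz)
  refine h1.congr fun z hz => ?_
  exact h _ _ ((hs z.1 hz.1).contDiffAt (isOpen_ball.mem_nhds hz.2))

end Jet

end Vale.Agent.P207.N3
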