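import Vale.Agent.P207.N3.H391.JAct3
import Vale.Agent.P207.N3.H391.GT2

/-!
# P207, line N3: the action of `φ` on the jets of the densities, preparations
-/

open Set Filter Topology Metric MeasureTheory Asymptotics InnerProductSpace
open scoped ContDiff Gradient RealInnerProductSpace

noncomputable section

set_option linter.unusedSectionVars false

namespace Vale.Agent.P207.N3

namespace Jet

theorem det_comp2 (A B : E2 →L[ℝ] E2) : (A ∘L B).det = A.det * B.det := by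
  show LinearMap.det ((A : E2 →ₗ[ℝ] E2) ∘ₗ (B : E2 →ₗ[ℝ] E2)) = _
  rw [LinearMap.det_comp]

theorem det_adj (B : E2 →L[ℝ] E2) : (ContinuousLinearMap.adjoint B).det = B.det := by
  have h1 : ∀ i j : Fin 2, ((ContinuousLinearMap.adjoint B) (EuclideanSpace.single i 1)) j
      = (B (EuclideanSpace.single j 1)) i := by
    intro i j
    have h2 := ContinuousLinearMap.adjoint_inner_left B (EuclideanSpace.single j (1 : ℝ))
      (EuclideanSpace.single i 1)
    simp only [EuclideanSpace.inner_single_left, EuclideanSpace.inner_single_right] at h2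
    simpa using h2
  rw [det_E2, det_E2]
  unfold e1 e2
  rw [h1, h1, h1, h1]
  ring

lemma smooth_Dq {V Z : Type*} [NormedAddCommGroup V] [NormedSpace ℝ V] [NormedAddCommGroup Z]
    [NormedSpace ℝ Z] {F : Z × E2 → V} {w : Z × E2} (h : ContDiffAt ℝ ∞ F w) :
    ContDiffAt ℝ ∞ (fun w : Z × E2 => fderiv ℝ (fun q => F (w.1, q)) w.2) w := by
  have h1 : ContDiffAt ℝ ∞ (Function.uncurry fun (w : Z × E2) (q : E2) => F (w.1, q)) (w, w.2) := by
    have h2 : ContDiffAt ℝ ∞ (fun x : (Z × E2) × E2 => (x.1.1, x.2)) (w, w.2) := by fun_prop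
    exact ContDiffAt.comp (f := fun x : (Z × E2) × E2 => (x.1.1, x.2)) (w, w.2) (by simpa using h) h2
  exact ContDiffAt.fderiv (m := ∞) (n := ∞) h1 contDiffAt_snd (by norm_cast)

lemma OB_id {E : Type*} [NormedAddCommGroup E] [NormedSpace ℝ E] : OB 1 fun q : E => q :=
  OB.of_differentiableAt differentiableAt_id rfl

/-- a smooth map is close to its linear part -/
lemma OB_lin {V : Type*} [NormedAddCommGroup V] [NormedSpace ℝ V] {F : E2 → V}
    (hF : ContDiffAt ℝ ∞ F 0) (h0 : F 0 = 0) : OB 2 fun q => F q - fderiv ℝ F 0 q := by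
  have h4 := OB.C2 (E := E2) (m := 1) (g := F) (u := fun q => q) (v := fun _ => (0 : E2))
    (z := 0) (hF.of_le (by norm_cast)) (by simpa using OB_id)
    (by
      simp only [sub_zero]
      exact OB.of_differentiableAt (differentiableAt_const _) rfl) (by simpa using OB_id)
  refine h4.congr (Eventually.of_forall fun q => ?_)
  simp [h0]

end Jet

open Jet

namespace Half

variable (H : Half)

lemma det_Mt {y : E2} {A : E2 ≃L[ℝ] E2} (hA : ∀ q, A.symm q = H.Mt y q) :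
    (A : E2 →L[ℝ] E2).det * (fderiv ℝ H.M y).det = 1 := by
  have h1 : (A.symm : E2 →L[ℝ] E2) = H.Mt y := by
    ext1 q
    exact hA q
  have h2 : (fderiv ℝ H.M y).det = (A.symm : E2 →L[ℝ] E2).det := by
    rw [h1]
    exact (det_adj _).symm
  rw [h2, ← det_comp2]
  have h3 : (A : E2 →L[ℝ] E2) ∘L (A.symm : E2 →L[ℝ] E2) = ContinuousLinearMap.id ℝ E2 := by
    ext1 q
    simp
  rw [h3]
  change LinearMap.det (LinearMap.id : E2 →ₗ[ℝ] E2) = 1
  exact LinearMap.det_id

section F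

variable {y : E2} (hy : y ∈ ball (0 : E2) H.r) {P Ph : E2 → E2}

include hy

lemma F_smooth (hP : ContDiffAt ℝ ∞ P 0) (hP0 : P 0 = y) :
    ContDiffAt ℝ ∞ (fun q => H.a (q, P q)) 0 := by
  have h1 : ContDiffAt ℝ ∞ (fun q => (q, P q)) 0 := contDiffAt_id.prodMk hP
  exact ContDiffAt.comp (g := H.a) (0 : E2) (by rw [hP0]; exact H.a_at (H.mem0 hy)) h1

lemma F_zero (hP0 : P 0 = y) : H.a (0, P 0) = 0 := by rw [hP0]; exact H.a_zero y hy

lemma F_fderiv (hP : ContDiffAt ℝ ∞ P 0) (hP0 : P 0 = y) {A : E2 ≃L[ℝ] E2}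
    (hA : ∀ v, fderiv ℝ H.a (0, y) (v, 0) = A v) :
    fderiv ℝ (fun q => H.a (q, P q)) 0 = A := by
  have hPs : ContDiffAt ℝ ∞ (fun q => (q, P q)) 0 := contDiffAt_id.prodMk hP
  have h3 : HasFDerivAt (fun q => H.a (q, P q))
      ((fderiv ℝ H.a (0, y)).comp (fderiv ℝ (fun q => (q, P q)) 0)) 0 := by
    have h4 : HasFDerivAt H.a (fderiv ℝ H.a (0, y)) ((0 : E2), P 0) := by
      rw [hP0]; exact ((H.a_at (H.mem0 hy)).differentiableAt (by simp)).hasFDerivAt
    exact h4.comp (0 : E2) (hPs.differentiableAt (by simp)).hasFDerivAt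
  rw [h3.fderiv]
  ext1 w
  have h5 : fderiv ℝ (fun q => (q, P q)) 0 w = (w, fderiv ℝ P 0 w) := by
    have h6 : HasFDerivAt (fun q => (q, P q)) ((ContinuousLinearMap.id ℝ E2).prod (fderiv ℝ P 0))
        (0 : E2) := (hasFDerivAt_id _).prodMk (hP.differentiableAt (by simp)).hasFDerivAt
    rw [h6.fderiv]
    rfl
  rw [ContinuousLinearMap.comp_apply, h5]
  have h7 : (w, fderiv ℝ P 0 w) = (w, (0 : E2)) + ((0 : E2), fderiv ℝ P 0 w) := by simp
  rw [h7, map_add, hA, H.a_p hy, add_zero]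
  rfl

omit hy in
lemma OB_label (hP : ContDiffAt ℝ ∞ P 0) (hP0 : P 0 = y) : OB 1 fun q => P q - y :=
  OB.of_differentiableAt ((hP.differentiableAt (by simp)).sub_const _) (by rw [hP0, sub_self])

lemma F_sub {m : ℕ} (hP : ContDiffAt ℝ ∞ P 0) (hP0 : P 0 = y) (hPh : ContDiffAt ℝ ∞ Ph 0)
    (hPh0 : Ph 0 = y) (hQ : OB m fun q => Ph q - P q) :
    OB (m + 1) fun q => H.a (q, Ph q) - H.a (q, P q) := by
  have hu1 : OB 1 fun q => (q, Ph q) - ((0 : E2), y) := OB.of_differentiableAt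
    (((contDiffAt_id.prodMk hPh).differentiableAt (by simp)).sub_const _) (by simp [hPh0])
  have hv1 : OB 1 fun q => (q, P q) - ((0 : E2), y) := OB.of_differentiableAt
    (((contDiffAt_id.prodMk hP).differentiableAt (by simp)).sub_const _) (by simp [hP0])
  have huv : OB m fun q => (q, Ph q) - (q, P q) := by
    have e : (fun q => (q, Ph q) - (q, P q)) = fun q => ((0 : E2), Ph q - P q) := by
      ext q <;> simp
    rw [e]
    exact OB.clm_const hQ (ContinuousLinearMap.inr ℝ E2 E2)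
  have h3 := OB.C2 ((H.a_at (H.mem0 hy)).of_le (by norm_cast)) hu1 hv1 huv
  refine h3.congr (Eventually.of_forall fun q => ?_)
  have : (q, Ph q) - (q, P q) = (0, Ph q - P q) := by simp
  simp only [this, H.a_p hy, sub_zero]

/-- logarithms of Jacobians -/
lemma lgd_sub {m : ℕ} (hP : ContDiffAt ℝ ∞ P 0) (hP0 : P 0 = y) (hPh : ContDiffAt ℝ ∞ Ph 0)
    (hPh0 : Ph 0 = y) (hQ : OB m fun q => Ph q - P q) {A : E2 ≃L[ℝ] E2}
    (hA : ∀ v, fderiv ℝ H.a (0, y) (v, 0) = A v) (hA' : ∀ q, A.symm q = H.Mt y q) :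
    OB m fun q => lgd (fderiv ℝ H.M y).det (fderiv ℝ (fun q => H.a (q, Ph q)) q)
      - lgd (fderiv ℝ H.M y).det (fderiv ℝ (fun q => H.a (q, P q)) q) := by
  have hne : (A : E2 →L[ℝ] E2).det * (fderiv ℝ H.M y).det ≠ 0 := by
    rw [H.det_Mt hA']; exact one_ne_zero
  have hFs := H.F_smooth hy hP hP0
  have hFhs := H.F_smooth hy hPh hPh0
  have t : ∀ {P : E2 → E2}, ContDiffAt ℝ ∞ P 0 → P 0 = y →
      Tendsto (fun q => fderiv ℝ (fun q => H.a (q, P q)) q) (𝓝 0) (𝓝 (A : E2 →L[ℝ] E2)) := by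
    intro P hP hP0
    have h1 := ((H.F_smooth hy hP hP0).fderiv_right (m := ∞) (by norm_cast)).continuousAt.tendsto
    rwa [H.F_fderiv hy hP hP0 hA] at h1
  have hd : OB m fun q => fderiv ℝ (fun q => H.a (q, Ph q)) q
      - fderiv ℝ (fun q => H.a (q, P q)) q := by
    have h1 := OB.fderiv (hFhs.sub hFs) (H.F_sub hy hP hP0 hPh hPh0 hQ)
    refine h1.congr ?_
    filter_upwards [(hFs.of_le (m := 1) (by norm_cast)).eventually (by simp),
      (hFhs.of_le (m := 1) (by norm_cast)).eventually (by simp)] with q h2 h3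
    exact fderiv_fun_sub (h3.differentiableAt one_ne_zero) (h2.differentiableAt one_ne_zero)
  exact OB.lip ((lgd_smooth hne).of_le (by norm_cast)) (t hPh hPh0) (t hP hP0) hd

/-- the logarithm of the Jacobian to first order -/
lemma lgd_sub2 {m : ℕ} (hP : ContDiffAt ℝ ∞ P 0) (hP0 : P 0 = y) (hPh : ContDiffAt ℝ ∞ Ph 0)
    (hPh0 : Ph 0 = y) (hQ : OB m fun q => Ph q - P q) {A : E2 ≃L[ℝ] E2}
    (hA : ∀ v, fderiv ℝ H.a (0, y) (v, 0) = A v) (hA' : ∀ q, A.symm q = H.Mt y q)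
    {G : E2 → E2} (hG : ContDiffAt ℝ ∞ G 0)
    (hGe : OB (m + 2) fun q => H.a (q, Ph q) - H.a (q, P q) - G q) :
    OB (m + 1) fun q => lgd (fderiv ℝ H.M y).det (fderiv ℝ (fun q => H.a (q, Ph q)) q)
      - lgd (fderiv ℝ H.M y).det (fderiv ℝ (fun q => H.a (q, P q)) q)
      - fderiv ℝ (lgd (fderiv ℝ H.M y).det) A (fderiv ℝ G q) := by
  have hne : (A : E2 →L[ℝ] E2).det * (fderiv ℝ H.M y).det ≠ 0 := by
    rw [H.det_Mt hA']; exact one_ne_zero
  have hFs := H.F_smooth hy hP hP0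
  have hFhs := H.F_smooth hy hPh hPh0
  have t : ∀ {P : E2 → E2}, ContDiffAt ℝ ∞ P 0 → P 0 = y →
      OB 1 (fun q => fderiv ℝ (fun q => H.a (q, P q)) q - (A : E2 →L[ℝ] E2)) := by
    intro P hP hP0
    have h1 := (H.F_smooth hy hP hP0).fderiv_right (m := ∞) (by norm_cast)
    exact OB.of_differentiableAt ((h1.differentiableAt (by simp)).sub_const _)
      (by rw [H.F_fderiv hy hP hP0 hA, sub_self])
  have hd : OB m fun q => fderiv ℝ (fun q => H.a (q, Ph q)) q
      - fderiv ℝ (fun q => H.a (q, P q)) q := by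
    have h1 := OB.fderiv (hFhs.sub hFs) (H.F_sub hy hP hP0 hPh hPh0 hQ)
    refine h1.congr ?_
    filter_upwards [(hFs.of_le (m := 1) (by norm_cast)).eventually (by simp),
      (hFhs.of_le (m := 1) (by norm_cast)).eventually (by simp)] with q h2 h3
    exact fderiv_fun_sub (h3.differentiableAt one_ne_zero) (h2.differentiableAt one_ne_zero)
  have h2 := OB.C2 ((lgd_smooth hne).of_le (by norm_cast)) (t hPh hPh0) (t hP hP0) hd
  have hdG : OB (m + 1) fun q => fderiv ℝ (fun q => H.a (q, Ph q)) q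
      - fderiv ℝ (fun q => H.a (q, P q)) q - fderiv ℝ G q := by
    have h1 := OB.fderiv ((hFhs.sub hFs).sub hG) hGe
    refine h1.congr ?_
    filter_upwards [(hFs.of_le (m := 1) (by norm_cast)).eventually (by simp),
      (hFhs.of_le (m := 1) (by norm_cast)).eventually (by simp),
      (hG.of_le (m := 1) (by norm_cast)).eventually (by simp)] with q h2 h3 h4
    have e1 : fderiv ℝ (fun q => H.a (q, Ph q) - H.a (q, P q) - G q) q
        = fderiv ℝ (fun q => H.a (q, Ph q) - H.a (q, P q)) q - fderiv ℝ G q :=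
      fderiv_fun_sub ((h3.differentiableAt one_ne_zero).sub (h2.differentiableAt one_ne_zero))
        (h4.differentiableAt one_ne_zero)
    rw [← fderiv_fun_sub (h3.differentiableAt one_ne_zero) (h2.differentiableAt one_ne_zero)]
    exact e1
  have h3 := h2.add (hdG.clm_const (fderiv ℝ (lgd (fderiv ℝ H.M y).det) A))
  refine h3.congr (Eventually.of_forall fun q => ?_)
  simp only [map_sub]
  abel

/-- the inverse of the base map -/
lemma Q_lin (hP : ContDiffAt ℝ ∞ P 0) (hP0 : P 0 = y) {A : E2 ≃L[ℝ] E2}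
    (hA : ∀ v, fderiv ℝ H.a (0, y) (v, 0) = A v) (hA' : ∀ q, A.symm q = H.Mt y q) {Q : E2 → E2}
    (hQ : ContDiffAt ℝ ∞ Q 0) (hQP : ∀ᶠ q in 𝓝 0, Q (H.a (q, P q)) = q) :
    Q 0 = 0 ∧ OB 2 fun q => Q q - H.Mt y q := by
  have hF0 := H.F_zero hy hP0
  have hQ0 : Q 0 = 0 := by
    have := hQP.self_of_nhds
    rwa [hF0] at this
  refine ⟨hQ0, ?_⟩
  have hFs := H.F_smooth hy hP hP0
  have h1 : HasFDerivAt (fun q => Q (H.a (q, P q)))
      ((fderiv ℝ Q 0).comp (A : E2 →L[ℝ] E2)) 0 := by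
    have h2 : HasFDerivAt Q (fderiv ℝ Q 0) (H.a (0, P 0)) := by
      rw [hF0]
      exact (hQ.differentiableAt (by simp)).hasFDerivAt
    have h3 : HasFDerivAt (fun q => H.a (q, P q)) (A : E2 →L[ℝ] E2) 0 := by
      rw [← H.F_fderiv hy hP hP0 hA]
      exact (hFs.differentiableAt (by simp)).hasFDerivAt
    exact HasFDerivAt.comp (g := Q) (0 : E2) h2 h3
  have h4 : HasFDerivAt (fun q => Q (H.a (q, P q))) (ContinuousLinearMap.id ℝ E2) 0 :=
    (hasFDerivAt_id (0 : E2)).congr_of_eventuallyEq hQP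
  have h5 : ∀ v, fderiv ℝ Q 0 (A v) = v := fun v =>
    congrArg (fun L : E2 →L[ℝ] E2 => L v) (h1.unique h4)
  have h6 : fderiv ℝ Q 0 = H.Mt y := by
    ext1 w
    rw [← hA', ← h5 (A.symm w), A.apply_symm_apply]
  have h7 := OB_lin hQ hQ0
  rwa [h6] at h7

/-- comparison of the inverses of two base maps -/
lemma Q_sub {m : ℕ} (hm : 1 ≤ m) (hP : ContDiffAt ℝ ∞ P 0) (hP0 : P 0 = y)
    (hPh : ContDiffAt ℝ ∞ Ph 0) (hPh0 : Ph 0 = y) (hPP : OB m fun q => Ph q - P q)
    {Q Qh : E2 → E2} (hQ : ContDiffAt ℝ ∞ Q 0)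
    (hQP : ∀ᶠ q in 𝓝 0, Q (H.a (q, P q)) = q)
    (hQPh : ∀ᶠ q in 𝓝 0, Qh (H.a (q, Ph q)) = q) : OB (m + 1) fun q => Qh q - Q q := by
  obtain ⟨A, hA, -⟩ := H.exists_A hy
  have h := gt_compare (b := fun z => z.1) (P' := Q) (Ph' := Qh) (B := 0) hm (A' := A) rfl
    (H.a_at (H.mem0 hy)) contDiffAt_fst (H.a_zero y hy) hA (H.a_p hy) (by
      intro v
      rw [fderiv_fst]
      rfl) hP hPh hQ hP0 hPh0 hQP hQPh hPP
  refine h.congr (Eventually.of_forall fun q => ?_)
  simp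

end F

end Half

end Vale.Agent.P207.N3
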