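import Vale.Agent.P207.N3.H391.XAct

/-!
# P207, line N3: the action of `φ` on the jets of the densities
-/

open Set Filter Topology Metric MeasureTheory Asymptotics InnerProductSpace
open scoped ContDiff Gradient RealInnerProductSpace

noncomputable section

set_option linter.unusedSectionVars false

namespace Vale.Agent.P207.N3

open Jet

/-- the triangular contraction `(ε₁ p₁ + c p₂^k, ε₂ p₂)` -/
def triM (ε1 ε2 c : ℝ) (k : ℕ) (p : E2) : E2 := !₂[ε1 * p 0 + c * p 1 ^ k, ε2 * p 1]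

namespace Half

variable (H : Half) {ε1 ε2 c : ℝ} {k : ℕ} {y : E2}

section expl

lemma fderiv_M (hM : H.M =ᶠ[𝓝 y] triM ε1 ε2 c k) (w : E2) :
    fderiv ℝ H.M y w = !₂[ε1 * w 0 + c * k * y 1 ^ (k - 1) * w 1, ε2 * w 1] := by
  rw [hM.fderiv_eq]
  have h0 := hasFDerivAt_coord 0 y
  have h1 := hasFDerivAt_coord 1 y
  have hd : DifferentiableAt ℝ (triM ε1 ε2 c k) y := by
    rw [differentiableAt_euclidean]
    intro i
    fin_cases i
    · exact ((h0.differentiableAt.const_mul ε1).add ((h1.differentiableAt.pow k).const_mul c))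
    · exact h1.differentiableAt.const_mul ε2
  have key : ∀ i : Fin 2, (fderiv ℝ (triM ε1 ε2 c k) y w) i
      = fderiv ℝ (fun p => triM ε1 ε2 c k p i) y w := by
    intro i
    have h2 : HasFDerivAt (fun p => triM ε1 ε2 c k p i)
        ((EuclideanSpace.proj i : E2 →L[ℝ] ℝ).comp (fderiv ℝ (triM ε1 ε2 c k) y)) y :=
      (EuclideanSpace.proj i : E2 →L[ℝ] ℝ).hasFDerivAt.comp y hd.hasFDerivAt
    rw [h2.fderiv]
    rfl
  ext i
  fin_cases i
  · refine (key 0).trans ?_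
    have h3 : HasFDerivAt (fun p => triM ε1 ε2 c k p 0) _ y :=
      (h0.const_mul ε1).add ((h1.pow k).const_mul c)
    rw [h3.fderiv]
    simp
    ring
  · refine (key 1).trans ?_
    have h3 : HasFDerivAt (fun p => triM ε1 ε2 c k p 1) _ y := h1.const_mul ε2
    rw [h3.fderiv]
    simp

lemma Mt_expl (hM : H.M =ᶠ[𝓝 y] triM ε1 ε2 c k) (q : E2) :
    H.Mt y q = !₂[ε1 * q 0, c * k * y 1 ^ (k - 1) * q 0 + ε2 * q 1] := by
  refine ext_inner_right ℝ fun w => ?_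
  unfold Mt
  rw [ContinuousLinearMap.adjoint_inner_left, H.fderiv_M hM]
  simp [PiLp.inner_apply, Fin.sum_univ_two]
  ring

lemma A_expl (h1 : ε1 ≠ 0) (h2 : ε2 ≠ 0) (hM : H.M =ᶠ[𝓝 y] triM ε1 ε2 c k) {A : E2 ≃L[ℝ] E2}
    (hA' : ∀ q, A.symm q = H.Mt y q) (q : E2) :
    A q = !₂[q 0 / ε1, (q 1 - c * k * y 1 ^ (k - 1) * (q 0 / ε1)) / ε2] := by
  apply A.symm.injective
  rw [A.symm_apply_apply, hA', H.Mt_expl hM]
  ext i
  fin_cases i
  · simp
    field_simp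
  · simp
    field_simp
    ring

lemma bil_expl (h1 : ε1 ≠ 0) (h2 : ε2 ≠ 0) (hy : y ∈ ball (0 : E2) H.r)
    (hM : ∀ᶠ p in 𝓝 y, H.M p = triM ε1 ε2 c k p) (q w : E2) :
    fderiv ℝ (fun p => fderiv ℝ H.a (0, p) (q, 0)) y w
      = !₂[0, -(c * k * ((k - 1 : ℕ) : ℝ) * y 1 ^ (k - 2) / (ε1 * ε2)) * w 1 * q 0] := by
  set v : E2 := !₂[0, -(c * k * q 0 / (ε1 * ε2))] with hv
  have e1 : (fun p => fderiv ℝ H.a (0, p) (q, 0)) =ᶠ[𝓝 y]
      fun p => !₂[q 0 / ε1, q 1 / ε2] + (p 1 ^ (k - 1)) • v := by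
    filter_upwards [hM.eventually_nhds, isOpen_ball.mem_nhds hy] with p hp hpr
    obtain ⟨A, hA, hA'⟩ := H.exists_A hpr
    rw [hA, H.A_expl h1 h2 hp hA']
    ext i
    fin_cases i
    · simp [hv]
    · simp [hv]
      field_simp
      ring
  rw [e1.fderiv_eq]
  have h3 : HasFDerivAt (fun p : E2 => (!₂[q 0 / ε1, q 1 / ε2] : E2) + (p 1 ^ (k - 1)) • v) _ y :=
    (((hasFDerivAt_coord 1 y).pow (k - 1)).smul_const v).const_add _
  rw [h3.fderiv]
  ext i
  have e3 : k - 1 - 1 = k - 2 := by omega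
  fin_cases i
  · simp [hv]
  · simp [hv, e3]
    field_simp

end expl

end Half

namespace Jet

/-- the function `q₁ ∂₂² (q^b / b!)` -/
def m2 (b : ℕ × ℕ) (q : E2) : ℝ := q 0 * D2 (D2 (mono b.1 b.2)) q

lemma m2_smooth (b : ℕ × ℕ) : ContDiff ℝ ∞ (m2 b) := by
  rw [contDiff_iff_contDiffAt]
  intro q
  exact (coord_smooth 0).contDiffAt.mul (smooth_D2 (smooth_D2 (mono_smooth _ _).contDiffAt))

lemma m2_eq_zero {b : ℕ × ℕ} (h : b.2 < 2) : m2 b = 0 := by
  ext q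
  unfold m2
  obtain ⟨i, j⟩ := b
  interval_cases j
  · rw [D2_mono_zero]
    simp [D2]
  · rw [D2_mono_succ, D2_mono_zero]
    simp

lemma m2_eq {i j : ℕ} (q : E2) : m2 (i, j + 2) q = ((i : ℝ) + 1) * mono (i + 1) j q := by
  unfold m2
  rw [D2_mono_succ, D2_mono_succ]
  unfold mono
  rw [Nat.factorial_succ]
  push_cast
  field_simp
  ring

lemma OB_m2 (b : ℕ × ℕ) : OB (b.1 + b.2 - 1) (m2 b) := by
  obtain ⟨i, j⟩ := b
  rcases lt_or_ge j 2 with h | h
  · rw [m2_eq_zero h]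
    exact isBigO_zero _ _
  · obtain ⟨j, rfl⟩ : ∃ j', j = j' + 2 := ⟨j - 2, by omega⟩
    have e : m2 (i, j + 2) = fun q => ((i : ℝ) + 1) * mono (i + 1) j q := by
      ext q
      exact m2_eq q
    rw [e]
    refine OB.const_mul ?_ _
    have h1 := OB_mono (i + 1) j
    have : i + 1 + j = (i, j + 2).1 + (i, j + 2).2 - 1 := by simp only; omega
    rwa [this] at h1

lemma D2_sum' {ι : Type*} (s : Finset ι) (c : ι → ℝ) (f : ι → E2 → ℝ)
    (hf : ∀ b ∈ s, ContDiff ℝ ∞ (f b)) :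
    D2 (fun q => ∑ b ∈ s, c b * f b q) = fun q => ∑ b ∈ s, c b * D2 (f b) q := by
  ext q
  rw [D2_sum s (fun b q => c b * f b q) fun b hb =>
    ((hf b hb).differentiable (by simp) q).const_mul _]
  refine Finset.sum_congr rfl fun b hb => ?_
  unfold D2
  rw [fderiv_const_mul ((hf b hb).differentiable (by simp) q)]
  rfl

lemma smooth_D2' {f : E2 → ℝ} (hf : ContDiff ℝ ∞ f) : ContDiff ℝ ∞ (D2 f) := by
  rw [contDiff_iff_contDiffAt] at *
  exact fun q => smooth_D2 (hf q)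

lemma D2D2_Sf {K : ℕ} (w : Ix K → ℝ) (q : E2) :
    q 0 * D2 (D2 (Sf w)) q = ∑ b : Ix K, w b * m2 b.1 q := by
  have e : Sf w = fun q => ∑ b : Ix K, w b * mono b.1.1 b.1.2 q := funext (Sf_eq_sum w)
  rw [e, D2_sum' _ _ _ fun b _ => mono_smooth _ _, D2_sum' _ _ _ fun b _ => smooth_D2' (mono_smooth _ _)]
  simp only [Finset.mul_sum, m2]
  refine Finset.sum_congr rfl fun b _ => ?_
  ring

end Jet

end Vale.Agent.P207.N3
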