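import Vale.Agent.P207.N3.H391.XAct2

/-!
# P207, line N3: the action of `φ` on the jets of the densities: the theorem
-/

open Set Filter Topology Metric MeasureTheory Asymptotics InnerProductSpace
open scoped ContDiff Gradient RealInnerProductSpace

noncomputable section

set_option linter.unusedSectionVars false

namespace Vale.Agent.P207.N3

open Jet

namespace Half

variable (H : Half)

/-- the jet of the density -/
def XJ (K : ℕ) (y : E2) : Ix K → ℝ := jv K (H.X y)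

lemma X_at {y : E2} (hy : y ∈ ball (0 : E2) H.r) : ContDiffAt ℝ ∞ (H.X y) 0 :=
  (H.X_smooth y hy).contDiffAt (ball_mem_nhds 0 H.r_pos)

/-- the Jacobian of the base map of the family -/
def LL {K : ℕ} (w : (Ix K → ℝ) × E2) : ℝ :=
  lgd (fderiv ℝ H.M (lab w.1)).det (fderiv ℝ (fun q => H.a (q, Pf (w.1, q))) w.2)

lemma LL_smooth {K : ℕ} (hK : 1 ≤ K) : ∀ᶠ w in 𝓝 (0 : (Ix K → ℝ) × E2),
    ContDiffAt ℝ ∞ H.LL w := by
  have h0r : (0 : E2) ∈ ball (0 : E2) H.r := mem_ball_self H.r_pos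
  obtain ⟨A, hA, hA'⟩ := H.exists_A h0r
  have hU : IsOpen (ball (0 : E2) H.r ×ˢ ball (0 : E2) H.r) := isOpen_ball.prod isOpen_ball
  have hκc : Continuous fun w : (Ix K → ℝ) × E2 => (w.2, Pf w) :=
    continuous_snd.prodMk (Pf_smooth K).continuous
  have hκ : ∀ᶠ w in 𝓝 (0 : (Ix K → ℝ) × E2),
      (w.2, Pf w) ∈ ball (0 : E2) H.r ×ˢ ball (0 : E2) H.r := by
    refine hκc.continuousAt.eventually_mem (hU.mem_nhds ?_)
    have : Pf (K := K) 0 = 0 := Pf_zero_left 0
    rw [this]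
    exact ⟨h0r, h0r⟩
  have hFs : ∀ w : (Ix K → ℝ) × E2, (w.2, Pf w) ∈ ball (0 : E2) H.r ×ˢ ball (0 : E2) H.r →
      ContDiffAt ℝ ∞ (fun w : (Ix K → ℝ) × E2 => H.a (w.2, Pf w)) w := by
    intro w hw
    exact ContDiffAt.comp (g := H.a) w (H.a_at hw)
      (contDiffAt_snd.prodMk (Pf_smooth K).contDiffAt)
  have hDs : ∀ w : (Ix K → ℝ) × E2, (w.2, Pf w) ∈ ball (0 : E2) H.r ×ˢ ball (0 : E2) H.r →
      ContDiffAt ℝ ∞ (fun w : (Ix K → ℝ) × E2 =>
        (fderiv ℝ (fun q => H.a (q, Pf (w.1, q))) w.2).det) w := by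
    intro w hw
    exact (det_smooth.contDiffAt).comp w
      (smooth_Dq (F := fun w : (Ix K → ℝ) × E2 => H.a (w.2, Pf w)) (hFs w hw))
  have hlab : ∀ᶠ w in 𝓝 (0 : (Ix K → ℝ) × E2), lab w.1 ∈ ball (0 : E2) H.r := by
    have hc : Continuous fun w : (Ix K → ℝ) × E2 => lab w.1 :=
      (lab_smooth K).continuous.comp continuous_fst
    refine hc.continuousAt.eventually_mem ?_
    have : lab (0 : (Ix K → ℝ) × E2).1 = 0 := lab_zero K
    rw [this]
    exact ball_mem_nhds 0 H.r_pos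
  have hMs : ∀ w : (Ix K → ℝ) × E2, lab w.1 ∈ ball (0 : E2) H.r →
      ContDiffAt ℝ ∞ (fun w : (Ix K → ℝ) × E2 => (fderiv ℝ H.M (lab w.1)).det) w := by
    intro w hw
    have h1 : ContDiffAt ℝ ∞ (fderiv ℝ H.M) (lab w.1) :=
      (H.M_smooth hw).fderiv_right (m := ∞) (by norm_cast)
    have h2 : ContDiffAt ℝ ∞ (fun w : (Ix K → ℝ) × E2 => lab w.1) w :=
      (lab_smooth K).contDiffAt.comp w contDiffAt_fst
    exact (det_smooth.contDiffAt).comp w (ContDiffAt.comp (g := fderiv ℝ H.M) w h1 h2)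
  have hne : ∀ᶠ w in 𝓝 (0 : (Ix K → ℝ) × E2),
      (fderiv ℝ (fun q => H.a (q, Pf (w.1, q))) w.2).det * (fderiv ℝ H.M (lab w.1)).det ≠ 0 := by
    have hc : ContinuousAt (fun w : (Ix K → ℝ) × E2 =>
        (fderiv ℝ (fun q => H.a (q, Pf (w.1, q))) w.2).det * (fderiv ℝ H.M (lab w.1)).det) 0 :=
      ((hDs 0 hκ.self_of_nhds).mul (hMs 0 hlab.self_of_nhds)).continuousAt
    refine hc.eventually_ne ?_
    have h1 : fderiv ℝ (fun q => H.a (q, Pf ((0 : (Ix K → ℝ) × E2).1, q)))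
        (0 : (Ix K → ℝ) × E2).2 = A :=
      H.F_fderiv h0r (P := fun q => Pf ((0 : Ix K → ℝ), q))
        (ContDiffAt.comp (g := Pf) (0 : E2) (Pf_smooth K).contDiffAt (by fun_prop))
        (by rw [Pf_zero_right _ hK, lab_zero]) hA
    have h2 : lab (0 : (Ix K → ℝ) × E2).1 = 0 := lab_zero K
    rw [h1, h2, H.det_Mt hA']
    exact one_ne_zero
  filter_upwards [hκ, hlab, hne] with w hw1 hw2 hw3
  have e : H.LL (K := K) = fun w => Real.log
      ((fderiv ℝ (fun q => H.a (q, Pf (w.1, q))) w.2).det * (fderiv ℝ H.M (lab w.1)).det) := by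
    ext w
    unfold LL
    rw [lgd_eq]
  rw [e]
  exact ContDiffAt.log ((hDs w hw1).mul (hMs w hw2)) hw3

/-- **The action of `φ` on the jets of the densities.** -/
theorem xact {ε1 ε2 c : ℝ} {k : ℕ} (h1 : ε1 ≠ 0) (h2 : ε2 ≠ 0)
    (hM : ∀ᶠ p in 𝓝 (0 : E2), H.M p = triM ε1 ε2 c k p) (K : ℕ) :
    ∃ (C : Ix K → Ix K → (Ix (K + 1) → ℝ) → ℝ) (D : Ix K → (Ix (K + 1) → ℝ) → ℝ),
    (∀ a b, ∀ᶠ u in 𝓝 0, ContDiffAt ℝ ∞ (C a b) u) ∧
    (∀ a, ∀ᶠ u in 𝓝 0, ContDiffAt ℝ ∞ (D a) u) ∧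
    (∀ᶠ y in 𝓝 0, ∀ a : Ix K, jet (H.X (H.M y)) a.1.1 a.1.2 =
      (∑ b : Ix K, H.XJ K y b * C a b (H.T (K + 1) y)) - D a (H.T (K + 1) y)) ∧
    (∀ a b : Ix K, a.ord < b.ord → ∀ᶠ u in 𝓝 0, C a b u = 0) ∧
    (∀ a b : Ix K, b.ord = a.ord → ∀ᶠ u in 𝓝 0,
      C a b u = jet (fun q => mono b.1.1 b.1.2 (H.Mt (lab u) q)) a.1.1 a.1.2) ∧
    (∀ a b : Ix K, ∀ᶠ u in 𝓝 0, C a b u = C a b (low (a.ord + 1) u)) ∧
    (∀ a : Ix K, ∀ᶠ u in 𝓝 0, D a u = D a (low (a.ord + 1) u) +
      ∑ b : Ix (K + 1), if b.ord = a.ord + 1 then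
        u b * (-(c * k * ((k - 1 : ℕ) : ℝ) * (lab u) 1 ^ (k - 2) / ε1) *
          jet (fun q => m2 b.1 (H.Mt (lab u) q)) a.1.1 a.1.2) else 0) := by
  have hK : 1 ≤ K + 1 := by omega
  have h0r : (0 : E2) ∈ ball (0 : E2) H.r := mem_ball_self H.r_pos
  obtain ⟨A0, hA0, -⟩ := H.exists_A h0r
  have hP00 : Pf (K := K + 1) 0 = 0 := Pf_zero_left 0
  obtain ⟨Q, hQs, hQE⟩ := fam_exists (b := fun z : E2 × E2 => z.1) H.r_pos H.a_smooth
    contDiff_fst.contDiffOn H.a_zero hA0 (Pf_smooth (K + 1)) hP00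
  -- the good jets
  set Good : (Ix (K + 1) → ℝ) → Prop := fun u => ContDiffAt ℝ ∞ Q (u, 0) ∧
    (∀ᶠ q in 𝓝 (0 : E2), Q (u, H.a (q, Pf (u, q))) = q) ∧
    lab u ∈ ball (0 : E2) H.r ∧ ContDiffAt ℝ ∞ H.LL (u, (0 : E2)) ∧
    (∀ᶠ p in 𝓝 (lab u), H.M p = triM ε1 ε2 c k p) with hGood
  have hin : Tendsto (fun u : Ix (K + 1) → ℝ => (u, (0 : E2))) (𝓝 0) (𝓝 0) := by
    have : Continuous fun u : Ix (K + 1) → ℝ => (u, (0 : E2)) := by fun_prop
    exact this.tendsto 0
  have hgood : ∀ᶠ u in 𝓝 (0 : Ix (K + 1) → ℝ), Good u := by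
    have hlt : Tendsto (lab (K := K + 1)) (𝓝 0) (𝓝 0) := by
      have := (lab_smooth (K + 1)).continuous.tendsto 0
      rwa [lab_zero] at this
    filter_upwards [hin.eventually hQs, hin.eventually hQE.eventually_nhds,
      hlt.eventually (ball_mem_nhds 0 H.r_pos), hin.eventually (H.LL_smooth hK),
      hlt.eventually hM.eventually_nhds] with u hu1 hu2 hu3 hu4 hu5
    refine ⟨hu1, ?_, hu3, hu4, hu5⟩
    have h4 : Tendsto (fun q : E2 => (u, q)) (𝓝 0) (𝓝 (u, 0)) := by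
      have : Continuous fun q : E2 => (u, q) := by fun_prop
      exact this.tendsto 0
    exact h4.eventually hu2
  have hQu : ∀ {u}, Good u → ContDiffAt ℝ ∞ (fun q => Q (u, q)) 0 := by
    intro u hu
    have h1 : ContDiffAt ℝ ∞ (fun q : E2 => (u, q)) 0 := by fun_prop
    exact ContDiffAt.comp (g := Q) (0 : E2) hu.1 h1
  have hLu : ∀ {u}, Good u → ContDiffAt ℝ ∞ (fun q => H.LL (u, q)) 0 := by
    intro u hu
    have h1 : ContDiffAt ℝ ∞ (fun q : E2 => (u, q)) 0 := by fun_prop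
    exact ContDiffAt.comp (g := H.LL) (0 : E2) hu.2.2.2.1 h1
  have hPfu : ∀ u : Ix (K + 1) → ℝ, ContDiffAt ℝ ∞ (fun q => Pf (u, q)) 0 := by
    intro u
    have h1 : ContDiffAt ℝ ∞ (fun q : E2 => (u, q)) 0 := by fun_prop
    exact ContDiffAt.comp (g := Pf) (0 : E2) (Pf_smooth (K + 1)).contDiffAt h1
  have hQ0 : ∀ {u}, Good u → Q (u, 0) = 0 := by
    intro u hu
    have := hu.2.1.self_of_nhds
    rwa [Pf_zero_right _ hK, H.a_zero _ hu.2.2.1] at this
  -- `Q` to first order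
  have hQlin : ∀ {u}, Good u → OB 2 fun q => Q (u, q) - H.Mt (lab u) q := by
    intro u hu
    obtain ⟨A, hA, hA'⟩ := H.exists_A hu.2.2.1
    exact (H.Q_lin hu.2.2.1 (hPfu u) (Pf_zero_right _ hK) hA hA' (hQu hu) hu.2.1).2
  have hQ1 : ∀ {u}, Good u → OB 1 fun q => Q (u, q) := fun hu =>
    OB.of_differentiableAt ((hQu hu).differentiableAt (by simp)) (hQ0 hu)
  have hL1 : ∀ u : Ix (K + 1) → ℝ, OB 1 fun q => H.Mt (lab u) q := fun u =>
    OB.of_differentiableAt (H.Mt (lab u)).differentiableAt (map_zero _)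
  have hLs : ∀ u : Ix (K + 1) → ℝ, ContDiffAt ℝ ∞ (fun q => H.Mt (lab u) q) 0 := fun u =>
    (H.Mt (lab u)).contDiff.contDiffAt
  -- truncation
  have hPlow : ∀ (m : ℕ) (u : Ix (K + 1) → ℝ),
      OB m fun q => Pf (u, q) - Pf (low (m + 1) u, q) := by
    intro m u
    have h1 := OB_grad (Sf_smooth u).contDiffAt (Sf_smooth (low (m + 1) u)).contDiffAt
      (m := m) (OB_Sf_low (m + 1) u)
    refine h1.congr (Eventually.of_forall fun q => ?_)
    simp only [grad_Sf]
  have hQlow : ∀ {m : ℕ} {u : Ix (K + 1) → ℝ}, 1 ≤ m → Good u → Good (low (m + 1) u) →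
      OB (m + 1) fun q => Q (u, q) - Q (low (m + 1) u, q) := by
    intro m u hm hu hul
    exact H.Q_sub hu.2.2.1 hm (P := fun q => Pf (low (m + 1) u, q)) (Ph := fun q => Pf (u, q))
      (hPfu _) (by rw [Pf_zero_right _ hK, lab_low (by omega)]) (hPfu _) (Pf_zero_right _ hK)
      (hPlow m u) (hQu hul) hul.2.1 hu.2.1
  refine ⟨fun a b u => jet (fun q => mono b.1.1 b.1.2 (Q (u, q))) a.1.1 a.1.2,
    fun a u => jet (fun q => H.LL (u, Q (u, q))) a.1.1 a.1.2, ?_, ?_, ?_, ?_, ?_, ?_, ?_⟩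
  · intro a b
    filter_upwards [hgood] with u hu
    exact smooth_jet (F := fun w => mono b.1.1 b.1.2 (Q w))
      (ContDiffAt.comp (g := mono b.1.1 b.1.2) _ (mono_smooth _ _).contDiffAt hu.1) _ _
  · intro a
    filter_upwards [hgood] with u hu
    have h3 : ContDiffAt ℝ ∞ (fun w : (Ix (K + 1) → ℝ) × E2 => (w.1, Q w)) (u, 0) :=
      contDiffAt_fst.prodMk hu.1
    exact smooth_jet (F := fun w => H.LL (w.1, Q w))
      (ContDiffAt.comp (g := H.LL) (u, (0 : E2)) (by rw [hQ0 hu]; exact hu.2.2.2.1) h3) _ _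
  · -- the equation
    filter_upwards [(H.T_tendsto (K + 1)).eventually hgood, ball_mem_nhds (0 : E2) H.ρ_pos]
      with y hy hyρ a
    have hyr : y ∈ ball (0 : E2) H.r := ball_subset_ball H.ρ_le hyρ
    have hMy : H.M y ∈ ball (0 : E2) H.r := H.M_maps y hyρ
    set u := H.T (K + 1) y with hu
    have hlab : lab u = y := H.lab_T hK hyr
    obtain ⟨A, hA, hA'⟩ := H.exists_A hyr
    have hO : OB (K + 1) fun q => ∇ (H.S y) q - Pf (u, q) := by
      have h1 := OB_grad (H.S_at hyr) (Sf_smooth u).contDiffAt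
        (OB_sub_Sf (K := K + 1) (H.S_at hyr) (H.S_val y hyr))
      refine h1.congr (Eventually.of_forall fun q => ?_)
      simp only [grad_Sf]
    have hg : ContDiffAt ℝ ∞ (∇ (H.S y)) 0 := smooth_grad (H.S_at hyr)
    have hPy : Pf (u, 0) = y := by rw [Pf_zero_right _ hK, hlab]
    -- the two base maps
    have hF : OB (K + 2) fun q => H.a (q, ∇ (H.S y) q) - H.a (q, Pf (u, q)) :=
      H.F_sub hyr (hPfu u) hPy hg (H.S_grad y hyr) hO
    have hJ : OB (K + 1) fun q => lgd (fderiv ℝ H.M y).det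
        (fderiv ℝ (fun q => H.a (q, ∇ (H.S y) q)) q) - lgd (fderiv ℝ H.M y).det
        (fderiv ℝ (fun q => H.a (q, Pf (u, q))) q) :=
      H.lgd_sub hyr (hPfu u) hPy hg (H.S_grad y hyr) hO hA hA'
    have hX : OB (K + 1) fun q => H.X y q - Sf (H.XJ K y) q :=
      OB_sub_Sf (H.X_at hyr) (H.X_val y hyr)
    have hFs := H.F_smooth hyr (hPfu u) hPy
    have hF0 : H.a (0, Pf (u, 0)) = 0 := by rw [hPy]; exact H.a_zero y hyr
    have hFh0 : H.a (0, ∇ (H.S y) 0) = 0 := H.F_zero hyr (H.S_grad y hyr)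
    have hXX : OB (K + 1) fun q => H.X (H.M y) (H.a (q, ∇ (H.S y) q))
        - H.X (H.M y) (H.a (q, Pf (u, q))) := by
      refine OB.lip ((H.X_at hMy).of_le (by norm_cast)) ?_ ?_ (hF.of_le (Nat.le_succ _))
      · have := (H.F_smooth hyr hg (H.S_grad y hyr)).continuousAt.tendsto
        rwa [hFh0] at this
      · have := hFs.continuousAt.tendsto
        rwa [hF0] at this
    set X' : E2 → ℝ := fun q => Sf (H.XJ K y) (Q (u, q)) - H.LL (u, Q (u, q)) with hX'
    have hLQ : ContDiffAt ℝ ∞ (fun q => H.LL (u, Q (u, q))) 0 :=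
      ContDiffAt.comp (g := fun q => H.LL (u, q)) (0 : E2)
        (by rw [hQ0 hy]; exact hLu hy) (hQu hy)
    have hSQ : ContDiffAt ℝ ∞ (fun q => Sf (H.XJ K y) (Q (u, q))) 0 :=
      ContDiffAt.comp (g := Sf (H.XJ K y)) (0 : E2) (Sf_smooth _).contDiffAt (hQu hy)
    have hkey : OB (K + 1) fun q => H.X (H.M y) (H.a (q, Pf (u, q)))
        - X' (H.a (q, Pf (u, q))) := by
      have h3 := (hX.sub hJ).sub hXX
      refine h3.congr ?_
      filter_upwards [hy.2.1, ball_mem_nhds (0 : E2) H.ρ_pos] with q hq hqρ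
      have e1 := H.X_inv y hyρ q hqρ
      have e2 : Real.log |(fderiv ℝ (fun q => H.a (q, ∇ (H.S y) q)) q).det *
          (fderiv ℝ H.M y).det| = lgd (fderiv ℝ H.M y).det
            (fderiv ℝ (fun q => H.a (q, ∇ (H.S y) q)) q) := rfl
      rw [e2] at e1
      have e3 : H.LL (u, q) = lgd (fderiv ℝ H.M y).det
          (fderiv ℝ (fun q => H.a (q, Pf (u, q))) q) := by
        unfold LL
        simp only [hlab]
      simp only [hX']
      rw [hq, e1, e3]
      ring
    have hstrict : HasStrictFDerivAt (fun q => H.a (q, Pf (u, q))) (A : E2 →L[ℝ] E2) 0 := by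
      rw [← H.F_fderiv hyr (hPfu u) hPy hA]
      exact hFs.hasStrictFDerivAt (by simp)
    have hfin : OB (K + 1) fun q => H.X (H.M y) q - X' q :=
      OB.of_comp (f := fun q => H.X (H.M y) q - X' q) hstrict hF0 hkey
    have h4 := jet_eq (H.X_at hMy) (hSQ.sub hLQ) hfin a.1.1 a.1.2 (by have := a.le; unfold Ix.ord at this; omega)
    rw [h4, jet_sub hSQ hLQ, jet_Sf_comp _ (hQu hy)]
  · -- the orders above
    intro a b hab
    filter_upwards [hgood] with u hu
    exact jet_mono_comp_zero (hQu hu) (hQ0 hu) hab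
  · -- the same order
    intro a b hab
    filter_upwards [hgood] with u hu
    have h3 : OB (b.ord + 1) fun q => mono b.1.1 b.1.2 (Q (u, q))
        - mono b.1.1 b.1.2 (H.Mt (lab u) q) :=
      OB.diff (mono_smooth _ _).contDiffAt (OB_mono _ _) b.one_le (hQ1 hu) (hL1 u) (hQlin hu)
    refine jet_eq (mono_comp_smooth _ _ (hQu hu)) (mono_comp_smooth _ _ (hLs u)) h3 _ _ ?_
    have : a.1.1 + a.1.2 = a.ord := rfl
    omega
  · -- dependence on the lower jets
    intro a b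
    filter_upwards [hgood, (low_tendsto (a.ord + 1)).eventually hgood] with u hu hul
    have h3 : OB (a.ord + 1) fun q => mono b.1.1 b.1.2 (Q (u, q))
        - mono b.1.1 b.1.2 (Q (low (a.ord + 1) u, q)) := by
      refine OB.lip (g := mono b.1.1 b.1.2) (z := 0)
        ((mono_smooth _ _).contDiffAt.of_le (by norm_cast)) ?_ ?_ (hQlow a.one_le hu hul)
      · have := (hQu hu).continuousAt.tendsto
        rwa [hQ0 hu] at this
      · have := (hQu hul).continuousAt.tendsto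
        rwa [hQ0 hul] at this
    refine jet_eq (mono_comp_smooth _ _ (hQu hu)) (mono_comp_smooth _ _ (hQu hul)) h3 _ _ ?_
    have : a.1.1 + a.1.2 = a.ord := rfl
    omega
  · -- the Jacobian
    intro a
    filter_upwards [hgood, (low_tendsto (a.ord + 1)).eventually hgood] with u hu hul
    set ul := low (a.ord + 1) u with hulow
    have hlab : lab ul = lab u := lab_low (by have := a.one_le; omega) u
    set y := lab u with hy
    obtain ⟨A, hA, hA'⟩ := H.exists_A hu.2.2.1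
    set w : Ix (K + 1) → ℝ := u - ul with hw
    set κ : ℝ := -(c * k * ((k - 1 : ℕ) : ℝ) * y 1 ^ (k - 2) / (ε1 * ε2)) with hκ
    have hPl0 : Pf (ul, 0) = y := by rw [Pf_zero_right _ hK, hlab]
    have hP0 : Pf (u, 0) = y := Pf_zero_right _ hK
    have hΔ : ∀ q, (Pf (u, q) - Pf (ul, q)) 1 = D2 (Sf w) q := by
      intro q
      rw [PiLp.sub_apply, ← grad_Sf, ← grad_Sf, grad_one, grad_one,
        ← D2_sub ((Sf_smooth u).differentiable (by simp) q) ((Sf_smooth ul).differentiable (by simp) q)]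
      simp only [Sf_sub]
      rfl
    -- second order comparison of the base maps
    set G : E2 → E2 := fun q => !₂[0, κ * D2 (Sf w) q * q 0] with hG
    have hDs : ContDiff ℝ ∞ (D2 (Sf w)) := smooth_D2' (Sf_smooth w)
    have hGs : ContDiff ℝ ∞ G := by
      rw [contDiff_euclidean]
      intro i
      fin_cases i
      · exact contDiff_const
      · exact (contDiff_const.mul hDs).mul (coord_smooth 0)
    have hbil := ob_bilin (H.a_at (H.mem0 hu.2.2.1)) (by
        filter_upwards [isOpen_ball.mem_nhds hu.2.2.1] with p hp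
        exact H.a_zero p hp) (P := fun q => Pf (ul, q)) (Ph := fun q => Pf (u, q))
        (OB_label (hPfu ul) hPl0) (OB_label (hPfu u) hP0) (hPlow a.ord u)
    have hGe : OB (a.ord + 2) fun q => H.a (q, Pf (u, q)) - H.a (q, Pf (ul, q)) - G q := by
      refine hbil.congr (Eventually.of_forall fun q => ?_)
      simp only
      rw [H.bil_expl h1 h2 hu.2.2.1 hu.2.2.2.2, hΔ]
    have hlg := H.lgd_sub2 hu.2.2.1 (P := fun q => Pf (ul, q)) (Ph := fun q => Pf (u, q))
      (hPfu ul) hPl0 (hPfu u) hP0 (hPlow a.ord u) hA hA' hGs.contDiffAt hGe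
    -- the linear term
    have hAe1 : (A e1) 0 = 1 / ε1 := by
      rw [H.A_expl h1 h2 hu.2.2.2.2 hA']; simp [e1]
    have hAe20 : (A e2) 0 = 0 := by
      rw [H.A_expl h1 h2 hu.2.2.2.2 hA']; simp [e2]
    have hAe21 : (A e2) 1 = 1 / ε2 := by
      rw [H.A_expl h1 h2 hu.2.2.2.2 hA']; simp [e2]
    have hdetA : (A : E2 →L[ℝ] E2).det = 1 / (ε1 * ε2) := by
      rw [det_E2]
      change (A e1) 0 * (A e2) 1 - (A e2) 0 * (A e1) 1 = _
      rw [hAe1, hAe20, hAe21]
      field_simp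
      ring
    have hne : (A : E2 →L[ℝ] E2).det * (fderiv ℝ H.M y).det ≠ 0 := by
      rw [H.det_Mt hA']; exact one_ne_zero
    have hlin : ∀ q, fderiv ℝ (lgd (fderiv ℝ H.M y).det) (A : E2 →L[ℝ] E2) (fderiv ℝ G q)
        = ε2 * κ * ∑ b : Ix (K + 1), w b * m2 b.1 q := by
      intro q
      rw [fderiv_lgd hne, hdetA]
      change ((A e1) 0 * (fderiv ℝ G q e2) 1 + (A e2) 1 * (fderiv ℝ G q e1) 0
        - ((A e2) 0 * (fderiv ℝ G q e1) 1 + (A e1) 1 * (fderiv ℝ G q e2) 0)) / _ = _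
      have hGd : DifferentiableAt ℝ G q := hGs.differentiable (by simp) q
      have hc : ∀ (i : Fin 2) (d : E2), (fderiv ℝ G q d) i = fderiv ℝ (fun q => G q i) q d := by
        intro i d
        have h3 : HasFDerivAt (fun q => G q i)
            ((EuclideanSpace.proj i : E2 →L[ℝ] ℝ).comp (fderiv ℝ G q)) q :=
          (EuclideanSpace.proj i : E2 →L[ℝ] ℝ).hasFDerivAt.comp q hGd.hasFDerivAt
        rw [h3.fderiv]
        rfl
      have hz : ∀ d : E2, (fderiv ℝ G q d) 0 = 0 := by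
        intro d
        rw [hc]
        have : (fun q => G q 0) = fun _ => (0 : ℝ) := rfl
        rw [this]
        simp
      have h11 : (fderiv ℝ G q e2) 1 = κ * (q 0 * D2 (D2 (Sf w)) q) := by
        rw [hc]
        have e : (fun q => G q 1) = fun q => κ * D2 (Sf w) q * q 0 := rfl
        rw [e]
        have h3 : HasFDerivAt (fun q => κ * D2 (Sf w) q * q 0) _ q :=
          ((hDs.differentiable (by simp) q).hasFDerivAt.const_mul κ).mul (hasFDerivAt_coord 0 q)
        rw [h3.fderiv]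
        change (κ * D2 (Sf w) q) * (e2 : E2) 0 + q 0 * (κ * D2 (D2 (Sf w)) q) = _
        rw [e2_zero]
        ring
      rw [hz, hz, hAe1, hAe20, h11, D2D2_Sf]
      field_simp
      ring
    -- the two logarithms
    have hΛ : OB (a.ord + 1) fun q => H.LL (u, q) - H.LL (ul, q)
        - ε2 * κ * ∑ b : Ix (K + 1), w b * m2 b.1 q := by
      refine hlg.congr (Eventually.of_forall fun q => ?_)
      have e1 : H.LL (u, q) = lgd (fderiv ℝ H.M y).det
          (fderiv ℝ (fun q => H.a (q, Pf (u, q))) q) := rfl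
      have e2 : H.LL (ul, q) = lgd (fderiv ℝ H.M y).det
          (fderiv ℝ (fun q => H.a (q, Pf (ul, q))) q) := by
        unfold LL
        simp only [hlab]
      beta_reduce
      rw [e1, e2, ← hlin]
    set Λ : E2 → ℝ := fun q => ∑ b : Ix (K + 1), w b * m2 b.1 q with hΛd
    have hΛs : ContDiff ℝ ∞ Λ := ContDiff.sum fun b _ => contDiff_const.mul (m2_smooth _)
    have hwz : ∀ b : Ix (K + 1), b.ord < a.ord + 1 → w b = 0 := by
      intro b hb
      simp [hw, hulow, low, hb]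
    have hΛO : OB a.ord Λ := by
      refine OB.sum fun b _ => ?_
      by_cases hb : b.ord < a.ord + 1
      · simp only [hwz b hb, zero_mul]
        exact isBigO_zero _ _
      · refine OB.const_mul ((OB_m2 b.1).of_le ?_) _
        have : b.1.1 + b.1.2 = b.ord := rfl
        omega
    -- compositions
    have hD1 : OB (a.ord + 1) fun q => H.LL (u, Q (u, q)) - H.LL (ul, Q (u, q))
        - ε2 * κ * Λ (Q (u, q)) := OB.comp hΛ (hQ1 hu)
    have hD2 : OB (a.ord + 1) fun q => H.LL (ul, Q (u, q)) - H.LL (ul, Q (ul, q)) := by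
      refine OB.lip (g := fun q => H.LL (ul, q)) (z := 0) ((hLu hul).of_le (by norm_cast)) ?_ ?_
        (hQlow a.one_le hu hul)
      · have := (hQu hu).continuousAt.tendsto
        rwa [hQ0 hu] at this
      · have := (hQu hul).continuousAt.tendsto
        rwa [hQ0 hul] at this
    have hD3 : OB (a.ord + 1) fun q => Λ (Q (u, q)) - Λ (H.Mt y q) :=
      OB.diff hΛs.contDiffAt hΛO a.one_le (hQ1 hu) (hL1 u) (hQlin hu)
    have hD : OB (a.ord + 1) fun q => H.LL (u, Q (u, q))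
        - (H.LL (ul, Q (ul, q)) + ε2 * κ * Λ (H.Mt y q)) := by
      refine ((hD1.add hD2).add (hD3.const_mul (ε2 * κ))).congr (Eventually.of_forall fun q => ?_)
      ring
    have hLQ : ∀ {u}, Good u → ContDiffAt ℝ ∞ (fun q => H.LL (u, Q (u, q))) 0 := by
      intro u hu
      exact ContDiffAt.comp (g := fun q => H.LL (u, q)) (0 : E2)
        (by rw [hQ0 hu]; exact hLu hu) (hQu hu)
    have hm2L : ∀ b : Ix (K + 1), ContDiffAt ℝ ∞ (fun q => m2 b.1 (H.Mt y q)) 0 := fun b =>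
      ContDiffAt.comp (g := m2 b.1) (0 : E2) (m2_smooth _).contDiffAt (hLs u)
    have hΛL : ContDiffAt ℝ ∞ (fun q => Λ (H.Mt y q)) 0 :=
      ContDiffAt.comp (g := Λ) (0 : E2) hΛs.contDiffAt (hLs u)
    have h5 := jet_eq (hLQ hu) ((hLQ hul).add (contDiffAt_const.mul hΛL)) hD a.1.1 a.1.2
      (Nat.lt_succ_self _)
    rw [h5, jet_add (hLQ hul) (contDiffAt_const.mul hΛL), jet_const_mul hΛL]
    congr 1
    have h6 : jet (fun q => Λ (H.Mt y q)) a.1.1 a.1.2
        = ∑ b : Ix (K + 1), w b * jet (fun q => m2 b.1 (H.Mt y q)) a.1.1 a.1.2 :=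
      jet_sum _ _ _ (fun b _ => hm2L b) _ _
    rw [h6, Finset.mul_sum]
    refine Finset.sum_congr rfl fun b _ => ?_
    split_ifs with hb
    · have : w b = u b := by simp [hw, hulow, low, hb]
      rw [this, hκ]
      field_simp
    · rcases lt_or_gt_of_ne hb with hb | hb
      · rw [hwz b hb]
        ring
      · have h7 : OB (b.ord - 1) fun q => m2 b.1 (H.Mt y q) := OB.comp (OB_m2 b.1) (hL1 u)
        have h8 := jet_eq_zero (hm2L b) h7 a.1.1 a.1.2 (by
          have : a.1.1 + a.1.2 = a.ord := rfl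
          omega)
        rw [h8]
        ring

end Half

end Vale.Agent.P207.N3
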