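import Vale.Agent.P207.N3.H391.XAct3
import Vale.Agent.P207.N3.H387.TPart

/-!
# P207, line N3: the action on the jets of the densities, in a normal form
-/

open Set Filter Topology Metric Asymptotics InnerProductSpace
open scoped ContDiff Gradient RealInnerProductSpace

noncomputable section

set_option linter.unusedSectionVars false

namespace Vale.Agent.P207.N3

open Jet

namespace Half

variable (H : Half)

lemma continuousOn_jetX (i j : ℕ) :
    ContinuousOn (fun y => jet (H.X y) i j) (ball 0 H.r) := by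
  have h := continuousOn_jet (S := H.X) (s := ball (0 : E2) H.r) (r := H.r) H.X_smooth i j
    (H.X_cont (i + j))
  have h2 : ContinuousOn (fun y : E2 => (y, (0 : E2))) (ball 0 H.r) := by fun_prop
  exact h.comp h2 fun y hy => ⟨hy, mem_ball_self H.r_pos⟩

lemma jetX_zero (i j : ℕ) : jet (H.X 0) i j = 0 := by
  have h : H.X 0 =ᶠ[𝓝 0] fun _ => (0 : ℝ) := by
    filter_upwards [ball_mem_nhds (0 : E2) H.r_pos] with q hq
    exact H.X_zero q hq
  rw [jet_congr h i j]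
  have h1 : jet (fun _ : E2 => (0 : ℝ)) i j = 0 := by
    refine jet_eq_zero contDiffAt_const (K := i + j + 1) ?_ i j (by omega)
    exact isBigO_zero _ _
  exact h1

lemma XJ_cont (K : ℕ) : ContinuousOn (H.XJ K) (ball 0 H.r) :=
  continuousOn_pi.2 fun _ => H.continuousOn_jetX _ _

lemma XJ_zero (K : ℕ) : H.XJ K 0 = 0 := by
  ext a
  exact H.jetX_zero _ _

lemma XJ_tendsto (K : ℕ) : Tendsto (H.XJ K) (𝓝 0) (𝓝 0) := by
  have h := ((H.XJ_cont K).continuousAt (ball_mem_nhds 0 H.r_pos)).tendsto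
  rwa [H.XJ_zero] at h

end Half

namespace Jet

lemma norm_low_le {K : ℕ} (m : ℕ) (u : Ix K → ℝ) : ‖low m u‖ ≤ ‖u‖ := by
  refine (pi_norm_le_iff_of_nonneg (norm_nonneg _)).2 fun b => ?_
  unfold low
  split_ifs
  · exact norm_le_pi_norm u b
  · rw [norm_zero]; exact norm_nonneg _

end Jet

open H387

/-- the jets of `q₁ ∂₂² (q^b / b!)` after a lower triangular linear map -/
lemma jet_m2 {L : E2 → E2} (hL : ContDiff ℝ ∞ L) {m₁ m₂ β : ℝ} (h0 : ∀ q, L q 0 = m₁ * q 0)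
    (h1 : ∀ q, L q 1 = β * q 0 + m₂ * q 1) (a b : ℕ × ℕ) :
    jet (fun q => m2 b (L q)) a.1 a.2 = if b.1 + b.2 = a.1 + a.2 + 1 ∧ b.1 + 1 ≤ a.1 then
      ((b.1 : ℝ) + 1) * ((a.1.choose (a.1 - b.1 - 1) : ℝ) * m₁ ^ (b.1 + 1) *
        β ^ (a.1 - b.1 - 1) * m₂ ^ a.2) else 0 := by
  obtain ⟨i, j⟩ := b
  rcases lt_or_ge j 2 with hj | hj
  · have e : (fun q => m2 (i, j) (L q)) = fun _ => (0 : ℝ) := by
      ext q
      have := m2_eq_zero (b := (i, j)) hj
      rw [this]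
      rfl
    rw [e, if_neg (by simp only; omega)]
    refine jet_eq_zero contDiffAt_const (K := a.1 + a.2 + 1) ?_ _ _ (by omega)
    exact isBigO_zero _ _
  · obtain ⟨j, rfl⟩ : ∃ j', j = j' + 2 := ⟨j - 2, by omega⟩
    have e : (fun q => m2 (i, j + 2) (L q)) = fun q => ((i : ℝ) + 1) * mono (i + 1) j (L q) := by
      ext q
      exact m2_eq (L q)
    rw [e, jet_const_mul (mono_comp_smooth _ _ hL.contDiffAt)]
    have h := jet_lin h0 h1 a (i + 1, j)
    simp only at h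
    rw [h]
    by_cases hc : i + (j + 2) = a.1 + a.2 + 1 ∧ i + 1 ≤ a.1
    · have e1 : a.1 - (i + 1) = a.1 - i - 1 := by omega
      rw [if_pos (by omega), if_pos hc, e1]
    · rw [if_neg hc, if_neg (by omega), mul_zero]

/-- the action of `φ` on the jets of the densities -/
structure XPart (H : Half) (K : ℕ) (m₁ m₂ c : ℝ) (k : ℕ) where
  r : ℝ
  r_pos : 0 < r
  g : Ix K → (JJ K → ℝ) → ℝ
  smooth : ∀ a, ContDiffOn ℝ ∞ (g a) (ball 0 r)
  zero : ∀ a, g a 0 = 0
  dep : ∀ a, DependsOn (g a) (dd K (.inr a))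
  act : ∀ᶠ y in 𝓝 (0 : E2), ∀ a : Ix K,
    jet (H.X (H.M y)) a.1.1 a.1.2 =
      (∑ b : Ix K, if b.1.1 + b.1.2 = a.1.1 + a.1.2 ∧ b.1.1 ≤ a.1.1 then
        (a.1.1.choose (a.1.1 - b.1.1) : ℝ) * m₁ ^ b.1.1 * (c * k * y 1 ^ (k - 1)) ^
          (a.1.1 - b.1.1) * m₂ ^ a.1.2 * jet (H.X y) b.1.1 b.1.2 else 0)
      + (∑ b : Ix (K + 1), if b.1.1 + b.1.2 = a.1.1 + a.1.2 + 1 ∧ b.1.1 + 1 ≤ a.1.1 then
        (a.1.1.choose (a.1.1 - b.1.1 - 1) : ℝ) * m₁ ^ b.1.1 * m₂ ^ a.1.2 *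
          (c * k * y 1 ^ (k - 1)) ^ (a.1.1 - b.1.1 - 1) *
          (c * k * ((k - 1 : ℕ) : ℝ) * y 1 ^ (k - 2)) * ((b.1.1 : ℝ) + 1) *
          jet (H.S y) b.1.1 b.1.2 else 0)
      + g a (Sum.elim (H.T (K + 1) y) (H.XJ K y))

theorem xpart (H : Half) (K : ℕ) {m₁ m₂ c : ℝ} {k : ℕ} (n1 : m₁ ≠ 0) (n2 : m₂ ≠ 0)
    (hM : MForm H m₁ m₂ c k) : Nonempty (XPart H K m₁ m₂ c k) := by
  obtain ⟨C, D, hC, hD, hE, hCgt, hCeq, hClow, hDtop⟩ := H.xact n1 n2 hM K
  have hs : ∀ᶠ u in 𝓝 (0 : Ix (K + 1) → ℝ), ∀ a : Ix K,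
      (∀ b, ContDiffAt ℝ ∞ (C a b) u) ∧ ContDiffAt ℝ ∞ (D a) u := by
    rw [eventually_all]
    intro a
    exact (eventually_all.2 (hC a)).and (hD a)
  obtain ⟨r, hr, hrs⟩ := Metric.eventually_nhds_iff_ball.1 hs
  have hJ0 : ∀ a, D a 0 = 0 := by
    intro a
    have h1 := hE.self_of_nhds a
    rw [H.M_zero, H.T_zero, H.jetX_zero] at h1
    have h2 : ∑ b : Ix K, H.XJ K 0 b * C a b 0 = 0 := by
      refine Finset.sum_eq_zero fun b _ => ?_
      rw [H.XJ_zero]
      simp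
    rw [h2, zero_sub] at h1
    linarith
  refine ⟨⟨r, hr, fun a z => (∑ b : Ix K, if b.ord < a.ord then
      z (.inr b) * C a b (low (a.ord + 1) fun i => z (.inl i)) else 0)
      - D a (low (a.ord + 1) fun i => z (.inl i)), ?_, ?_, ?_, ?_⟩⟩
  · intro a z hz
    have hcont : ContDiff ℝ ∞ fun z : JJ K → ℝ => (fun i => z (.inl i) : Ix (K + 1) → ℝ) := by
      rw [contDiff_pi]
      intro i
      exact contDiff_apply ℝ ℝ _
    have hlowc : ContDiff ℝ ∞ fun z : JJ K → ℝ => low (a.ord + 1) fun i => z (.inl i) :=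
      (low_smooth (a.ord + 1)).comp hcont
    have hmem : (low (a.ord + 1) fun i => z (.inl i)) ∈ ball (0 : Ix (K + 1) → ℝ) r := by
      rw [mem_ball_zero_iff] at hz ⊢
      refine (norm_low_le _ _).trans_lt (lt_of_le_of_lt ?_ hz)
      exact (pi_norm_le_iff_of_nonneg (norm_nonneg _)).2 fun b => norm_le_pi_norm z (.inl b)
    refine ContDiffAt.contDiffWithinAt ?_
    refine ContDiffAt.sub (ContDiffAt.sum fun b _ => ?_) ?_
    · by_cases hb : b.ord < a.ord
      · simp only [hb, if_true]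
        exact (contDiff_apply ℝ ℝ (Sum.inr b : JJ K)).contDiffAt.mul
          (ContDiffAt.comp (g := C a b) z ((hrs _ hmem a).1 b) hlowc.contDiffAt)
      · simp only [hb, if_false]
        exact contDiffAt_const
    · exact ContDiffAt.comp (g := D a) z (hrs _ hmem a).2 hlowc.contDiffAt
  · intro a
    have h1 : (fun i => (0 : JJ K → ℝ) (.inl i)) = (0 : Ix (K + 1) → ℝ) := rfl
    simp only [Pi.zero_apply, zero_mul, ite_self, Finset.sum_const_zero, zero_sub]
    have h2 : (low (a.ord + 1) fun _ : Ix (K + 1) => (0 : ℝ)) = 0 := low_zero _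
    rw [h2, hJ0, neg_zero]
  · intro a z w hzw
    have h1 : (low (a.ord + 1) fun i => z (.inl i)) = low (a.ord + 1) fun i => w (.inl i) := by
      ext b
      unfold low
      split_ifs with hb
      · refine hzw _ (Or.inl ⟨b, rfl, ?_⟩)
        have e1 : b.ord = b.1.1 + b.1.2 := rfl
        have e2 : a.ord = a.1.1 + a.1.2 := rfl
        omega
      · rfl
    simp only [h1]
    congr 1
    refine Finset.sum_congr rfl fun b _ => ?_
    split_ifs with hb
    · have h2 : z (.inr b) = w (.inr b) := hzw _ (Or.inr ⟨b, rfl, hb⟩)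
      rw [h2]
    · rfl
  · have hall : ∀ᶠ u in 𝓝 (0 : Ix (K + 1) → ℝ), ∀ a : Ix K, (∀ b : Ix K,
        (a.ord < b.ord → C a b u = 0) ∧
        (b.ord = a.ord → C a b u = jet (fun q => mono b.1.1 b.1.2 (H.Mt (lab u) q)) a.1.1 a.1.2) ∧
        C a b u = C a b (low (a.ord + 1) u)) ∧
        D a u = D a (low (a.ord + 1) u) +
          ∑ b : Ix (K + 1), if b.ord = a.ord + 1 then
            u b * (-(c * k * ((k - 1 : ℕ) : ℝ) * (lab u) 1 ^ (k - 2) / m₁) *
              jet (fun q => m2 b.1 (H.Mt (lab u) q)) a.1.1 a.1.2) else 0 := by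
      rw [eventually_all]
      intro a
      refine (eventually_all.2 fun b => ?_).and (hDtop a)
      by_cases h1 : a.ord < b.ord
      · filter_upwards [hCgt a b h1, hClow a b] with u hu1 hu2
        exact ⟨fun _ => hu1, fun h => absurd h (by omega), hu2⟩
      · by_cases h2 : b.ord = a.ord
        · filter_upwards [hCeq a b h2, hClow a b] with u hu1 hu2
          exact ⟨fun h => absurd h h1, fun _ => hu1, hu2⟩
        · filter_upwards [hClow a b] with u hu2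
          exact ⟨fun h => absurd h h1, fun h => absurd h h2, hu2⟩
    filter_upwards [hE, (H.T_tendsto (K + 1)).eventually hall, Mt_form hM,
      ball_mem_nhds (0 : E2) H.r_pos] with y h1 h2 h3 hyr a
    obtain ⟨h4, h5⟩ := h2 a
    have hlab : lab (H.T (K + 1) y) = y := H.lab_T (by omega) hyr
    have hL0 : ∀ q, H.Mt y q 0 = m₁ * q 0 := fun q => (h3 q).1
    have hL1 : ∀ q, H.Mt y q 1 = c * k * y 1 ^ (k - 1) * q 0 + m₂ * q 1 := fun q => (h3 q).2
    rw [h1 a, h5, hlab]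
    have e1 : (fun i => (Sum.elim (H.T (K + 1) y) (H.XJ K y) : JJ K → ℝ) (.inl i))
        = H.T (K + 1) y := rfl
    simp only [e1, Sum.elim_inr]
    have s1 : ∑ b : Ix K, H.XJ K y b * C a b (H.T (K + 1) y)
        = (∑ b : Ix K, if b.1.1 + b.1.2 = a.1.1 + a.1.2 ∧ b.1.1 ≤ a.1.1 then
          (a.1.1.choose (a.1.1 - b.1.1) : ℝ) * m₁ ^ b.1.1 * (c * k * y 1 ^ (k - 1)) ^
          (a.1.1 - b.1.1) * m₂ ^ a.1.2 * jet (H.X y) b.1.1 b.1.2 else 0)
          + ∑ b : Ix K, if b.ord < a.ord then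
            H.XJ K y b * C a b (low (a.ord + 1) (H.T (K + 1) y)) else 0 := by
      rw [← Finset.sum_add_distrib]
      refine Finset.sum_congr rfl fun b _ => ?_
      obtain ⟨h6, h7, h8⟩ := h4 b
      have eb : b.ord = b.1.1 + b.1.2 := rfl
      have ea : a.ord = a.1.1 + a.1.2 := rfl
      rcases lt_trichotomy a.ord b.ord with h | h | h
      · rw [h6 h, mul_zero, if_neg (by omega), if_neg (by omega), add_zero]
      · rw [h7 h.symm, hlab, jet_lin hL0 hL1, if_neg (c := b.ord < a.ord) (by omega), add_zero]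
        have hX : H.XJ K y b = jet (H.X y) b.1.1 b.1.2 := rfl
        by_cases hc : b.1.1 ≤ a.1.1
        · rw [if_pos ⟨by omega, hc⟩, if_pos ⟨by omega, hc⟩, hX]
          ring
        · rw [if_neg (fun h => hc h.2), if_neg (fun h => hc h.2), mul_zero]
      · rw [if_neg (c := b.1.1 + b.1.2 = a.1.1 + a.1.2 ∧ b.1.1 ≤ a.1.1) (by omega), if_pos h,
          zero_add, h8]
    have s2 : (∑ b : Ix (K + 1), if b.ord = a.ord + 1 then
          H.T (K + 1) y b * (-(c * k * ((k - 1 : ℕ) : ℝ) * y 1 ^ (k - 2) / m₁) *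
            jet (fun q => m2 b.1 (H.Mt y q)) a.1.1 a.1.2) else 0)
        = -∑ b : Ix (K + 1), if b.1.1 + b.1.2 = a.1.1 + a.1.2 + 1 ∧ b.1.1 + 1 ≤ a.1.1 then
          (a.1.1.choose (a.1.1 - b.1.1 - 1) : ℝ) * m₁ ^ b.1.1 * m₂ ^ a.1.2 *
          (c * k * y 1 ^ (k - 1)) ^ (a.1.1 - b.1.1 - 1) *
          (c * k * ((k - 1 : ℕ) : ℝ) * y 1 ^ (k - 2)) * ((b.1.1 : ℝ) + 1) *
          jet (H.S y) b.1.1 b.1.2 else 0 := by
      rw [← Finset.sum_neg_distrib]
      refine Finset.sum_congr rfl fun b _ => ?_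
      have eb : b.ord = b.1.1 + b.1.2 := rfl
      have ea : a.ord = a.1.1 + a.1.2 := rfl
      have hT : H.T (K + 1) y b = jet (H.S y) b.1.1 b.1.2 := rfl
      rw [jet_m2 (H.Mt y).contDiff hL0 hL1]
      by_cases hc : b.1.1 + b.1.2 = a.1.1 + a.1.2 + 1
      · rw [if_pos (c := b.ord = a.ord + 1) (by omega)]
        by_cases hd : b.1.1 + 1 ≤ a.1.1
        · rw [if_pos ⟨hc, hd⟩, if_pos ⟨hc, hd⟩, hT, pow_succ m₁ b.1.1]
          field_simp
          try ring
        · rw [if_neg (fun h => hd h.2), if_neg (fun h => hd h.2)]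
          simp
      · rw [if_neg (c := b.ord = a.ord + 1) (by omega), if_neg (fun h => hc h.1), neg_zero]
    rw [s1, s2]
    ring

end Vale.Agent.P207.N3
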